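import Vale.Agent.P195E.RedCat
import Vale.Agent.P195A.Surj

/-!
# P195: lifting along an augmentation and comparison of `H_0`, for sources `O(a,b)`, `F(a,b)`,
`K(a,b)` in the category of filtered modules
-/

namespace P195E

open CategoryTheory P195A

variable {k : Type} [Field k]

namespace FOb

/-! ### the generation facts for objects given by generators -/

theorem surjX_gen {I J : Type} [Fintype I] [DecidableEq I] [Fintype J]
    {dw dd : J → ℤ} {g : J → I → Wo k} {a b : ℤ}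
    (h : ∀ j, dw j + dd j ≠ a + b ∨ dd j ≤ b) : SurjX (gen k I J dw dd g) a b := by
  rintro u ⟨c, hc, rfl⟩
  have key : ∀ j, ∃ s : Fin 2 → Wo k, ∃ r ∈ Dg k (dw j - (a - 1)) (dd j - (b + 2)),
      (∀ i, s i ∈ Dg k (dw j - a) (dd j - (b + 1))) ∧
      c j = xo k 0 * s 0 + xo k 1 * s 1 + r := by
    intro j
    have hcj := hc j
    rcases h j with hj | hj
    · have e1 : dw j - (a - 1) = (dw j - a) + 1 := by ring
      rw [e1] at hcj
      obtain ⟨s, r, hr, hs, h1⟩ := surj_x (by omega) hcj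
      refine ⟨s, r, ?_, hs, h1⟩
      rw [e1]
      have e2 : dd j - (b + 2) = dd j - (b + 1) - 1 := by ring
      rw [e2]
      exact hr
    · rw [Dg_eq_bot (Or.inl (by omega)), Submodule.mem_bot] at hcj
      refine ⟨0, 0, Submodule.zero_mem _, fun i => Submodule.zero_mem _, ?_⟩
      simp [hcj]
  choose s r hr hs hcs using key
  refine ⟨fun i l => ∑ j, s j i * g j l, fun l => ∑ j, r j * g j l, ⟨r, hr, rfl⟩,
    fun i => ⟨fun j => s j i, fun j => hs j i, rfl⟩, ?_⟩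
  funext l
  simp only [Finset.mul_sum, ← mul_assoc]
  rw [← Finset.sum_add_distrib, ← Finset.sum_add_distrib]
  refine Finset.sum_congr rfl fun j _ => ?_
  rw [hcs j, add_mul, add_mul]

theorem surjP_gen {I J : Type} [Fintype I] [DecidableEq I] [Fintype J]
    {dw dd : J → ℤ} {g : J → I → Wo k} {a b : ℤ}
    (h : ∀ j, dd j ≠ b ∨ dw j ≤ a) : SurjP (gen k I J dw dd g) a b := by
  rintro u ⟨c, hc, rfl⟩
  have key : ∀ j, ∃ s : Fin 2 → Wo k, ∃ r ∈ Dg k (dw j - (a + 1)) (dd j - (b + 1)),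
      (∀ i, s i ∈ Dg k (dw j - a) (dd j - (b + 1))) ∧
      c j = po k 0 * s 0 + po k 1 * s 1 + r := by
    intro j
    have hcj := hc j
    by_cases hj : dd j = b
    · have hj' : dw j ≤ a := (h j).resolve_left (fun h' => h' hj)
      rw [Dg_eq_bot (Or.inr (by omega)), Submodule.mem_bot] at hcj
      refine ⟨0, 0, Submodule.zero_mem _, fun i => Submodule.zero_mem _, ?_⟩
      simp [hcj]
    · have e1 : dw j - (a + 1) = (dw j - a) - 1 := by ring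
      have e2 : dd j - b = (dd j - (b + 1)) + 1 := by ring
      rw [e1, e2] at hcj
      obtain ⟨s, r, hr, hs, h1⟩ := surj_p (by omega) hcj
      refine ⟨s, r, ?_, hs, h1⟩
      rw [e1]
      exact hr
  choose s r hr hs hcs using key
  refine ⟨fun i l => ∑ j, s j i * g j l, fun l => ∑ j, r j * g j l, ⟨r, hr, rfl⟩,
    fun i => ⟨fun j => s j i, fun j => hs j i, rfl⟩, ?_⟩
  funext l
  simp only [Finset.mul_sum, ← mul_assoc]
  rw [← Finset.sum_add_distrib, ← Finset.sum_add_distrib]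
  refine Finset.sum_congr rfl fun j _ => ?_
  rw [hcs j, add_mul, add_mul]

theorem surjX_O {a' b' a b : ℤ} (h : a' + b' ≠ a + b ∨ b' ≤ b) : SurjX (O k a' b') a b :=
  surjX_gen fun _ => h

theorem surjP_O {a' b' a b : ℤ} (h : b' ≠ b ∨ a' ≤ a) : SurjP (O k a' b') a b :=
  surjP_gen fun _ => h

theorem surjX_FF {a' b' a b : ℤ} (h : a' + b' + 1 ≠ a + b ∨ b' + 2 ≤ b) :
    SurjX (FF k a' b') a b := by
  refine surjX_gen fun j => ?_
  fin_cases j <;> simp <;> omega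

theorem surjX_KK {a' b' a b : ℤ} (h : a' + b' + 1 ≠ a + b ∨ b' + 1 ≤ b)
    (h' : a' + b' + 2 ≠ a + b ∨ b' + 1 ≤ b) : SurjX (KK k a' b') a b := by
  refine surjX_gen fun j => ?_
  fin_cases j <;> simp <;> omega

theorem surjP_FF {a' b' a b : ℤ} (h : b' + 1 ≠ b ∨ a' ≤ a) (h' : b' + 2 ≠ b ∨ a' - 1 ≤ a) :
    SurjP (FF k a' b') a b := by
  refine surjP_gen fun j => ?_
  fin_cases j <;> simp <;> omega

theorem surjP_KK {a' b' a b : ℤ} (h : b' + 1 ≠ b ∨ a' + 1 ≤ a) : SurjP (KK k a' b') a b := by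
  refine surjP_gen fun j => ?_
  fin_cases j <;> simp <;> omega

/-- the generation facts for the twisted object -/
theorem surjX_Phi {E : FOb k} {a b : ℤ} (h : SurjX E (a - 1) (b - 1)) :
    SurjX (Phi.obj E) a b := by
  intro u hu
  have hu' : u ∈ E.filt (a - 1 - 1) (b - 1 + 1) := by
    have h1 : u ∈ E.filt (a - 1 - 1) (b + 1 - 1) := hu
    rwa [show b + 1 - 1 = b - 1 + 1 by ring] at h1
  obtain ⟨v, w, hw, hv, h1⟩ := h u hu'
  refine ⟨v, w, ?_, fun i => ?_, h1⟩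
  · show w ∈ E.filt (a - 1 - 1) (b + 2 - 1)
    rwa [show b + 2 - 1 = b - 1 + 2 by ring]
  · show v i ∈ E.filt (a - 1) (b + 1 - 1)
    rw [show b + 1 - 1 = b - 1 + 1 by ring]
    exact hv i

theorem surjP_Phi {E : FOb k} {a b : ℤ} (h : SurjP E (a - 1) (b - 1)) :
    SurjP (Phi.obj E) a b := by
  intro u hu
  have hu' : u ∈ E.filt (a - 1 + 1) (b - 1) := by
    have h1 : u ∈ E.filt (a + 1 - 1) (b - 1) := hu
    rwa [show a + 1 - 1 = a - 1 + 1 by ring] at h1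
  obtain ⟨v, w, hw, hv, h1⟩ := h u hu'
  refine ⟨v, w, ?_, fun i => ?_, h1⟩
  · show w ∈ E.filt (a + 1 - 1) (b + 1 - 1)
    rwa [show a + 1 - 1 = a - 1 + 1 by ring, show b + 1 - 1 = b - 1 + 1 by ring]
  · show v i ∈ E.filt (a - 1) (b + 1 - 1)
    rw [show b + 1 - 1 = b - 1 + 1 by ring]
    exact hv i

/-! ### comparison of `H_0` -/

/-- `h'(F') ⊆ h(F)` in degree `(a,b)` -/
def ImLe {F F' : FOb k} (h : Aug F) (h' : Aug F') (a b : ℤ) : Prop :=
  ∀ u' ∈ F'.filt a b, ∃ u ∈ F.filt a b, h.h u = h'.h u'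

section H0

variable {D E F F' E' : FOb k} {e : D ⟶ E} {f : E ⟶ F} {f' : E' ⟶ F'} {c : F ⟶ F'}
  {h : Aug F} {h' : Aug F'} {lam : k}

theorem aug_comp_zero (hf' : ∀ u, h'.h (act (F := F') f'.1 u) = 0) {S : FOb k} (z : S ⟶ E')
    (i : S.I) : h'.h ((z ≫ f').1 i) = 0 := by
  rw [comp_row]
  exact hf' _

theorem aug_comp (hc : ∀ u, h'.h (act (F := F') c.1 u) = lam • h.h u) {S : FOb k} (x : S ⟶ F)
    (i : S.I) : h'.h ((x ≫ c).1 i) = lam • h.h (x.1 i) := by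
  rw [comp_row]
  exact hc _

theorem aug_zero_of_comp (hlam : lam ≠ 0)
    (hc : ∀ u, h'.h (act (F := F') c.1 u) = lam • h.h u)
    (hf' : ∀ u, h'.h (act (F := F') f'.1 u) = 0) {S : FOb k} (x : S ⟶ F) (z : S ⟶ E')
    (hxz : x ≫ c = z ≫ f') (i : S.I) : h.h (x.1 i) = 0 := by
  have h1 := aug_comp hc x i
  rw [hxz, aug_comp_zero hf'] at h1
  exact (smul_eq_zero.1 h1.symm).resolve_left hlam

/-- lifting from the source `O(a,b)` -/
theorem lift_O {a b : ℤ} (him : ImLe h h' a b) (x : O k a b ⟶ F') :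
    ∃ y : O k a b ⟶ F, ∀ i, h.h (y.1 i) = h'.h (x.1 i) := by
  obtain ⟨u, hu, hu'⟩ := him (x.1 ()) (O_homs_iff.1 x.2)
  exact ⟨⟨fun _ => u, O_homs_iff.2 hu⟩, fun _ => hu'⟩

/-- lifting from the source `F(a,b)` -/
theorem lift_FF {a b : ℤ} (hef : ∀ u, h.h (act (F := F) f.1 u) = 0)
    (hA : ImLe h h' a (b + 1)) (hB : ImLe h h' (a - 1) (b + 2))
    (hC : ExAug f h (a - 1) (b + 1)) (hs : SurjX E a b) (x : FF k a b ⟶ F') :
    ∃ y : FF k a b ⟶ F, ∀ i : Fin 2, h.h (y.1 i) = h'.h (x.1 i) := by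
  have hx := FF_HG.1 x.2
  obtain ⟨y, hy, hy'⟩ := HG_surj (actl f) h.h (fun i => lml E.I (xo k i))
    (fun i => lml F.I (xo k i)) (fun i => xo k i)
    (fun i x => actl_lml f _ x) (fun i x => h.lin _ x) (fun x => hef x)
    (A₂ := E.filt a (b + 1)) (B₂ := E.filt (a - 1) (b + 2)) (C₂ := E.filt (a - 1) (b + 1))
    (A₁ := F.filt a (b + 1)) (B₁ := F.filt (a - 1) (b + 2)) (C₁ := F.filt (a - 1) (b + 1))
    (A₀ := (F'.filt a (b + 1)).map h'.h) (B₀ := (F'.filt (a - 1) (b + 2)).map h'.h)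
    (fun x hx => actl_mem f hx) (fun x hx => actl_mem f hx)
    (filt_mono F (by omega)) (fun i x hx => xo_filt F i hx)
    (by
      rintro _ ⟨u', hu', rfl⟩
      exact hA u' hu')
    (by
      rintro _ ⟨u', hu', rfl⟩
      exact hB u' hu')
    (fun x hx h => hC x hx h)
    (fun x hx => by
      obtain ⟨v, w, hw, hv, h⟩ := hs x hx
      exact ⟨v, w, hw, hv, h⟩)
    (z := fun i => h'.h (x.1 i))
    ⟨fun i => ⟨x.1 i, hx.1 i, rfl⟩, by
      refine ⟨_, hx.2, ?_⟩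
      rw [map_add]
      exact congrArg₂ (· + ·) (h'.lin _ _) (h'.lin _ _)⟩
  exact ⟨⟨y, FF_HG.2 hy⟩, hy'⟩

/-- lifting from the source `K(a,b)` -/
theorem lift_KK {a b : ℤ} (hef : ∀ u, h.h (act (F := F) f.1 u) = 0)
    (hA : ImLe h h' a (b + 1)) (hB : ImLe h h' (a + 1) (b + 1))
    (hC : ExAug f h (a + 1) b) (hs : SurjP E a b) (x : KK k a b ⟶ F') :
    ∃ y : KK k a b ⟶ F, ∀ i : Fin 2, h.h (y.1 i) = h'.h (x.1 i) := by
  have hx := KK_HG.1 x.2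
  obtain ⟨y, hy, hy'⟩ := HG_surj (actl f) h.h (fun i => lml E.I (po k i))
    (fun i => lml F.I (po k i)) (fun i => po k i)
    (fun i x => actl_lml f _ x) (fun i x => h.lin _ x) (fun x => hef x)
    (A₂ := E.filt a (b + 1)) (B₂ := E.filt (a + 1) (b + 1)) (C₂ := E.filt (a + 1) b)
    (A₁ := F.filt a (b + 1)) (B₁ := F.filt (a + 1) (b + 1)) (C₁ := F.filt (a + 1) b)
    (A₀ := (F'.filt a (b + 1)).map h'.h) (B₀ := (F'.filt (a + 1) (b + 1)).map h'.h)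
    (fun x hx => actl_mem f hx) (fun x hx => actl_mem f hx)
    (filt_mono F (by omega)) (fun i x hx => by
      have := po_filt F i hx
      rwa [add_sub_cancel_right] at this)
    (by
      rintro _ ⟨u', hu', rfl⟩
      exact hA u' hu')
    (by
      rintro _ ⟨u', hu', rfl⟩
      exact hB u' hu')
    (fun x hx h => hC x hx h)
    (fun x hx => by
      obtain ⟨v, w, hw, hv, h⟩ := hs x hx
      exact ⟨v, w, hw, hv, h⟩)
    (z := fun i => h'.h (x.1 i))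
    ⟨fun i => ⟨x.1 i, hx.1 i, rfl⟩, by
      refine ⟨_, hx.2, ?_⟩
      rw [map_add]
      exact congrArg₂ (· + ·) (h'.lin _ _) (h'.lin _ _)⟩
  exact ⟨⟨y, KK_HG.2 hy⟩, hy'⟩

/-- `H_0` injectivity, source `O(a,b)` -/
theorem inj0_O {a b : ℤ} (hlam : lam ≠ 0)
    (hc : ∀ u, h'.h (act (F := F') c.1 u) = lam • h.h u)
    (hf' : ∀ u, h'.h (act (F := F') f'.1 u) = 0) (hA : ExAug f h a b)
    (x : O k a b ⟶ F) (z : O k a b ⟶ E') (hxz : x ≫ c = z ≫ f') :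
    ∃ y : O k a b ⟶ E, y ≫ f = x :=
  ex_O_aug hA x (aug_zero_of_comp hlam hc hf' x z hxz ())

/-- `H_0` injectivity, source `F(a,b)` -/
theorem inj0_FF {a b : ℤ} (hlam : lam ≠ 0)
    (hc : ∀ u, h'.h (act (F := F') c.1 u) = lam • h.h u)
    (hf' : ∀ u, h'.h (act (F := F') f'.1 u) = 0) (hef : e ≫ f = 0)
    (hA : ExAug f h a (b + 1)) (hB : ExAug f h (a - 1) (b + 2)) (hC : ExAt e f (a - 1) (b + 1))
    (hs : SurjX D a b) (x : FF k a b ⟶ F) (z : FF k a b ⟶ E') (hxz : x ≫ c = z ≫ f') :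
    ∃ y : FF k a b ⟶ E, y ≫ f = x :=
  ex_FF_aug hef hA hB hC hs x fun i => aug_zero_of_comp hlam hc hf' x z hxz i

/-- `H_0` injectivity, source `K(a,b)` -/
theorem inj0_KK {a b : ℤ} (hlam : lam ≠ 0)
    (hc : ∀ u, h'.h (act (F := F') c.1 u) = lam • h.h u)
    (hf' : ∀ u, h'.h (act (F := F') f'.1 u) = 0) (hef : e ≫ f = 0)
    (hA : ExAug f h a (b + 1)) (hB : ExAug f h (a + 1) (b + 1)) (hC : ExAt e f (a + 1) b)
    (hs : SurjP D a b) (x : KK k a b ⟶ F) (z : KK k a b ⟶ E') (hxz : x ≫ c = z ≫ f') :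
    ∃ y : KK k a b ⟶ E, y ≫ f = x :=
  ex_KK_aug hef hA hB hC hs x fun i => aug_zero_of_comp hlam hc hf' x z hxz i

theorem aug_sub_smul (hlam : lam ≠ 0)
    (hc : ∀ u, h'.h (act (F := F') c.1 u) = lam • h.h u) {S : FOb k} (x : S ⟶ F') (y : S ⟶ F)
    (i : S.I) (hy : h.h (y.1 i) = h'.h (x.1 i)) :
    h'.h ((x - (lam⁻¹ • y) ≫ c).1 i) = 0 := by
  have h1 : h'.h (((lam⁻¹ • y) ≫ c).1 i) = h'.h (x.1 i) := by
    rw [aug_comp hc]
    have h2 : (lam⁻¹ • y).1 i = lam⁻¹ • y.1 i := rfl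
    rw [h2, map_smul, smul_inv_smul₀ hlam, hy]
  have h3 : (x - (lam⁻¹ • y) ≫ c).1 i = x.1 i - ((lam⁻¹ • y) ≫ c).1 i := rfl
  rw [h3, map_sub, h1, sub_self]

/-- `H_0` surjectivity, source `O(a,b)` -/
theorem surj0_O {a b : ℤ} (hlam : lam ≠ 0)
    (hc : ∀ u, h'.h (act (F := F') c.1 u) = lam • h.h u) (him : ImLe h h' a b)
    (hA' : ExAug f' h' a b) (x : O k a b ⟶ F') :
    ∃ (y : O k a b ⟶ F) (z : O k a b ⟶ E'), x = y ≫ c + z ≫ f' := by
  obtain ⟨y, hy⟩ := lift_O him x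
  obtain ⟨z, hz⟩ := ex_O_aug hA' (x - (lam⁻¹ • y) ≫ c) (aug_sub_smul hlam hc x y () (hy ()))
  exact ⟨lam⁻¹ • y, z, by rw [hz, add_sub_cancel]⟩

/-- `H_0` surjectivity, source `F(a,b)` -/
theorem surj0_FF {a b : ℤ} {D' : FOb k} {e' : D' ⟶ E'} (hlam : lam ≠ 0)
    (hc : ∀ u, h'.h (act (F := F') c.1 u) = lam • h.h u)
    (hef : ∀ u, h.h (act (F := F) f.1 u) = 0)
    (hA : ImLe h h' a (b + 1)) (hB : ImLe h h' (a - 1) (b + 2))
    (hC : ExAug f h (a - 1) (b + 1)) (hs : SurjX E a b) (hef' : e' ≫ f' = 0)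
    (hA' : ExAug f' h' a (b + 1)) (hB' : ExAug f' h' (a - 1) (b + 2))
    (hC' : ExAt e' f' (a - 1) (b + 1)) (hs' : SurjX D' a b) (x : FF k a b ⟶ F') :
    ∃ (y : FF k a b ⟶ F) (z : FF k a b ⟶ E'), x = y ≫ c + z ≫ f' := by
  obtain ⟨y, hy⟩ := lift_FF hef hA hB hC hs x
  obtain ⟨z, hz⟩ := ex_FF_aug hef' hA' hB' hC' hs' (x - (lam⁻¹ • y) ≫ c)
    fun i => aug_sub_smul hlam hc x y i (hy i)
  exact ⟨lam⁻¹ • y, z, by rw [hz, add_sub_cancel]⟩

/-- `H_0` surjectivity, source `K(a,b)` -/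
theorem surj0_KK {a b : ℤ} {D' : FOb k} {e' : D' ⟶ E'} (hlam : lam ≠ 0)
    (hc : ∀ u, h'.h (act (F := F') c.1 u) = lam • h.h u)
    (hef : ∀ u, h.h (act (F := F) f.1 u) = 0)
    (hA : ImLe h h' a (b + 1)) (hB : ImLe h h' (a + 1) (b + 1))
    (hC : ExAug f h (a + 1) b) (hs : SurjP E a b) (hef' : e' ≫ f' = 0)
    (hA' : ExAug f' h' a (b + 1)) (hB' : ExAug f' h' (a + 1) (b + 1))
    (hC' : ExAt e' f' (a + 1) b) (hs' : SurjP D' a b) (x : KK k a b ⟶ F') :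
    ∃ (y : KK k a b ⟶ F) (z : KK k a b ⟶ E'), x = y ≫ c + z ≫ f' := by
  obtain ⟨y, hy⟩ := lift_KK hef hA hB hC hs x
  obtain ⟨z, hz⟩ := ex_KK_aug hef' hA' hB' hC' hs' (x - (lam⁻¹ • y) ≫ c)
    fun i => aug_sub_smul hlam hc x y i (hy i)
  exact ⟨lam⁻¹ • y, z, by rw [hz, add_sub_cancel]⟩

end H0

end FOb

end P195E
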