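import Mathlib
import Vale.Agent.P195A.SymDefs

/-!
# P195: the category of filtered free modules over the Weyl algebra

Objects: a finite type `I` of coordinates and a family of subspaces `filt w d` of `I → Wo k`
(`Wo k` operators on `k[x_0, x_1]`), stable under the filtered pieces `Dg` of the Weyl algebra:
`Dg w d` maps `filt a b` into `filt (a - w) (b - d)`.
Morphisms: matrices over `Wo k`, acting on row vectors from the right, preserving `filt`.
-/

namespace P195E

open CategoryTheory P195A

variable (k : Type) [Field k]

/-- filtered free module -/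
structure FOb where
  I : Type
  fin : Fintype I
  dec : DecidableEq I
  filt : ℤ → ℤ → Submodule k (I → Wo k)
  closed : ∀ (w d a b : ℤ) (S : Wo k) (u : I → Wo k), S ∈ Dg k w d → u ∈ filt a b →
    (fun i => S * u i) ∈ filt (a - w) (b - d)

attribute [instance] FOb.fin FOb.dec

variable {k}

namespace FOb

/-- the action of a matrix on a row vector -/
noncomputable def act {E F : FOb k} (M : E.I → F.I → Wo k) (u : E.I → Wo k) : F.I → Wo k :=
  fun j => ∑ i, u i * M i j

theorem act_add {E F : FOb k} (M : E.I → F.I → Wo k) (u v : E.I → Wo k) :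
    act M (u + v) = act M u + act M v := by
  funext j
  simp only [act, Pi.add_apply, add_mul, Finset.sum_add_distrib]

theorem act_smul {E F : FOb k} (M : E.I → F.I → Wo k) (c : k) (u : E.I → Wo k) :
    act M (c • u) = c • act M u := by
  funext j
  simp only [act, Pi.smul_apply, Finset.smul_sum, smul_mul_assoc]

theorem act_mul {E F : FOb k} (M : E.I → F.I → Wo k) (S : Wo k) (u : E.I → Wo k) :
    act M (fun i => S * u i) = fun j => S * act M u j := by
  funext j
  simp only [act, Finset.mul_sum, mul_assoc]

/-- morphisms of filtered modules -/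
noncomputable def Homs (E F : FOb k) : Submodule k (E.I → F.I → Wo k) where
  carrier := {M | ∀ a b u, u ∈ E.filt a b → act M u ∈ F.filt a b}
  zero_mem' := by
    intro a b u _
    have : act (E := E) (F := F) 0 u = 0 := by
      funext j
      simp [act]
    rw [this]
    exact Submodule.zero_mem _
  add_mem' := by
    intro M N hM hN a b u hu
    have : act (E := E) (F := F) (M + N) u = act M u + act N u := by
      funext j
      simp only [act, Pi.add_apply, mul_add, Finset.sum_add_distrib]
    rw [this]
    exact Submodule.add_mem _ (hM a b u hu) (hN a b u hu)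
  smul_mem' := by
    intro c M hM a b u hu
    have : act (E := E) (F := F) (c • M) u = c • act M u := by
      funext j
      simp only [act, Pi.smul_apply, Finset.smul_sum, mul_smul_comm]
    rw [this]
    exact Submodule.smul_mem _ _ (hM a b u hu)

/-- composition of matrices -/
noncomputable def cmp {E F G : FOb k} (M : E.I → F.I → Wo k) (N : F.I → G.I → Wo k) : E.I → G.I → Wo k :=
  fun i l => ∑ j, M i j * N j l

theorem act_cmp {E F G : FOb k} (M : E.I → F.I → Wo k) (N : F.I → G.I → Wo k)
    (u : E.I → Wo k) : act (cmp M N) u = act (E := F) N (act M u) := by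
  funext l
  simp only [act, cmp, Finset.mul_sum, Finset.sum_mul, mul_assoc]
  rw [Finset.sum_comm]

/-- the identity matrix -/
noncomputable def idm (E : FOb k) : E.I → E.I → Wo k := fun i j => if i = j then 1 else 0

theorem act_idm {E : FOb k} (u : E.I → Wo k) : act (F := E) (idm E) u = u := by
  funext j
  simp [act, idm]

noncomputable instance : Category (FOb k) where
  Hom E F := ↥(Homs E F)
  id E := ⟨idm E, fun a b u hu => by rw [act_idm]; exact hu⟩
  comp {E F G} f g := ⟨cmp f.1 g.1, fun a b u hu => by
    rw [act_cmp]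
    exact g.2 a b _ (f.2 a b u hu)⟩
  id_comp f := by
    apply Subtype.ext
    funext i j
    simp [cmp, idm]
  comp_id f := by
    apply Subtype.ext
    funext i j
    simp [cmp, idm]
  assoc f g h := by
    apply Subtype.ext
    funext i j
    simp only [cmp, Finset.mul_sum, Finset.sum_mul, mul_assoc]
    rw [Finset.sum_comm]

theorem hom_ext {E F : FOb k} {f g : E ⟶ F} (h : f.1 = g.1) : f = g := Subtype.ext h

theorem hom_ext' {E F : FOb k} {f g : E ⟶ F} (h : ∀ i j, f.1 i j = g.1 i j) : f = g :=
  Subtype.ext (funext fun i => funext fun j => h i j)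

theorem comp_val {E F G : FOb k} (f : E ⟶ F) (g : F ⟶ G) : (f ≫ g).1 = cmp f.1 g.1 := rfl

theorem id_val (E : FOb k) : (𝟙 E : E ⟶ E).1 = idm E := rfl

noncomputable instance (E F : FOb k) : AddCommGroup (E ⟶ F) :=
  inferInstanceAs (AddCommGroup ↥(Homs E F))

noncomputable instance (E F : FOb k) : Module k (E ⟶ F) :=
  inferInstanceAs (Module k ↥(Homs E F))

theorem add_val {E F : FOb k} (f g : E ⟶ F) : (f + g).1 = f.1 + g.1 := rfl

theorem smul_val {E F : FOb k} (c : k) (f : E ⟶ F) : (c • f).1 = c • f.1 := rfl

theorem zero_val {E F : FOb k} : (0 : E ⟶ F).1 = 0 := rfl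

theorem neg_val {E F : FOb k} (f : E ⟶ F) : (-f).1 = -f.1 := rfl

theorem sub_val {E F : FOb k} (f g : E ⟶ F) : (f - g).1 = f.1 - g.1 := rfl

theorem sum_val {E F : FOb k} {J : Type*} (s : Finset J) (f : J → (E ⟶ F)) :
    (∑ j ∈ s, f j).1 = ∑ j ∈ s, (f j).1 := by
  classical
  induction s using Finset.induction_on with
  | empty => rfl
  | insert a s ha ih => rw [Finset.sum_insert ha, Finset.sum_insert ha, add_val, ih]

noncomputable instance : Preadditive (FOb k) where
  add_comp E F G f f' g := by
    apply hom_ext'
    intro i j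
    show ∑ l, (f.1 i l + f'.1 i l) * g.1 l j = ∑ l, f.1 i l * g.1 l j + ∑ l, f'.1 i l * g.1 l j
    rw [← Finset.sum_add_distrib]
    exact Finset.sum_congr rfl fun l _ => add_mul _ _ _
  comp_add E F G f g g' := by
    apply hom_ext'
    intro i j
    show ∑ l, f.1 i l * (g.1 l j + g'.1 l j) = ∑ l, f.1 i l * g.1 l j + ∑ l, f.1 i l * g'.1 l j
    rw [← Finset.sum_add_distrib]
    exact Finset.sum_congr rfl fun l _ => mul_add _ _ _

noncomputable instance : Linear k (FOb k) where
  smul_comp E F G c f g := by
    apply hom_ext'
    intro i j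
    show ∑ l, (c • f.1 i l) * g.1 l j = c • ∑ l, f.1 i l * g.1 l j
    rw [Finset.smul_sum]
    exact Finset.sum_congr rfl fun l _ => smul_mul_assoc _ _ _
  comp_smul E F G f c g := by
    apply hom_ext'
    intro i j
    show ∑ l, f.1 i l * (c • g.1 l j) = c • ∑ l, f.1 i l * g.1 l j
    rw [Finset.smul_sum]
    exact Finset.sum_congr rfl fun l _ => mul_smul_comm _ _ _

/-! ### the twist -/

/-- the shift of the filtration by `(1, 1)` -/
noncomputable def sh (E : FOb k) : FOb k where
  I := E.I
  fin := E.fin
  dec := E.dec
  filt w d := E.filt (w - 1) (d - 1)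
  closed w d a b S u hS hu := by
    have h := E.closed w d (a - 1) (b - 1) S u hS hu
    have e1 : a - w - 1 = a - 1 - w := by ring
    have e2 : b - d - 1 = b - 1 - d := by ring
    rw [e1, e2]
    exact h

/-- the twist functor -/
noncomputable def Phi : FOb k ⥤ FOb k where
  obj E := sh E
  map {E F} f := ⟨f.1, fun a b u hu => f.2 (a - 1) (b - 1) u hu⟩
  map_id E := rfl
  map_comp f g := rfl

instance : (Phi (k := k)).Additive where
  map_add := rfl

instance : Functor.Linear k (Phi (k := k)) where
  map_smul _ _ := rfl

theorem Phi_map_val {E F : FOb k} (f : E ⟶ F) : (Phi.map f).1 = f.1 := rfl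

end FOb

end P195E
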