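import Mathlib
import Vale.Agent.P195D.ExtTools
import Vale.Agent.P195D.Chain

/-!
# P195: Ext groups through projective resolutions, elementary form
-/

namespace P195E

open CategoryTheory Abelian P195D

universe u

variable {A : Type u} [Ring A]

/-- `Ext^(i+1)(K, W) = 0` from an exact complex of projectives `... → C 1 → C 0 → K → 0` whose
image under `Hom(-, W)` is exact at `C 1, C 2, ...` -/
theorem ev_of_res (W : Type u) [AddCommGroup W] [Module A W] (i : ℕ) :
    ∀ (C : ℕ → Type u) [∀ n, AddCommGroup (C n)] [∀ n, Module A (C n)]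
      [∀ n, Module.Projective A (C n)] (K : Type u) [AddCommGroup K] [Module A K]
      (d : ∀ n, C (n + 1) →ₗ[A] C n) (ε : C 0 →ₗ[A] K) (_ : Function.Surjective ε)
      (_ : Function.Exact (d 0) ε) (_ : ∀ n, Function.Exact (d (n + 1)) (d n))
      (_ : ∀ n, ∀ φ : C (n + 1) →ₗ[A] W, φ ∘ₗ d (n + 1) = 0 → ∃ ψ : C n →ₗ[A] W, ψ ∘ₗ d n = φ),
      EV A K W (i + 1) := by
  induction i with
  | zero =>
    intro C _ _ _ K _ _ d ε hε h0 hd hH
    have hex : Function.Exact (LinearMap.ker ε).subtype ε := by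
      rw [LinearMap.exact_iff, Submodule.range_subtype]
    refine EV.of_extend (Submodule.injective_subtype _) hε hex (EV.of_projective 0) fun u => ?_
    have hmem : ∀ x, d 0 x ∈ LinearMap.ker ε := fun x => h0.apply_apply_eq_zero x
    obtain ⟨ψ, hψ⟩ := hH 0 (u ∘ₗ (d 0).codRestrict (LinearMap.ker ε) hmem) (by
      ext x
      have h1 : (d 0).codRestrict (LinearMap.ker ε) hmem (d 1 x) = 0 :=
        Subtype.ext ((hd 0).apply_apply_eq_zero x)
      show u ((d 0).codRestrict (LinearMap.ker ε) hmem (d 1 x)) = 0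
      rw [h1, map_zero])
    refine ⟨ψ, ?_⟩
    ext ⟨x, hx⟩
    obtain ⟨y, rfl⟩ := (h0 x).1 hx
    exact LinearMap.congr_fun hψ y
  | succ i ih =>
    intro C _ _ _ K _ _ d ε hε h0 hd hH
    have hex : Function.Exact (LinearMap.ker ε).subtype ε := by
      rw [LinearMap.exact_iff, Submodule.range_subtype]
    have hmem : ∀ x, d 0 x ∈ LinearMap.ker ε := fun x => h0.apply_apply_eq_zero x
    have h1 : EV A (LinearMap.ker ε) W (i + 1) := by
      refine ih (fun n => C (n + 1)) (LinearMap.ker ε) (fun n => d (n + 1))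
        ((d 0).codRestrict (LinearMap.ker ε) hmem) ?_ ?_ (fun n => hd (n + 1))
        (fun n => hH (n + 1))
      · rintro ⟨x, hx⟩
        obtain ⟨y, rfl⟩ := (h0 x).1 hx
        exact ⟨y, rfl⟩
      · intro x
        constructor
        · intro hx
          exact (hd 0 x).1 (congrArg Subtype.val hx)
        · rintro ⟨y, rfl⟩
          exact Subtype.ext ((hd 0).apply_apply_eq_zero y)
    exact EV.right (Submodule.injective_subtype _) hε hex h1 (EV.of_projective (i + 1))

/-- `Ext^i(K, W) = 0` for all `i` when `Hom(-, W)` of the projective resolution is exact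
everywhere -/
theorem ev_all_of_res (W : Type u) [AddCommGroup W] [Module A W]
    (C : ℕ → Type u) [∀ n, AddCommGroup (C n)] [∀ n, Module A (C n)]
    [∀ n, Module.Projective A (C n)] (K : Type u) [AddCommGroup K] [Module A K]
    (d : ∀ n, C (n + 1) →ₗ[A] C n) (ε : C 0 →ₗ[A] K) (hε : Function.Surjective ε)
    (h0 : Function.Exact (d 0) ε) (hd : ∀ n, Function.Exact (d (n + 1)) (d n))
    (hH0 : ∀ φ : C 0 →ₗ[A] W, φ ∘ₗ d 0 = 0 → φ = 0)
    (hH : ∀ n, ∀ φ : C (n + 1) →ₗ[A] W, φ ∘ₗ d (n + 1) = 0 → ∃ ψ : C n →ₗ[A] W, ψ ∘ₗ d n = φ)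
    (i : ℕ) : EV A K W i := by
  cases i with
  | zero =>
    rw [ev_zero_iff]
    intro f
    have h1 : f ∘ₗ ε = 0 := hH0 (f ∘ₗ ε) (by
      ext x
      show f (ε (d 0 x)) = 0
      rw [h0.apply_apply_eq_zero, map_zero])
    ext x
    obtain ⟨y, rfl⟩ := hε x
    exact LinearMap.congr_fun h1 y
  | succ i => exact ev_of_res W i C K d ε hε h0 hd hH

section cone

variable {P P' : ℕ → Type u} [∀ n, AddCommGroup (P n)] [∀ n, Module A (P n)]
  [∀ n, Module.Projective A (P n)] [∀ n, AddCommGroup (P' n)] [∀ n, Module A (P' n)]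
  [∀ n, Module.Projective A (P' n)] {M M' : Type u} [AddCommGroup M] [Module A M]
  [AddCommGroup M'] [Module A M'] (W : Type u) [AddCommGroup W] [Module A W]

/-- A map `g : M' → M` lifted to a chain map `f` of projective resolutions such that
`Hom(cone f, W)` is exact induces bijections `Ext^i(M, W) → Ext^i(M', W)`. -/
theorem pc_bij_of_cone (d : ∀ n, P (n + 1) →ₗ[A] P n) (π : P 0 →ₗ[A] M)
    (hπ : Function.Surjective π) (h0 : Function.Exact (d 0) π)
    (hd : ∀ n, Function.Exact (d (n + 1)) (d n))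
    (d' : ∀ n, P' (n + 1) →ₗ[A] P' n) (π' : P' 0 →ₗ[A] M')
    (hπ' : Function.Surjective π') (h0' : Function.Exact (d' 0) π')
    (hd' : ∀ n, Function.Exact (d' (n + 1)) (d' n))
    (f : ∀ n, P' n →ₗ[A] P n) (hf : ∀ n, f n ∘ₗ d' n = d n ∘ₗ f (n + 1))
    (g : M' →ₗ[A] M) (hg : g ∘ₗ π' = π ∘ₗ f 0)
    (hc0 : ∀ φ : P 0 →ₗ[A] W, φ ∘ₗ d 0 = 0 → φ ∘ₗ f 0 = 0 → φ = 0)
    (hc1 : ∀ (φ : P 1 →ₗ[A] W) (φ' : P' 0 →ₗ[A] W), φ ∘ₗ d 1 = 0 → φ ∘ₗ f 1 = φ' ∘ₗ d' 0 →
      ∃ ψ : P 0 →ₗ[A] W, ψ ∘ₗ d 0 = φ ∧ ψ ∘ₗ f 0 = φ')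
    (hc2 : ∀ n (φ : P (n + 2) →ₗ[A] W) (φ' : P' (n + 1) →ₗ[A] W), φ ∘ₗ d (n + 2) = 0 →
      φ ∘ₗ f (n + 2) = φ' ∘ₗ d' (n + 1) →
      ∃ (ψ : P (n + 1) →ₗ[A] W) (ψ' : P' n →ₗ[A] W), ψ ∘ₗ d (n + 1) = φ ∧
        ψ ∘ₗ f (n + 1) - ψ' ∘ₗ d' n = φ') (i : ℕ) :
    (∀ x : Ext (ModuleCat.of A M) (ModuleCat.of A W) i, pc W g i x = 0 → x = 0) ∧
      ∀ y : Ext (ModuleCat.of A M') (ModuleCat.of A W) i, ∃ x, pc W g i x = y := by
  -- the kernel of `M' × P 0 → M`
  let G : M' × P 0 →ₗ[A] M := g.coprod (-π)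
  have hG : ∀ z : M' × P 0, G z = g z.1 - π z.2 := fun z => by
    show g z.1 + (-π) z.2 = _
    rw [LinearMap.neg_apply, sub_eq_add_neg]
  have hGs : Function.Surjective G := by
    intro m
    obtain ⟨p, hp⟩ := hπ m
    exact ⟨(0, -p), by rw [hG]; simp [hp]⟩
  have hex : Function.Exact (LinearMap.ker G).subtype G := by
    rw [LinearMap.exact_iff, Submodule.range_subtype]
  have hgf : ∀ b, g (π' b) = π (f 0 b) := fun b => LinearMap.congr_fun hg b
  have hfd : ∀ n b, f n (d' n b) = d n (f (n + 1) b) := fun n b => LinearMap.congr_fun (hf n) b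
  -- resolution of the kernel
  let ε0 : P 1 × P' 0 →ₗ[A] M' × P 0 :=
    (LinearMap.prod (π' ∘ₗ LinearMap.snd A (P 1) (P' 0))
      (d 0 ∘ₗ LinearMap.fst A (P 1) (P' 0) + f 0 ∘ₗ LinearMap.snd A (P 1) (P' 0)))
  have hε0 : ∀ z : P 1 × P' 0, ε0 z = (π' z.2, d 0 z.1 + f 0 z.2) := fun z => rfl
  have hmem : ∀ z, ε0 z ∈ LinearMap.ker G := by
    intro z
    rw [LinearMap.mem_ker, hε0, hG]
    simp only [map_add]
    rw [h0.apply_apply_eq_zero, hgf, zero_add, sub_self]
  let ε : P 1 × P' 0 →ₗ[A] LinearMap.ker G := ε0.codRestrict (LinearMap.ker G) hmem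
  let dC : ∀ n, P (n + 1 + 1) × P' (n + 1) →ₗ[A] P (n + 1) × P' n := fun n =>
    LinearMap.prod (d (n + 1) ∘ₗ LinearMap.fst A (P (n + 1 + 1)) (P' (n + 1))
        + f (n + 1) ∘ₗ LinearMap.snd A (P (n + 1 + 1)) (P' (n + 1)))
      (-(d' n ∘ₗ LinearMap.snd A (P (n + 1 + 1)) (P' (n + 1))))
  have hdC : ∀ n z, dC n z = (d (n + 1) z.1 + f (n + 1) z.2, -(d' n z.2)) := fun n z => rfl
  have hK : ∀ j, EV A (LinearMap.ker G) W (j + 1) := by
    intro j
    refine ev_of_res W j (fun n => P (n + 1) × P' n) (LinearMap.ker G) dC ε ?_ ?_ ?_ ?_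
    · rintro ⟨⟨m', p⟩, hmp⟩
      rw [LinearMap.mem_ker, hG] at hmp
      obtain ⟨b, rfl⟩ := hπ' m'
      simp only at hmp
      rw [hgf, ← map_sub] at hmp
      obtain ⟨a, ha⟩ := (h0 _).1 hmp
      refine ⟨(-a, b), Subtype.ext ?_⟩
      show ε0 (-a, b) = (π' b, p)
      rw [hε0]
      simp only [map_neg, ha]
      ext
      · rfl
      · show -(f 0 b - p) + f 0 b = p
        abel
    · intro z
      constructor
      · intro hz
        have hz' : ε0 z = 0 := congrArg Subtype.val hz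
        rw [hε0] at hz'
        have hz1 : π' z.2 = 0 := congrArg Prod.fst hz'
        have hz2 : d 0 z.1 + f 0 z.2 = 0 := congrArg Prod.snd hz'
        obtain ⟨b, hb⟩ := (h0' _).1 hz1
        have h3 : d 0 (z.1 + f 1 b) = 0 := by
          rw [map_add, ← hfd, hb, hz2]
        obtain ⟨a, ha⟩ := (hd 0 _).1 h3
        refine ⟨(a, -b), ?_⟩
        rw [hdC]
        ext
        · show d 1 a + f 1 (-b) = z.1
          rw [ha, map_neg]
          abel
        · show -(d' 0 (-b)) = z.2
          rw [map_neg, neg_neg, hb]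
      · rintro ⟨z, rfl⟩
        refine Subtype.ext ?_
        show ε0 (dC 0 z) = 0
        rw [hdC, hε0]
        ext
        · show π' (-(d' 0 z.2)) = 0
          rw [map_neg, h0'.apply_apply_eq_zero, neg_zero]
        · show d 0 (d 1 z.1 + f 1 z.2) + f 0 (-(d' 0 z.2)) = 0
          rw [map_add, (hd 0).apply_apply_eq_zero, map_neg, hfd, zero_add, add_neg_cancel]
    · intro n z
      constructor
      · intro hz
        rw [hdC] at hz
        have hz1 : -(d' n z.2) = 0 := congrArg Prod.snd hz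
        have hz2 : d (n + 1) z.1 + f (n + 1) z.2 = 0 := congrArg Prod.fst hz
        rw [neg_eq_zero] at hz1
        obtain ⟨b, hb⟩ := (hd' n _).1 hz1
        have h3 : d (n + 1) (z.1 + f (n + 2) b) = 0 := by
          rw [map_add, ← hfd (n + 1) b, hb, hz2]
        obtain ⟨a, ha⟩ := (hd (n + 1) _).1 h3
        refine ⟨(a, -b), ?_⟩
        rw [hdC]
        ext
        · show d (n + 2) a + f (n + 2) (-b) = z.1
          rw [ha, map_neg]
          abel
        · show -(d' (n + 1) (-b)) = z.2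
          rw [map_neg, neg_neg, hb]
      · rintro ⟨z, rfl⟩
        rw [hdC, hdC]
        ext
        · show d (n + 1) (d (n + 2) z.1 + f (n + 2) z.2) + f (n + 1) (-(d' (n + 1) z.2)) = 0
          rw [map_add, (hd (n + 1)).apply_apply_eq_zero, map_neg, hfd (n + 1) z.2, zero_add,
            add_neg_cancel]
        · show -(d' n (-(d' (n + 1) z.2))) = 0
          rw [map_neg, (hd' n).apply_apply_eq_zero, neg_zero, neg_zero]
    · intro n φ hφ
      obtain ⟨ψ, ψ', h1, h2⟩ := hc2 n (φ ∘ₗ LinearMap.inl A (P (n + 1 + 1)) (P' (n + 1)))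
        (φ ∘ₗ LinearMap.inr A (P (n + 1 + 1)) (P' (n + 1))) (by
          ext a
          have := LinearMap.congr_fun hφ (a, 0)
          have h3 : dC (n + 1) (a, 0) = (d (n + 2) a, 0) := by
            rw [hdC]; simp
          rw [LinearMap.comp_apply, h3] at this
          exact this) (by
          ext b
          have := LinearMap.congr_fun hφ (0, b)
          have h3 : dC (n + 1) (0, b) = (f (n + 2) b, 0) - (0, d' (n + 1) b) := by
            rw [hdC]; simp
          rw [LinearMap.comp_apply, h3, map_sub] at this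
          exact sub_eq_zero.1 this)
      refine ⟨ψ.coprod ψ', ?_⟩
      apply LinearMap.ext
      rintro ⟨a, b⟩
      show ψ (d (n + 1) a + f (n + 1) b) + ψ' (-(d' n b)) = φ (a, b)
      have e1 := LinearMap.congr_fun h1 a
      have e2 := LinearMap.congr_fun h2 b
      have e1' : ψ (d (n + 1) a) = φ (a, 0) := e1
      have e2' : ψ (f (n + 1) b) - ψ' (d' n b) = φ (0, b) := e2
      have e3 : ((a, b) : P (n + 1 + 1) × P' (n + 1)) = (a, 0) + (0, b) := by simp
      rw [map_add, e1', map_neg, e3, map_add, ← e2']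
      abel
  -- maps to and from `M' × P 0`
  have hj : G ∘ₗ LinearMap.inl A M' (P 0) = g := by
    apply LinearMap.ext
    intro x
    show G (x, 0) = g x
    rw [hG]
    simp
  have hbij : ∀ n, ∀ x : Ext (ModuleCat.of A (M' × P 0)) (ModuleCat.of A W) (n + 1),
      pc W (LinearMap.inl A M' (P 0)) (n + 1) x = 0 → x = 0 := by
    intro n x hx
    obtain ⟨z, hz⟩ := pc_exact₂ (f := LinearMap.inl A M' (P 0)) (g := LinearMap.snd A M' (P 0))
      LinearMap.inl_injective LinearMap.snd_surjective (fun x => by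
        constructor
        · intro hx
          exact ⟨x.1, Prod.ext rfl hx.symm⟩
        · rintro ⟨y, rfl⟩
          rfl) x hx
    have h1 : z = 0 := ev_iff.1 (EV.of_projective (A := A) (X := P 0) (W := W) n) z
    rw [← hz, h1, pc_zero]
  have hfst : LinearMap.fst A M' (P 0) ∘ₗ LinearMap.inl A M' (P 0) = LinearMap.id := by
    apply LinearMap.ext
    intro x
    rfl
  cases i with
  | zero =>
    constructor
    · intro x hx
      obtain ⟨h, rfl⟩ := (Ext.mk₀_bijective _ _).2 x
      have h1 : h.hom ∘ₗ g = 0 := by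
        have h2 : Ext.mk₀ (ModuleCat.ofHom g ≫ h) = Ext.mk₀ (0 : ModuleCat.of A M' ⟶
            ModuleCat.of A W) := by
          rw [Ext.mk₀_zero, ← hx]
          show _ = (Ext.mk₀ (ModuleCat.ofHom g)).comp (Ext.mk₀ h) (zero_add 0)
          rw [Ext.mk₀_comp_mk₀]
        have h3 := (Ext.mk₀_bijective _ _).1 h2
        exact congrArg ModuleCat.Hom.hom h3
      have h4 : h.hom ∘ₗ π = 0 := hc0 (h.hom ∘ₗ π) (by
        ext x
        show h.hom (π (d 0 x)) = 0
        rw [h0.apply_apply_eq_zero, map_zero]) (by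
        ext x
        show h.hom (π (f 0 x)) = 0
        rw [← hgf]
        exact LinearMap.congr_fun h1 (π' x))
      have h5 : h = 0 := by
        apply ModuleCat.hom_ext
        ext m
        obtain ⟨p, rfl⟩ := hπ m
        exact LinearMap.congr_fun h4 p
      rw [h5, Ext.mk₀_zero]
    · intro y
      obtain ⟨m, rfl⟩ := (Ext.mk₀_bijective _ _).2 y
      obtain ⟨ψ, h1, h2⟩ := hc1 0 (m.hom ∘ₗ π') (by simp) (by
        ext x
        show (0 : P 1 →ₗ[A] W) (f 1 x) = m.hom (π' (d' 0 x))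
        rw [h0'.apply_apply_eq_zero, map_zero]
        rfl)
      have hker : LinearMap.ker π ≤ LinearMap.ker ψ := by
        intro x hx
        obtain ⟨a, rfl⟩ := (h0 x).1 hx
        exact LinearMap.congr_fun h1 a
      let h : M →ₗ[A] W := (LinearMap.ker π).liftQ ψ hker ∘ₗ
        (π.quotKerEquivOfSurjective hπ).symm.toLinearMap
      have hh : ∀ p, h (π p) = ψ p := by
        intro p
        have e1 : (π.quotKerEquivOfSurjective hπ).symm (π p)
            = (LinearMap.ker π).mkQ p := by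
          rw [LinearEquiv.symm_apply_eq]
          rfl
        show (LinearMap.ker π).liftQ ψ hker ((π.quotKerEquivOfSurjective hπ).symm (π p)) = ψ p
        rw [e1]
        rfl
      refine ⟨Ext.mk₀ (ModuleCat.ofHom h), ?_⟩
      show (Ext.mk₀ (ModuleCat.ofHom g)).comp (Ext.mk₀ (ModuleCat.ofHom h)) (zero_add 0) = _
      rw [Ext.mk₀_comp_mk₀]
      congr 1
      apply ModuleCat.hom_ext
      ext x
      obtain ⟨b, rfl⟩ := hπ' x
      show h (g (π' b)) = m.hom (π' b)
      rw [hgf, hh]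
      exact LinearMap.congr_fun h2 b
  | succ i =>
    constructor
    · intro z hz
      have h1 : pc W G (i + 1) z = 0 := by
        apply hbij i
        rw [← pc_comp, hj, hz]
      refine pc_inj_of_surj (Submodule.injective_subtype _) hGs hex (fun x => ?_) z h1
      cases i with
      | zero =>
        -- surjectivity of `Hom(M' × P 0, W) → Hom(ker G, W)`
        obtain ⟨u, rfl⟩ := (Ext.mk₀_bijective _ _).2 x
        obtain ⟨ψ, h2, h3⟩ := hc1 (u.hom ∘ₗ ε ∘ₗ LinearMap.inl A (P 1) (P' 0))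
          (u.hom ∘ₗ ε ∘ₗ LinearMap.inr A (P 1) (P' 0)) (by
            ext a
            have h4 : ε (d 1 a, 0) = 0 := by
              refine Subtype.ext ?_
              show ε0 (d 1 a, 0) = 0
              rw [hε0]
              simp only [(hd 0).apply_apply_eq_zero, map_zero, add_zero]
              rfl
            show u.hom (ε (d 1 a, 0)) = 0
            rw [h4, map_zero]) (by
            ext b
            show u.hom (ε (f 1 b, 0)) = u.hom (ε (0, d' 0 b))
            congr 1
            refine Subtype.ext ?_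
            show ε0 (f 1 b, 0) = ε0 (0, d' 0 b)
            rw [hε0, hε0]
            simp only [map_zero, add_zero, zero_add, h0'.apply_apply_eq_zero, hfd])
        refine ⟨Ext.mk₀ (ModuleCat.ofHom (ψ ∘ₗ LinearMap.snd A M' (P 0))), ?_⟩
        show (Ext.mk₀ (ModuleCat.ofHom (LinearMap.ker G).subtype)).comp
          (Ext.mk₀ (ModuleCat.ofHom (ψ ∘ₗ LinearMap.snd A M' (P 0)))) (zero_add 0) = _
        rw [Ext.mk₀_comp_mk₀]
        congr 1
        apply ModuleCat.hom_ext
        apply LinearMap.ext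
        rintro ⟨⟨m', p⟩, hmp⟩
        have hmp' := hmp
        rw [LinearMap.mem_ker, hG] at hmp'
        obtain ⟨b, rfl⟩ := hπ' m'
        simp only at hmp'
        rw [hgf, ← map_sub] at hmp'
        obtain ⟨a, ha⟩ := (h0 _).1 hmp'
        have e1 : (⟨(π' b, p), hmp⟩ : LinearMap.ker G) = ε (-a, 0) + ε (0, b) := by
          refine Subtype.ext ?_
          show (π' b, p) = ε0 (-a, 0) + ε0 (0, b)
          rw [hε0, hε0]
          ext
          · show π' b = π' 0 + π' b
            rw [map_zero, zero_add]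
          · show p = (d 0 (-a) + f 0 0) + (d 0 0 + f 0 b)
            rw [map_neg, ha, map_zero, map_zero]
            abel
        have e2 : ψ (d 0 (-a)) = u.hom (ε (-a, 0)) := LinearMap.congr_fun h2 (-a)
        have e3 : ψ (f 0 b) = u.hom (ε (0, b)) := LinearMap.congr_fun h3 b
        have e4 : d 0 (-a) + f 0 b = p := by
          rw [map_neg, ha]
          abel
        show ψ p = u.hom ⟨(π' b, p), hmp⟩
        rw [e1, map_add, ← e2, ← e3, ← map_add, e4]
      | succ i => exact ⟨0, by rw [pc_zero]; exact (ev_iff.1 (hK i) x).symm⟩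
    · intro y
      obtain ⟨z, hz⟩ := pc_exact₂ (W := W) (Submodule.injective_subtype _) hGs hex
        (pc W (LinearMap.fst A M' (P 0)) (i + 1) y) (ev_iff.1 (hK i) _)
      refine ⟨z, ?_⟩
      rw [← hj, pc_comp, hz, ← pc_comp, hfst]
      show (Ext.mk₀ (ModuleCat.ofHom LinearMap.id)).comp y (zero_add (i + 1)) = y
      have : ModuleCat.ofHom (LinearMap.id : M' →ₗ[A] M') = 𝟙 (ModuleCat.of A M') := rfl
      rw [this, Ext.mk₀_id_comp]

end cone

end P195E
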