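import Mathlib
import Vale.Agent.P195E.CatD
import Vale.Agent.P195A.Fact
import Vale.Agent.P195D.CatAlg

/-!
# P195: the objects `O(a,b)`, `F`, `K`, direct sums, in the category of filtered modules
-/

namespace P195E

open CategoryTheory P195A

variable {k : Type} [Field k]

namespace FOb

/-! ### objects given by generators -/

/-- the filtered module on `I` generated by `g j` in degree `(dw j, dd j)` -/
noncomputable def gen (k : Type) [Field k] (I J : Type) [Fintype I] [DecidableEq I] [Fintype J]
    (dw dd : J → ℤ) (g : J → I → Wo k) : FOb k where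
  I := I
  fin := inferInstance
  dec := inferInstance
  filt w d :=
    { carrier := {u | ∃ c : J → Wo k, (∀ j, c j ∈ Dg k (dw j - w) (dd j - d)) ∧
        u = fun i => ∑ j, c j * g j i}
      zero_mem' := ⟨0, fun j => Submodule.zero_mem _, by funext i; simp⟩
      add_mem' := by
        rintro u v ⟨c, hc, rfl⟩ ⟨c', hc', rfl⟩
        refine ⟨c + c', fun j => Submodule.add_mem _ (hc j) (hc' j), ?_⟩
        funext i
        simp [add_mul, Finset.sum_add_distrib]
      smul_mem' := by
        rintro a u ⟨c, hc, rfl⟩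
        refine ⟨a • c, fun j => Submodule.smul_mem _ _ (hc j), ?_⟩
        funext i
        simp [Finset.smul_sum] }
  closed w d a b S u hS hu := by
    obtain ⟨c, hc, rfl⟩ := hu
    refine ⟨fun j => S * c j, fun j => ?_, ?_⟩
    · have h := Dg_mul hS (hc j)
      have e1 : w + (dw j - a) = dw j - (a - w) := by ring
      have e2 : d + (dd j - b) = dd j - (b - d) := by ring
      rw [e1, e2] at h
      exact h
    · funext i
      simp only [Finset.mul_sum, mul_assoc]

theorem gen_mem_iff {I J : Type} [Fintype I] [DecidableEq I] [Fintype J]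
    {dw dd : J → ℤ} {g : J → I → Wo k} {w d : ℤ} {u : I → Wo k} :
    u ∈ (gen k I J dw dd g).filt w d ↔ ∃ c : J → Wo k,
      (∀ j, c j ∈ Dg k (dw j - w) (dd j - d)) ∧ u = fun i => ∑ j, c j * g j i := Iff.rfl

/-- morphisms out of an object given by generators -/
theorem gen_homs_iff {I J : Type} [Fintype I] [DecidableEq I] [Fintype J]
    {dw dd : J → ℤ} {g : J → I → Wo k} {E : FOb k} {M : I → E.I → Wo k} :
    M ∈ Homs (gen k I J dw dd g) E ↔
      ∀ j, (fun l => ∑ i, g j i * M i l) ∈ E.filt (dw j) (dd j) := by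
  classical
  constructor
  · intro h j
    refine h (dw j) (dd j) (g j) ⟨fun j' => if j' = j then 1 else 0, fun j' => ?_, ?_⟩
    · show (if j' = j then (1 : Wo k) else 0) ∈ _
      by_cases hj : j' = j
      · subst hj
        rw [if_pos rfl, sub_self, sub_self]
        exact one_mem_Dg
      · rw [if_neg hj]
        exact Submodule.zero_mem _
    · funext i
      simp
  · intro h a b u hu
    obtain ⟨c, hc, rfl⟩ := hu
    have e1 : (fun l : E.I => ∑ i, (∑ j, c j * g j i) * M i l)
        = ∑ j, fun l => c j * ∑ i, g j i * M i l := by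
      funext l
      rw [Finset.sum_apply]
      simp only [Finset.sum_mul, Finset.mul_sum, mul_assoc]
      exact Finset.sum_comm
    show (fun l : E.I => ∑ i, (∑ j, c j * g j i) * M i l) ∈ E.filt a b
    rw [e1]
    refine Submodule.sum_mem _ fun j _ => ?_
    have h2 := E.closed (dw j - a) (dd j - b) (dw j) (dd j) (c j) _ (hc j) (h j)
    have e2 : dw j - (dw j - a) = a := by ring
    have e3 : dd j - (dd j - b) = b := by ring
    rw [e2, e3] at h2
    exact h2

/-- the line bundle `O(a, b)` -/
noncomputable def O (k : Type) [Field k] (a b : ℤ) : FOb k :=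
  gen k Unit Unit (fun _ => a) (fun _ => b) (fun _ _ => 1)

theorem O_mem_iff {a b w d : ℤ} {u : Unit → Wo k} :
    u ∈ (O k a b).filt w d ↔ u () ∈ Dg k (a - w) (b - d) := by
  unfold O
  rw [gen_mem_iff]
  constructor
  · rintro ⟨c, hc, rfl⟩
    simpa using hc ()
  · intro h
    exact ⟨u, fun _ => h, by funext i; simp⟩

theorem O_homs_iff {a b : ℤ} {E : FOb k} {M : Unit → E.I → Wo k} :
    M ∈ Homs (O k a b) E ↔ M () ∈ E.filt a b := by
  unfold O
  rw [gen_homs_iff]
  constructor
  · intro h
    have := h ()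
    simpa using this
  · intro h _
    simpa using h

/-- the rank two object `F`: two generators in degree `(0,1)` and `(x_0, x_1)` in degree
`(-1,2)`; shifted by `(a, b)` -/
noncomputable def FF (k : Type) [Field k] (a b : ℤ) : FOb k :=
  gen k (Fin 2) (Fin 3) (![0 + a, 0 + a, -1 + a]) (![1 + b, 1 + b, 2 + b])
    (![![1, 0], ![0, 1], ![xo k 0, xo k 1]])

/-- the rank two object `K`: two generators in degree `(0,1)` and `(∂_0, ∂_1)` in degree
`(1,1)`; shifted by `(a, b)` -/
noncomputable def KK (k : Type) [Field k] (a b : ℤ) : FOb k :=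
  gen k (Fin 2) (Fin 3) (![0 + a, 0 + a, 1 + a]) (![1 + b, 1 + b, 1 + b])
    (![![1, 0], ![0, 1], ![po k 0, po k 1]])

theorem FF_mem_iff {a b w d : ℤ} {u : Fin 2 → Wo k} :
    u ∈ (FF k a b).filt w d ↔ ∃ A B C : Wo k, A ∈ Dg k (a - w) (b + 1 - d) ∧
      B ∈ Dg k (a - w) (b + 1 - d) ∧ C ∈ Dg k (a - 1 - w) (b + 2 - d) ∧
      u 0 = A + C * xo k 0 ∧ u 1 = B + C * xo k 1 := by
  unfold FF
  rw [gen_mem_iff]
  constructor
  · rintro ⟨c, hc, rfl⟩
    refine ⟨c 0, c 1, c 2, ?_, ?_, ?_, ?_, ?_⟩
    · have := hc 0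
      simp only [Matrix.cons_val_zero] at this
      rwa [zero_add, add_comm 1 b] at this
    · have := hc 1
      simp only [Matrix.cons_val_one, Matrix.cons_val_zero] at this
      rwa [zero_add, add_comm 1 b] at this
    · have := hc 2
      simp only [Matrix.cons_val] at this
      rwa [show (-1 : ℤ) + a = a - 1 by ring, add_comm 2 b] at this
    · simp [Fin.sum_univ_three]
    · simp [Fin.sum_univ_three]
  · rintro ⟨A, B, C, hA, hB, hC, h0, h1⟩
    refine ⟨![A, B, C], ?_, ?_⟩
    · intro j
      fin_cases j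
      · simp only [Matrix.cons_val_zero, Fin.zero_eta]
        rwa [zero_add, add_comm 1 b]
      · simp only [Fin.mk_one, Matrix.cons_val_one, Matrix.cons_val_zero]
        rwa [zero_add, add_comm 1 b]
      · simp only [Fin.reduceFinMk, Matrix.cons_val]
        rwa [show (-1 : ℤ) + a = a - 1 by ring, add_comm 2 b]
    · funext i
      fin_cases i
      · simp [Fin.sum_univ_three, h0]
      · simp [Fin.sum_univ_three, h1]

theorem KK_mem_iff {a b w d : ℤ} {u : Fin 2 → Wo k} :
    u ∈ (KK k a b).filt w d ↔ ∃ A B C : Wo k, A ∈ Dg k (a - w) (b + 1 - d) ∧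
      B ∈ Dg k (a - w) (b + 1 - d) ∧ C ∈ Dg k (a + 1 - w) (b + 1 - d) ∧
      u 0 = A + C * po k 0 ∧ u 1 = B + C * po k 1 := by
  unfold KK
  rw [gen_mem_iff]
  constructor
  · rintro ⟨c, hc, rfl⟩
    refine ⟨c 0, c 1, c 2, ?_, ?_, ?_, ?_, ?_⟩
    · have := hc 0
      simp only [Matrix.cons_val_zero] at this
      rwa [zero_add, add_comm 1 b] at this
    · have := hc 1
      simp only [Matrix.cons_val_one, Matrix.cons_val_zero] at this
      rwa [zero_add, add_comm 1 b] at this
    · have := hc 2
      simp only [Matrix.cons_val] at this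
      rwa [add_comm 1 a, add_comm 1 b] at this
    · simp [Fin.sum_univ_three]
    · simp [Fin.sum_univ_three]
  · rintro ⟨A, B, C, hA, hB, hC, h0, h1⟩
    refine ⟨![A, B, C], ?_, ?_⟩
    · intro j
      fin_cases j
      · simp only [Matrix.cons_val_zero, Fin.zero_eta]
        rwa [zero_add, add_comm 1 b]
      · simp only [Fin.mk_one, Matrix.cons_val_one, Matrix.cons_val_zero]
        rwa [zero_add, add_comm 1 b]
      · simp only [Fin.reduceFinMk, Matrix.cons_val]
        rwa [add_comm 1 a, add_comm 1 b]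
    · funext i
      fin_cases i
      · simp [Fin.sum_univ_three, h0]
      · simp [Fin.sum_univ_three, h1]

/-- morphisms out of `F(a, b)` -/
theorem FF_homs_iff {a b : ℤ} {E : FOb k} {M : Fin 2 → E.I → Wo k} :
    M ∈ Homs (FF k a b) E ↔ M 0 ∈ E.filt a (b + 1) ∧ M 1 ∈ E.filt a (b + 1) ∧
      (fun l => xo k 0 * M 0 l + xo k 1 * M 1 l) ∈ E.filt (a - 1) (b + 2) := by
  unfold FF
  rw [gen_homs_iff]
  constructor
  · intro h
    refine ⟨?_, ?_, ?_⟩
    · have := h 0
      simp only [Matrix.cons_val_zero, Fin.sum_univ_two, Matrix.cons_val_one, one_mul, zero_mul,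
        add_zero] at this
      rwa [zero_add, add_comm 1 b] at this
    · have := h 1
      simp only [Matrix.cons_val_zero, Fin.sum_univ_two, Matrix.cons_val_one, one_mul, zero_mul,
        zero_add] at this
      rwa [add_comm 1 b] at this
    · have := h 2
      simp only [Matrix.cons_val, Fin.sum_univ_two, Matrix.cons_val_zero,
        Matrix.cons_val_one] at this
      rwa [show (-1 : ℤ) + a = a - 1 by ring, add_comm 2 b] at this
  · rintro ⟨h0, h1, h2⟩ j
    fin_cases j
    · simp only [Fin.zero_eta, Matrix.cons_val_zero, Fin.sum_univ_two, Matrix.cons_val_one,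
        one_mul, zero_mul, add_zero]
      rwa [zero_add, add_comm 1 b]
    · simp only [Fin.mk_one, Matrix.cons_val_zero, Fin.sum_univ_two, Matrix.cons_val_one,
        one_mul, zero_mul, zero_add]
      rwa [add_comm 1 b]
    · simp only [Fin.reduceFinMk, Matrix.cons_val, Fin.sum_univ_two, Matrix.cons_val_zero,
        Matrix.cons_val_one]
      rwa [show (-1 : ℤ) + a = a - 1 by ring, add_comm 2 b]

/-- morphisms out of `K(a, b)` -/
theorem KK_homs_iff {a b : ℤ} {E : FOb k} {M : Fin 2 → E.I → Wo k} :
    M ∈ Homs (KK k a b) E ↔ M 0 ∈ E.filt a (b + 1) ∧ M 1 ∈ E.filt a (b + 1) ∧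
      (fun l => po k 0 * M 0 l + po k 1 * M 1 l) ∈ E.filt (a + 1) (b + 1) := by
  unfold KK
  rw [gen_homs_iff]
  constructor
  · intro h
    refine ⟨?_, ?_, ?_⟩
    · have := h 0
      simp only [Matrix.cons_val_zero, Fin.sum_univ_two, Matrix.cons_val_one, one_mul, zero_mul,
        add_zero] at this
      rwa [zero_add, add_comm 1 b] at this
    · have := h 1
      simp only [Matrix.cons_val_zero, Fin.sum_univ_two, Matrix.cons_val_one, one_mul, zero_mul,
        zero_add] at this
      rwa [add_comm 1 b] at this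
    · have := h 2
      simp only [Matrix.cons_val, Fin.sum_univ_two, Matrix.cons_val_zero,
        Matrix.cons_val_one] at this
      rwa [add_comm 1 a, add_comm 1 b] at this
  · rintro ⟨h0, h1, h2⟩ j
    fin_cases j
    · simp only [Fin.zero_eta, Matrix.cons_val_zero, Fin.sum_univ_two, Matrix.cons_val_one,
        one_mul, zero_mul, add_zero]
      rwa [zero_add, add_comm 1 b]
    · simp only [Fin.mk_one, Matrix.cons_val_zero, Fin.sum_univ_two, Matrix.cons_val_one,
        one_mul, zero_mul, zero_add]
      rwa [add_comm 1 b]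
    · simp only [Fin.reduceFinMk, Matrix.cons_val, Fin.sum_univ_two, Matrix.cons_val_zero,
        Matrix.cons_val_one]
      rwa [add_comm 1 a, add_comm 1 b]

end FOb

end P195E
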