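import Mathlib
import Vale.Agent.P195E.Objs

/-!
# P195: direct sums, `add`, finite dimensionality and exactness in the category of filtered modules
-/

namespace P195E

open CategoryTheory P195A

variable {k : Type} [Field k]

namespace FOb

/-! ### morphisms from linear maps -/

/-- the morphism defined by a left linear map preserving the filtrations -/
noncomputable def mkHom {E F : FOb k} (φ : (E.I → Wo k) →ₗ[Wo k] (F.I → Wo k))
    (h : ∀ a b u, u ∈ E.filt a b → φ u ∈ F.filt a b) : E ⟶ F :=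
  ⟨fun i j => φ (Pi.single i 1) j, fun a b u hu => by
    have e : act (E := E) (F := F) (fun i j => φ (Pi.single i 1) j) u = φ u := by
      funext j
      have h1 : u = ∑ i, u i • (Pi.single i 1 : E.I → Wo k) := by
        funext l
        rw [Finset.sum_apply, Finset.sum_eq_single l]
        · simp
        · intro i _ hi
          simp [Ne.symm hi]
        · intro hl
          exact absurd (Finset.mem_univ l) hl
      conv_rhs => rw [h1, map_sum, Finset.sum_apply]
      simp only [map_smul, Pi.smul_apply, smul_eq_mul, act]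
    rw [e]
    exact h a b u hu⟩

theorem act_mkHom {E F : FOb k} (φ : (E.I → Wo k) →ₗ[Wo k] (F.I → Wo k))
    (h : ∀ a b u, u ∈ E.filt a b → φ u ∈ F.filt a b) (u : E.I → Wo k) :
    act (mkHom φ h).1 u = φ u := by
  funext j
  have h1 : u = ∑ i, u i • (Pi.single i 1 : E.I → Wo k) := by
    funext l
    rw [Finset.sum_apply, Finset.sum_eq_single l]
    · simp
    · intro i _ hi
      simp [Ne.symm hi]
    · intro hl
      exact absurd (Finset.mem_univ l) hl
  conv_rhs => rw [h1, map_sum, Finset.sum_apply]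
  simp only [map_smul, Pi.smul_apply, smul_eq_mul, act]
  rfl

/-- the action of a matrix as a linear map -/
noncomputable def actL {E F : FOb k} (f : E ⟶ F) : (E.I → Wo k) →ₗ[Wo k] (F.I → Wo k) where
  toFun u := act f.1 u
  map_add' := act_add _
  map_smul' S u := act_mul _ S u

theorem act_single {E F : FOb k} (f : E ⟶ F) (i : E.I) :
    act f.1 (Pi.single i 1) = f.1 i := by
  funext j
  simp [act, Pi.single_apply]

/-- two morphisms with the same action are equal -/
theorem hom_ext_act {E F : FOb k} {f g : E ⟶ F} (h : ∀ u, act f.1 u = act g.1 u) : f = g := by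
  apply hom_ext
  funext i
  rw [← act_single f i, ← act_single g i]
  exact h _

theorem act_comp {E F G : FOb k} (f : E ⟶ F) (g : F ⟶ G) (u : E.I → Wo k) :
    act (f ≫ g).1 u = act g.1 (act f.1 u) := act_cmp _ _ _

theorem act_id {E : FOb k} (u : E.I → Wo k) : act (𝟙 E : E ⟶ E).1 u = u := act_idm u

theorem act_zero_hom {E F : FOb k} (u : E.I → Wo k) : act (0 : E ⟶ F).1 u = 0 := by
  funext j
  simp [act]

theorem act_add_hom {E F : FOb k} (f g : E ⟶ F) (u : E.I → Wo k) :
    act (f + g).1 u = act f.1 u + act g.1 u := by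
  funext j
  simp only [act, add_val, Pi.add_apply, mul_add, Finset.sum_add_distrib]

theorem act_sub_hom {E F : FOb k} (f g : E ⟶ F) (u : E.I → Wo k) :
    act (f - g).1 u = act f.1 u - act g.1 u := by
  funext j
  simp only [act, sub_val, Pi.sub_apply, mul_sub, Finset.sum_sub_distrib]

theorem act_mem {E F : FOb k} (f : E ⟶ F) {a b : ℤ} {u : E.I → Wo k} (hu : u ∈ E.filt a b) :
    act f.1 u ∈ F.filt a b := f.2 a b u hu

/-! ### sums -/

/-- the zero object -/
noncomputable def zer (k : Type) [Field k] : FOb k where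
  I := Empty
  fin := inferInstance
  dec := inferInstance
  filt _ _ := ⊤
  closed _ _ _ _ _ _ _ _ := trivial

theorem zer_isZero : Limits.IsZero (zer k) := by
  rw [Limits.IsZero.iff_id_eq_zero]
  apply hom_ext'
  intro i
  exact i.elim

/-- binary direct sum -/
noncomputable def bsum (E F : FOb k) : FOb k where
  I := E.I ⊕ F.I
  fin := inferInstance
  dec := inferInstance
  filt a b :=
    { carrier := {u | (fun i => u (Sum.inl i)) ∈ E.filt a b ∧ (fun i => u (Sum.inr i)) ∈ F.filt a b}
      zero_mem' := ⟨Submodule.zero_mem _, Submodule.zero_mem _⟩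
      add_mem' := fun h1 h2 => ⟨Submodule.add_mem _ h1.1 h2.1, Submodule.add_mem _ h1.2 h2.2⟩
      smul_mem' := fun c _ h => ⟨Submodule.smul_mem _ c h.1, Submodule.smul_mem _ c h.2⟩ }
  closed w d a b S u hS hu := ⟨E.closed w d a b S _ hS hu.1, F.closed w d a b S _ hS hu.2⟩

theorem bsum_mem_iff {E F : FOb k} {a b : ℤ} {u : E.I ⊕ F.I → Wo k} :
    u ∈ (bsum E F).filt a b ↔ (fun i => u (Sum.inl i)) ∈ E.filt a b ∧
      (fun i => u (Sum.inr i)) ∈ F.filt a b := Iff.rfl

/-- `m` copies of an object -/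
noncomputable def cop (m : Type) [Fintype m] [DecidableEq m] (E : FOb k) : FOb k where
  I := m × E.I
  fin := inferInstance
  dec := inferInstance
  filt a b :=
    { carrier := {u | ∀ s, (fun i => u (s, i)) ∈ E.filt a b}
      zero_mem' := fun _ => Submodule.zero_mem _
      add_mem' := fun h1 h2 s => Submodule.add_mem _ (h1 s) (h2 s)
      smul_mem' := fun c _ h s => Submodule.smul_mem _ c (h s) }
  closed w d a b S _ hS hu s := E.closed w d a b S _ hS (hu s)

theorem cop_mem_iff {m : Type} [Fintype m] [DecidableEq m] {E : FOb k} {a b : ℤ}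
    {u : m × E.I → Wo k} :
    u ∈ (cop m E).filt a b ↔ ∀ s, (fun i => u (s, i)) ∈ E.filt a b := Iff.rfl

section bs
variable (E F : FOb k)

noncomputable def inl : E ⟶ bsum E F := mkHom (F := bsum E F)
  { toFun := fun u => Sum.elim u 0
    map_add' := fun u v => funext fun i => match i with
      | Sum.inl _ => rfl
      | Sum.inr _ => (add_zero (0 : Wo k)).symm
    map_smul' := fun c u => funext fun i => match i with
      | Sum.inl _ => rfl
      | Sum.inr _ => (smul_zero c).symm }
  (fun _ _ _ hu => ⟨hu, Submodule.zero_mem _⟩)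

noncomputable def inr : F ⟶ bsum E F := mkHom (F := bsum E F)
  { toFun := fun u => Sum.elim 0 u
    map_add' := fun u v => funext fun i => match i with
      | Sum.inr _ => rfl
      | Sum.inl _ => (add_zero (0 : Wo k)).symm
    map_smul' := fun c u => funext fun i => match i with
      | Sum.inr _ => rfl
      | Sum.inl _ => (smul_zero c).symm }
  (fun _ _ _ hu => ⟨Submodule.zero_mem _, hu⟩)

noncomputable def fst : bsum E F ⟶ E := mkHom (E := bsum E F)
  { toFun := fun u i => u (Sum.inl i)
    map_add' := fun _ _ => rfl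
    map_smul' := fun _ _ => rfl }
  (fun _ _ _ hu => hu.1)

noncomputable def snd : bsum E F ⟶ F := mkHom (E := bsum E F)
  { toFun := fun u i => u (Sum.inr i)
    map_add' := fun _ _ => rfl
    map_smul' := fun _ _ => rfl }
  (fun _ _ _ hu => hu.2)

theorem act_inl (u : E.I → Wo k) :
    act (inl E F).1 u = (Sum.elim u 0 : E.I ⊕ F.I → Wo k) := act_mkHom (F := bsum E F) _ _ _
theorem act_inr (u : F.I → Wo k) :
    act (inr E F).1 u = (Sum.elim 0 u : E.I ⊕ F.I → Wo k) := act_mkHom (F := bsum E F) _ _ _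
theorem act_fst (u : E.I ⊕ F.I → Wo k) : act (E := bsum E F) (fst E F).1 u
    = fun i => u (Sum.inl i) := act_mkHom (E := bsum E F) _ _ _
theorem act_snd (u : E.I ⊕ F.I → Wo k) : act (E := bsum E F) (snd E F).1 u
    = fun i => u (Sum.inr i) := act_mkHom (E := bsum E F) _ _ _

theorem bsum_id : fst E F ≫ inl E F + snd E F ≫ inr E F = 𝟙 (bsum E F) := by
  apply hom_ext_act
  intro u
  rw [act_add_hom, act_comp, act_comp, act_id]
  have h1 : act (fst E F).1 u = fun i => u (Sum.inl i) := act_fst E F u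
  have h2 : act (snd E F).1 u = fun i => u (Sum.inr i) := act_snd E F u
  rw [h1, h2, act_inl, act_inr]
  funext i
  cases i with
  | inl i =>
    show u (Sum.inl i) + 0 = _
    rw [add_zero]
  | inr i =>
    show 0 + u (Sum.inr i) = _
    rw [zero_add]

end bs

section cp
variable (m : Type) [Fintype m] [DecidableEq m] (E : FOb k)

noncomputable def inc (s : m) : E ⟶ cop m E := mkHom (F := cop m E)
  { toFun := fun u p => if p.1 = s then u p.2 else 0
    map_add' := fun u v => by
      funext p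
      by_cases h : p.1 = s <;> simp [h]
    map_smul' := fun c u => by
      funext p
      by_cases h : p.1 = s <;> simp [h] }
  (fun a b u hu s' => by
    by_cases h : s' = s
    · simpa [h] using hu
    · simp only [LinearMap.coe_mk, AddHom.coe_mk, h, if_false]
      exact Submodule.zero_mem _)

noncomputable def prj (s : m) : cop m E ⟶ E := mkHom (E := cop m E)
  { toFun := fun u i => u (s, i)
    map_add' := fun _ _ => rfl
    map_smul' := fun _ _ => rfl }
  (fun _ _ _ hu => hu s)

theorem act_inc (s : m) (u : E.I → Wo k) :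
    act (inc m E s).1 u = fun p : m × E.I => if p.1 = s then u p.2 else 0 :=
  act_mkHom (F := cop m E) _ _ _

theorem act_prj (s : m) (u : m × E.I → Wo k) :
    act (E := cop m E) (prj m E s).1 u = fun i => u (s, i) := act_mkHom (E := cop m E) _ _ _

theorem act_sum_hom {E F : FOb k} {J : Type*} (s : Finset J) (f : J → (E ⟶ F))
    (u : E.I → Wo k) : act (∑ j ∈ s, f j).1 u = ∑ j ∈ s, act (f j).1 u := by
  classical
  induction s using Finset.induction_on with
  | empty =>
    rw [Finset.sum_empty, Finset.sum_empty]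
    exact act_zero_hom u
  | insert a s ha ih => rw [Finset.sum_insert ha, Finset.sum_insert ha, act_add_hom, ih]

theorem cop_id : ∑ s, prj m E s ≫ inc m E s = 𝟙 (cop m E) := by
  apply hom_ext_act
  intro u
  rw [act_sum_hom, act_id]
  have h1 : ∀ s, act (prj m E s ≫ inc m E s).1 u
      = fun p : m × E.I => if p.1 = s then u (s, p.2) else 0 := by
    intro s
    rw [act_comp]
    have h2 : act (prj m E s).1 u = fun i => u (s, i) := act_prj m E s u
    rw [h2]
    exact act_inc m E s _
  funext p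
  have h3 : (∑ s, act (prj m E s ≫ inc m E s).1 u) p
      = ∑ s, (if p.1 = s then u (s, p.2) else 0) := by
    rw [Finset.sum_apply]
    exact Finset.sum_congr rfl fun s _ => congrFun (h1 s) p
  rw [h3, Finset.sum_ite_eq, if_pos (Finset.mem_univ _)]
  rfl

end cp

/-! ### `add` -/

section add
variable {ι : Type} (T : ι → FOb k)

theorem inAdd_of_family {Z : FOb k} {J : Type} [Fintype J] (E : J → FOb k)
    (hE : ∀ a, P195D.InAdd T (E a)) (p : ∀ a, Z ⟶ E a) (q : ∀ a, E a ⟶ Z)
    (h : ∑ a, p a ≫ q a = 𝟙 Z) : P195D.InAdd T Z := by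
  choose J' hJ' o p' q' h' using hE
  refine ⟨Σ a, J' a, inferInstance, fun z => o z.1 z.2, fun z => p z.1 ≫ p' z.1 z.2,
    fun z => q' z.1 z.2 ≫ q z.1, ?_⟩
  rw [Fintype.sum_sigma]
  rw [← h]
  refine Finset.sum_congr rfl fun a _ => ?_
  have h1 : ∀ b, (p a ≫ p' a b) ≫ q' a b ≫ q a = p a ≫ (p' a b ≫ q' a b) ≫ q a := by
    intro b
    simp only [Category.assoc]
  simp only [h1]
  rw [← Preadditive.comp_sum, ← Preadditive.sum_comp, h', Category.id_comp]

theorem inAdd_bsum {E F : FOb k} (hE : P195D.InAdd T E) (hF : P195D.InAdd T F) :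
    P195D.InAdd T (bsum E F) := by
  refine inAdd_of_family T (J := Bool) (fun b => if b then E else F)
    (fun b => by cases b <;> simpa) (fun b => match b with
      | true => fst E F
      | false => snd E F) (fun b => match b with
      | true => inl E F
      | false => inr E F) ?_
  rw [Fintype.sum_bool]
  exact bsum_id E F

theorem inAdd_cop {m : Type} [Fintype m] [DecidableEq m] {E : FOb k} (hE : P195D.InAdd T E) :
    P195D.InAdd T (cop m E) :=
  inAdd_of_family T (J := m) (fun _ => E) (fun _ => hE) (fun s => prj m E s)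
    (fun s => inc m E s) (cop_id m E)

end add

/-! ### finite dimensionality -/

theorem gen_filt_finite {I J : Type} [Fintype I] [DecidableEq I] [Fintype J]
    {dw dd : J → ℤ} {g : J → I → Wo k} (w d : ℤ) :
    Module.Finite k ((gen k I J dw dd g).filt w d) := by
  have hD : ∀ j, Module.Finite k (Dg k (dw j - w) (dd j - d)) := fun j => Dg_finite _ _
  let φ : (∀ j, Dg k (dw j - w) (dd j - d)) →ₗ[k] ((gen k I J dw dd g).filt w d) :=
    { toFun := fun c => ⟨fun i => ∑ j, (c j).1 * g j i, ⟨fun j => (c j).1, fun j => (c j).2, rfl⟩⟩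
      map_add' := fun c c' => by
        apply Subtype.ext
        funext i
        show ∑ j, ((c j).1 + (c' j).1) * g j i = ∑ j, (c j).1 * g j i + ∑ j, (c' j).1 * g j i
        simp only [add_mul, Finset.sum_add_distrib]
      map_smul' := fun a c => by
        apply Subtype.ext
        funext i
        show ∑ j, (a • (c j).1) * g j i = a • ∑ j, (c j).1 * g j i
        simp only [smul_mul_assoc, Finset.smul_sum] }
  refine Module.Finite.of_surjective φ ?_
  rintro ⟨u, c, hc, rfl⟩
  exact ⟨fun j => ⟨c j, hc j⟩, rfl⟩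

/-- finite dimensionality of Hom spaces: the unit vectors lie in the filtration of the source -/
theorem hom_finite {E F : FOb k} (dw dd : E.I → ℤ)
    (hE : ∀ i, (Pi.single i 1 : E.I → Wo k) ∈ E.filt (dw i) (dd i))
    (hF : ∀ w d, Module.Finite k (F.filt w d)) : Module.Finite k (E ⟶ F) := by
  have := fun i => hF (dw i) (dd i)
  have h2 : ∀ i, IsNoetherian k (F.filt (dw i) (dd i)) := fun i =>
    isNoetherian_of_isNoetherianRing_of_finite k (F.filt (dw i) (dd i))
  have h3 : IsNoetherian k (∀ i, F.filt (dw i) (dd i)) :=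
    isNoetherian_pi (R := k) (M := fun i => F.filt (dw i) (dd i))
  let φ : (E ⟶ F) →ₗ[k] (∀ i, F.filt (dw i) (dd i)) :=
    { toFun := fun f i => ⟨f.1 i, by
        rw [← act_single f i]
        exact act_mem f (hE i)⟩
      map_add' := fun _ _ => rfl
      map_smul' := fun _ _ => rfl }
  refine Module.Finite.of_injective φ ?_
  intro f g h
  apply hom_ext
  funext i
  exact congrArg Subtype.val (congrFun h i)

theorem O_unit (a b : ℤ) (i : Unit) :
    (Pi.single i 1 : Unit → Wo k) ∈ (O k a b).filt a b := by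
  rw [O_mem_iff]
  simpa using one_mem_Dg

theorem FF_unit (a b : ℤ) (i : Fin 2) :
    (Pi.single i 1 : Fin 2 → Wo k) ∈ (FF k a b).filt a (b + 1) := by
  rw [FF_mem_iff]
  fin_cases i
  · exact ⟨1, 0, 0, by simpa using one_mem_Dg, Submodule.zero_mem _, Submodule.zero_mem _,
      by simp, by simp⟩
  · exact ⟨0, 1, 0, Submodule.zero_mem _, by simpa using one_mem_Dg, Submodule.zero_mem _,
      by simp, by simp⟩

theorem KK_unit (a b : ℤ) (i : Fin 2) :
    (Pi.single i 1 : Fin 2 → Wo k) ∈ (KK k a b).filt a (b + 1) := by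
  rw [KK_mem_iff]
  fin_cases i
  · exact ⟨1, 0, 0, by simpa using one_mem_Dg, Submodule.zero_mem _, Submodule.zero_mem _,
      by simp, by simp⟩
  · exact ⟨0, 1, 0, Submodule.zero_mem _, by simpa using one_mem_Dg, Submodule.zero_mem _,
      by simp, by simp⟩

/-- endomorphisms of a line bundle are scalars -/
theorem O_end (a b : ℤ) (f : O k a b ⟶ O k a b) : ∃ c : k, f = c • 𝟙 (O k a b) := by
  have h1 := (O_homs_iff (E := O k a b)).1 f.2
  have h2 := (O_mem_iff (k := k)).1 h1
  rw [sub_self, sub_self] at h2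
  obtain ⟨c, hc⟩ := mem_Dg_zero h2
  refine ⟨c, ?_⟩
  apply hom_ext'
  intro i j
  show f.1 () () = c • (if (() : Unit) = () then (1 : Wo k) else 0)
  rw [if_pos rfl]
  exact hc

/-! ### exactness tests -/

/-- the morphism from a line bundle given by an element of the filtration -/
noncomputable def ofO {a b : ℤ} {E : FOb k} (u : E.I → Wo k) (hu : u ∈ E.filt a b) : O k a b ⟶ E :=
  ⟨fun _ => u, (O_homs_iff (E := E) (M := fun _ => u)).2 hu⟩

theorem O_hom_mem {a b : ℤ} {E : FOb k} (f : O k a b ⟶ E) : f.1 () ∈ E.filt a b :=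
  (O_homs_iff (E := E)).1 f.2

theorem O_comp_val {a b : ℤ} {E F : FOb k} (f : O k a b ⟶ E) (g : E ⟶ F) :
    (f ≫ g).1 () = act g.1 (f.1 ()) := by
  funext j
  rfl

theorem O_hom_ext {a b : ℤ} {E : FOb k} {f g : O k a b ⟶ E} (h : f.1 () = g.1 ()) : f = g := by
  apply hom_ext
  funext i
  exact h

/-- exactness of `Hom(O(a,b), -)` is exactness in degree `(a,b)` -/
theorem O_exact_iff {a b : ℤ} {E F G : FOb k} (f : E ⟶ F) (g : F ⟶ G) :
    (∀ x : O k a b ⟶ F, x ≫ g = 0 → ∃ y : O k a b ⟶ E, y ≫ f = x) ↔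
      ∀ u ∈ F.filt a b, act g.1 u = 0 → ∃ v ∈ E.filt a b, act f.1 v = u := by
  constructor
  · intro h u hu hg
    obtain ⟨y, hy⟩ := h (ofO u hu) (O_hom_ext (by
      rw [O_comp_val]
      exact hg))
    refine ⟨y.1 (), O_hom_mem y, ?_⟩
    rw [← O_comp_val, hy]
    rfl
  · intro h x hx
    obtain ⟨v, hv, hv2⟩ := h (x.1 ()) (O_hom_mem x) (by
      rw [← O_comp_val, hx]
      rfl)
    exact ⟨ofO v hv, O_hom_ext (by
      rw [O_comp_val]
      exact hv2)⟩

/-- morphisms from `F(a,b)` -/
noncomputable def ofF {a b : ℤ} {E : FOb k} (u v : E.I → Wo k) (hu : u ∈ E.filt a (b + 1))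
    (hv : v ∈ E.filt a (b + 1))
    (hw : (fun l => xo k 0 * u l + xo k 1 * v l) ∈ E.filt (a - 1) (b + 2)) : FF k a b ⟶ E :=
  ⟨(![u, v] : Fin 2 → E.I → Wo k), (FF_homs_iff (E := E)).2 ⟨hu, hv, hw⟩⟩

/-- morphisms from `K(a,b)` -/
noncomputable def ofK {a b : ℤ} {E : FOb k} (u v : E.I → Wo k) (hu : u ∈ E.filt a (b + 1))
    (hv : v ∈ E.filt a (b + 1))
    (hw : (fun l => po k 0 * u l + po k 1 * v l) ∈ E.filt (a + 1) (b + 1)) : KK k a b ⟶ E :=
  ⟨(![u, v] : Fin 2 → E.I → Wo k), (KK_homs_iff (E := E)).2 ⟨hu, hv, hw⟩⟩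

/-- exactness of `Hom(F(a,b), -)` in the middle -/
theorem F_exact_iff {a b : ℤ} {E F G : FOb k} (f : E ⟶ F) (g : F ⟶ G) :
    (∀ x : FF k a b ⟶ F, x ≫ g = 0 → ∃ y : FF k a b ⟶ E, y ≫ f = x) ↔
      ∀ u v, u ∈ F.filt a (b + 1) → v ∈ F.filt a (b + 1) →
        (fun l => xo k 0 * u l + xo k 1 * v l) ∈ F.filt (a - 1) (b + 2) →
        act g.1 u = 0 → act g.1 v = 0 →
        ∃ u' v', u' ∈ E.filt a (b + 1) ∧ v' ∈ E.filt a (b + 1) ∧
          (fun l => xo k 0 * u' l + xo k 1 * v' l) ∈ E.filt (a - 1) (b + 2) ∧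
          act f.1 u' = u ∧ act f.1 v' = v := by
  constructor
  · intro h u v hu hv hw h1 h2
    obtain ⟨y, hy⟩ := h (ofF u v hu hv hw) (by
      apply hom_ext
      funext i
      fin_cases i
      · exact h1
      · exact h2)
    obtain ⟨k1, k2, k3⟩ := (FF_homs_iff (E := E)).1 y.2
    refine ⟨y.1 (0 : Fin 2), y.1 (1 : Fin 2), k1, k2, k3, ?_, ?_⟩
    · exact congrFun (congrArg Subtype.val hy) (0 : Fin 2)
    · exact congrFun (congrArg Subtype.val hy) (1 : Fin 2)
  · intro h x hx
    obtain ⟨k1, k2, k3⟩ := (FF_homs_iff (E := F)).1 x.2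
    obtain ⟨u', v', hu, hv, hw, h1, h2⟩ := h (x.1 (0 : Fin 2)) (x.1 (1 : Fin 2)) k1 k2 k3
      (congrFun (congrArg Subtype.val hx) (0 : Fin 2))
      (congrFun (congrArg Subtype.val hx) (1 : Fin 2))
    refine ⟨ofF u' v' hu hv hw, ?_⟩
    apply hom_ext
    funext i
    fin_cases i
    · exact h1
    · exact h2

/-- exactness of `Hom(K(a,b), -)` in the middle -/
theorem K_exact_iff {a b : ℤ} {E F G : FOb k} (f : E ⟶ F) (g : F ⟶ G) :
    (∀ x : KK k a b ⟶ F, x ≫ g = 0 → ∃ y : KK k a b ⟶ E, y ≫ f = x) ↔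
      ∀ u v, u ∈ F.filt a (b + 1) → v ∈ F.filt a (b + 1) →
        (fun l => po k 0 * u l + po k 1 * v l) ∈ F.filt (a + 1) (b + 1) →
        act g.1 u = 0 → act g.1 v = 0 →
        ∃ u' v', u' ∈ E.filt a (b + 1) ∧ v' ∈ E.filt a (b + 1) ∧
          (fun l => po k 0 * u' l + po k 1 * v' l) ∈ E.filt (a + 1) (b + 1) ∧
          act f.1 u' = u ∧ act f.1 v' = v := by
  constructor
  · intro h u v hu hv hw h1 h2
    obtain ⟨y, hy⟩ := h (ofK u v hu hv hw) (by
      apply hom_ext
      funext i
      fin_cases i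
      · exact h1
      · exact h2)
    obtain ⟨k1, k2, k3⟩ := (KK_homs_iff (E := E)).1 y.2
    refine ⟨y.1 (0 : Fin 2), y.1 (1 : Fin 2), k1, k2, k3, ?_, ?_⟩
    · exact congrFun (congrArg Subtype.val hy) (0 : Fin 2)
    · exact congrFun (congrArg Subtype.val hy) (1 : Fin 2)
  · intro h x hx
    obtain ⟨k1, k2, k3⟩ := (KK_homs_iff (E := F)).1 x.2
    obtain ⟨u', v', hu, hv, hw, h1, h2⟩ := h (x.1 (0 : Fin 2)) (x.1 (1 : Fin 2)) k1 k2 k3
      (congrFun (congrArg Subtype.val hx) (0 : Fin 2))
      (congrFun (congrArg Subtype.val hx) (1 : Fin 2))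
    refine ⟨ofK u' v' hu hv hw, ?_⟩
    apply hom_ext
    funext i
    fin_cases i
    · exact h1
    · exact h2

end FOb

end P195E

namespace P195E

open CategoryTheory P195A

variable {k : Type} [Field k]

namespace FOb

theorem O_filt_finite (a b w d : ℤ) : Module.Finite k ((O k a b).filt w d) := gen_filt_finite w d
theorem FF_filt_finite (a b w d : ℤ) : Module.Finite k ((FF k a b).filt w d) := gen_filt_finite w d
theorem KK_filt_finite (a b w d : ℤ) : Module.Finite k ((KK k a b).filt w d) := gen_filt_finite w d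

theorem Phi_filt_finite {E : FOb k} (h : ∀ w d, Module.Finite k (E.filt w d)) (w d : ℤ) :
    Module.Finite k ((Phi.obj E).filt w d) := h (w - 1) (d - 1)

theorem O_hom_finite (a b : ℤ) {F : FOb k} (hF : ∀ w d, Module.Finite k (F.filt w d)) :
    Module.Finite k (O k a b ⟶ F) := hom_finite (E := O k a b) (fun _ => a) (fun _ => b)
  (fun i => O_unit a b i) hF

theorem FF_hom_finite (a b : ℤ) {F : FOb k} (hF : ∀ w d, Module.Finite k (F.filt w d)) :
    Module.Finite k (FF k a b ⟶ F) := hom_finite (E := FF k a b) (fun _ => a) (fun _ => b + 1)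
  (fun i => FF_unit a b i) hF

theorem KK_hom_finite (a b : ℤ) {F : FOb k} (hF : ∀ w d, Module.Finite k (F.filt w d)) :
    Module.Finite k (KK k a b ⟶ F) := hom_finite (E := KK k a b) (fun _ => a) (fun _ => b + 1)
  (fun i => KK_unit a b i) hF

end FOb

end P195E
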