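import Vale.Agent.P195A.DualAdj
import Vale.Agent.P195E.Tools

/-!
# P195: coordinates `X → U` for homogeneous polynomials, `X` an index type of exponents
-/

namespace P195E

open P195A

variable {k U : Type} [Field k] [AddCommGroup U] [Module k U]

/-- an index type for the exponents of degree `m` -/
structure IxOf (X : Type) (e : X → ℕ × ℕ) (m : ℤ) : Prop where
  inj : Function.Injective e
  deg : ∀ x, ((e x).1 : ℤ) + (e x).2 = m
  sur : ∀ p : ℕ × ℕ, (p.1 : ℤ) + p.2 = m → ∃ x, e x = p

section
variable {X : Type} [Fintype X] {e : X → ℕ × ℕ} {m : ℤ}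

variable (k) in
/-- the polynomial with coefficients `c` -/
noncomputable def emb (e : X → ℕ × ℕ) : (X → U) →ₗ[k] Vy U where
  toFun c := ∑ x, Finsupp.single (e x) (c x)
  map_add' c c' := by
    simp only [Pi.add_apply, Finsupp.single_add, Finset.sum_add_distrib]
  map_smul' r c := by
    simp only [Pi.smul_apply, Finset.smul_sum, Finsupp.smul_single, RingHom.id_apply]

theorem emb_def (c : X → U) : emb k e c = ∑ x, Finsupp.single (e x) (c x) := rfl

theorem emb_apply (h : IxOf X e m) (c : X → U) (x : X) : emb k e c (e x) = c x := by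
  classical
  rw [emb_def, Finsupp.finsetSum_apply, Finset.sum_eq_single x]
  · rw [Finsupp.single_eq_same]
  · intro y _ hy
    rw [Finsupp.single_eq_of_ne (fun hh => hy (h.inj hh.symm))]
  · intro hx
    exact absurd (Finset.mem_univ x) hx

theorem emb_mem (h : IxOf X e m) {Q : Submodule k U} {c : X → U} (hc : ∀ x, c x ∈ Q) :
    emb k e c ∈ VVf Q m :=
  Submodule.sum_mem _ fun x _ => VVf_single (hc x) (h.deg x)

theorem emb_of_mem (h : IxOf X e m) {Q : Submodule k U} {z : Vy U} (hz : z ∈ VVf Q m) :
    emb k e (fun x => z (e x)) = z := by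
  classical
  refine Finsupp.ext fun p => ?_
  by_cases hp : (p.1 : ℤ) + p.2 = m
  · obtain ⟨x, rfl⟩ := h.sur p hp
    exact emb_apply h _ x
  · have h1 : z p = 0 := (mem_VVf_iff.1 hz p.1 p.2).2 hp
    rw [h1, emb_def, Finsupp.finsetSum_apply]
    refine Finset.sum_eq_zero fun x _ => ?_
    rw [Finsupp.single_eq_of_ne]
    rintro rfl
    exact hp (h.deg x)

theorem emb_inj (h : IxOf X e m) {c c' : X → U} (hc : emb k e c = emb k e c') : c = c' := by
  funext x
  rw [← emb_apply (k := k) h c x, hc, emb_apply (k := k) h]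

/-! ### functionals -/

/-- the dual coordinates of a matrix -/
noncomputable def dco {I : Type} (k : Type) [Field k] (e : X → ℕ × ℕ) (M : X → I → Wo k) :
    Vy (I → Wo k) := emb k e (fun x => ((pf (e x) : k))⁻¹ • M x)

theorem dco_sub {I : Type} (M M' : X → I → Wo k) :
    dco k e (M - M') = dco k e M - dco k e M' := by
  have h : (fun x => ((pf (e x) : k))⁻¹ • (M - M') x) =
      (fun x => ((pf (e x) : k))⁻¹ • M x) - (fun x => ((pf (e x) : k))⁻¹ • M' x) := by
    funext x
    simp only [Pi.sub_apply, smul_sub]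
  rw [dco, h, map_sub]
  rfl

theorem dco_mem {I : Type} (h : IxOf X e m) {Q : Submodule k (I → Wo k)} {M : X → I → Wo k}
    (hM : ∀ x, M x ∈ Q) : dco k e M ∈ VVf Q m :=
  emb_mem h fun x => Submodule.smul_mem _ _ (hM x)

theorem prI_emb {I : Type} (u : X → Wo k) (z : Vy (I → Wo k)) :
    prI (emb k e u) z = fun l => ∑ x, (pf (e x) : k) • (u x * z (e x) l) := by
  funext l
  rw [emb_def, map_sum, LinearMap.sum_apply, Finset.sum_apply]
  exact Finset.sum_congr rfl fun x _ => prI_single _ _ _ _

variable [CharZero k]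

theorem dco_of_mem {I : Type} (h : IxOf X e m) {Q : Submodule k (I → Wo k)}
    {z : Vy (I → Wo k)} (hz : z ∈ VVf Q m) : dco k e (fun x => (pf (e x) : k) • z (e x)) = z := by
  have h1 : (fun x => ((pf (e x) : k))⁻¹ • (pf (e x) : k) • z (e x)) = fun x => z (e x) := by
    funext x
    rw [inv_smul_smul₀ (Nat.cast_ne_zero.2 (pf_ne (e x)))]
  rw [dco, h1, emb_of_mem h hz]

theorem dco_inj {I : Type} (h : IxOf X e m) {M M' : X → I → Wo k}
    (hM : dco k e M = dco k e M') : M = M' := by
  have h1 := emb_inj h hM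
  funext x
  have h2 := congrFun h1 x
  have h3 : ((pf (e x) : k))⁻¹ ≠ 0 := inv_ne_zero (Nat.cast_ne_zero.2 (pf_ne (e x)))
  exact smul_right_injective _ h3 h2

/-- pairing with the dual coordinates is the action of the matrix -/
theorem prI_dco {I : Type} (h : IxOf X e m) (u : X → Wo k) (M : X → I → Wo k) :
    prI (emb k e u) (dco k e M) = fun l => ∑ x, u x * M x l := by
  rw [prI_emb]
  funext l
  refine Finset.sum_congr rfl fun x _ => ?_
  rw [dco, emb_apply h, Pi.smul_apply, mul_smul_comm,
    smul_inv_smul₀ (Nat.cast_ne_zero.2 (pf_ne (e x)))]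

/-- a polynomial in the dual variables is determined by the pairing -/
theorem eq_of_prI {I : Type} (h : IxOf X e m) {Q : Submodule k (I → Wo k)}
    {z z' : Vy (I → Wo k)} (hz : z ∈ VVf Q m) (hz' : z' ∈ VVf Q m)
    (hu : ∀ u : X → Wo k, prI (emb k e u) z = prI (emb k e u) z') : z = z' := by
  classical
  rw [← dco_of_mem h hz, ← dco_of_mem h hz'] at hu ⊢
  congr 1
  funext x l
  have h1 := congrFun (hu (Pi.single x 1)) l
  rw [prI_dco h, prI_dco h] at h1
  have h2 : ∀ M : X → I → Wo k,
      ∑ y, (Pi.single x 1 : X → Wo k) y * M y l = M x l := by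
    intro M
    rw [Finset.sum_eq_single x]
    · rw [Pi.single_eq_same, one_mul]
    · intro y _ hy
      rw [Pi.single_eq_of_ne hy, zero_mul]
    · intro hx
      exact absurd (Finset.mem_univ x) hx
  exact (h2 (fun x => (pf (e x) : k) • z (e x))).symm.trans
    (h1.trans (h2 (fun x => (pf (e x) : k) • z' (e x))))

end

end P195E
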