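import Vale.Agent.P195E.DualHomA

/-!
# P195: morphisms out of sums
-/

namespace P195E

open CategoryTheory P195A

variable {k : Type} [Field k]

namespace FOb

theorem mem_of_eq' {V : Type} [AddCommGroup V] [Module k V] {Q : Submodule k V} {x y : V}
    (h : x = y) (hy : y ∈ Q) : x ∈ Q := h ▸ hy

theorem act_bsum {E F v : FOb k} (M : E.I ⊕ F.I → v.I → Wo k) (u : E.I ⊕ F.I → Wo k) :
    act (E := bsum E F) M u = act (E := E) (fun i => M (Sum.inl i)) (fun i => u (Sum.inl i)) +
      act (E := F) (fun i => M (Sum.inr i)) (fun i => u (Sum.inr i)) := by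
  funext l
  exact Fintype.sum_sum_type _

theorem bsum_homs_iff {E F v : FOb k} {M : E.I ⊕ F.I → v.I → Wo k} :
    M ∈ Homs (bsum E F) v ↔ (fun i => M (Sum.inl i)) ∈ Homs E v ∧
      (fun i => M (Sum.inr i)) ∈ Homs F v := by
  constructor
  · intro h
    constructor
    · intro a b u hu
      have h1 := h a b (Sum.elim u 0) ⟨hu, Submodule.zero_mem _⟩
      rw [act_bsum] at h1
      have h2 : act (E := F) (F := v) (fun i => M (Sum.inr i)) (fun _ => 0) = 0 := by
        funext l
        simp [act]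
      have h3 : (fun i => (Sum.elim u 0 : E.I ⊕ F.I → Wo k) (Sum.inr i)) = fun _ => 0 := rfl
      rw [h3, h2, add_zero] at h1
      exact h1
    · intro a b u hu
      have h1 := h a b (Sum.elim 0 u) ⟨Submodule.zero_mem _, hu⟩
      rw [act_bsum] at h1
      have h2 : act (E := E) (F := v) (fun i => M (Sum.inl i)) (fun _ => 0) = 0 := by
        funext l
        simp [act]
      have h3 : (fun i => (Sum.elim 0 u : E.I ⊕ F.I → Wo k) (Sum.inl i)) = fun _ => 0 := rfl
      rw [h3, h2, zero_add] at h1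
      exact h1
  · rintro ⟨h1, h2⟩ a b u hu
    exact mem_of_eq' (act_bsum (E := E) (F := F) (v := v) M u)
      (Submodule.add_mem _ (h1 a b _ hu.1) (h2 a b _ hu.2))

theorem act_cop {X : Type} [Fintype X] [DecidableEq X] {E v : FOb k}
    (M : X × E.I → v.I → Wo k) (u : X × E.I → Wo k) :
    act (E := cop X E) M u = ∑ s, act (E := E) (fun i => M (s, i)) (fun i => u (s, i)) := by
  funext l
  rw [Finset.sum_apply]
  exact Fintype.sum_prod_type _

theorem cop_homs_iff {X : Type} [Fintype X] [DecidableEq X] {E v : FOb k}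
    {M : X × E.I → v.I → Wo k} :
    M ∈ Homs (cop X E) v ↔ ∀ s, (fun i => M (s, i)) ∈ Homs E v := by
  constructor
  · intro h s a b u hu
    have h0 : (fun p : X × E.I => if p.1 = s then u p.2 else 0) ∈ (cop X E).filt a b := by
      intro s'
      by_cases hs : s' = s
      · simpa [hs] using hu
      · simp only [hs, if_false]
        exact Submodule.zero_mem _
    have h1 := h a b _ h0
    rw [act_cop, Finset.sum_eq_single s] at h1
    · simpa using h1
    · intro s' _ hs'
      funext l
      simp [act, hs']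
    · intro hs
      exact absurd (Finset.mem_univ s) hs
  · intro h a b u hu
    exact mem_of_eq' (act_cop (E := E) (v := v) M u)
      (Submodule.sum_mem _ fun s _ => h s a b _ (hu s))

/-- morphisms out of `O(a,b)^X` -/
theorem copO_homs_iff {X : Type} [Fintype X] [DecidableEq X] {a b : ℤ} {v : FOb k}
    {M : X × Unit → v.I → Wo k} :
    M ∈ Homs (cop X (O k a b)) v ↔ ∀ s, M (s, ()) ∈ v.filt a b :=
  (cop_homs_iff (E := O k a b)).trans (forall_congr' fun _ => O_homs_iff)

/-- morphisms out of `F(a,b)^X` -/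
theorem copFF_homs_iff {X : Type} [Fintype X] [DecidableEq X] {a b : ℤ} {v : FOb k}
    {M : X × Fin 2 → v.I → Wo k} :
    M ∈ Homs (cop X (FF k a b)) v ↔ ∀ s, M (s, 0) ∈ v.filt a (b + 1) ∧
      M (s, 1) ∈ v.filt a (b + 1) ∧
      (fun l => xo k 0 * M (s, 0) l + xo k 1 * M (s, 1) l) ∈ v.filt (a - 1) (b + 2) :=
  (cop_homs_iff (E := FF k a b)).trans (forall_congr' fun _ => FF_homs_iff)

/-- morphisms out of `K(a,b)^X` -/
theorem copKK_homs_iff {X : Type} [Fintype X] [DecidableEq X] {a b : ℤ} {v : FOb k}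
    {M : X × Fin 2 → v.I → Wo k} :
    M ∈ Homs (cop X (KK k a b)) v ↔ ∀ s, M (s, 0) ∈ v.filt a (b + 1) ∧
      M (s, 1) ∈ v.filt a (b + 1) ∧
      (fun l => po k 0 * M (s, 0) l + po k 1 * M (s, 1) l) ∈ v.filt (a + 1) (b + 1) :=
  (cop_homs_iff (E := KK k a b)).trans (forall_congr' fun _ => KK_homs_iff)

end FOb

end P195E
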