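import Vale.Agent.P195E.DualHomB

/-!
# P195: dual coordinates of morphisms out of `P_0, P_1, P_2, P_3`
-/

namespace P195E

open CategoryTheory P195A

variable {k : Type} [Field k]

section
variable {X : Type} [Fintype X] {e : X → ℕ × ℕ} {m : ℤ}

theorem lf_emb {U : Type} [AddCommGroup U] [Module k U] (L : U →ₗ[k] U) (c : X → U) :
    lf L (emb k e c) = emb k e (fun x => L (c x)) := by
  rw [emb_def, emb_def, map_sum]
  exact Finset.sum_congr rfl fun x _ => lf_single L _ _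

theorem lf_dco {I : Type} (L : (I → Wo k) →ₗ[k] (I → Wo k)) (M : X → I → Wo k) :
    lf L (dco k e M) = dco k e (fun x => L (M x)) := by
  rw [dco, lf_emb, dco]
  congr 1
  funext x
  rw [map_smul]

theorem dco_add {I : Type} (M M' : X → I → Wo k) :
    dco k e M + dco k e M' = dco k e (fun x => M x + M' x) := by
  rw [dco, dco, ← map_add, dco]
  congr 1
  funext x
  rw [Pi.add_apply, smul_add]

theorem dco_neg {I : Type} (M : X → I → Wo k) :
    dco k e (fun x => -M x) = -dco k e M := by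
  rw [dco, dco, ← map_neg]
  congr 1
  funext x
  rw [Pi.neg_apply, smul_neg]

theorem dco_mem_iff [CharZero k] {I : Type} (h : IxOf X e m) {Q : Submodule k (I → Wo k)}
    {M : X → I → Wo k} : dco k e M ∈ VVf Q m ↔ ∀ x, M x ∈ Q := by
  constructor
  · intro hM x
    have h1 := ((mem_VVf_iff.1 hM) (e x).1 (e x).2).1
    have h2 : dco k e M ((e x).1, (e x).2) = ((pf (e x) : k))⁻¹ • M x := emb_apply h _ x
    rw [h2] at h1
    have h3 := Submodule.smul_mem Q (pf (e x) : k) h1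
    rwa [smul_inv_smul₀ (Nat.cast_ne_zero.2 (pf_ne (e x)))] at h3
  · exact fun hM => dco_mem h hM

end

namespace FOb

/-! ### sums of line bundles -/

section O
variable {X : Type} [Fintype X] [DecidableEq X] {e : X → ℕ × ℕ} {m : ℤ} {a b : ℤ} {v : FOb k}

/-- the matrix of a morphism out of `O(a,b)^X` -/
def matO (x : cop X (O k a b) ⟶ v) : X → v.I → Wo k := fun s => x.1 (s, ())

theorem matO_mem (x : cop X (O k a b) ⟶ v) (s : X) : matO x s ∈ v.filt a b :=
  copO_homs_iff.1 x.2 s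

theorem act_matO (x : cop X (O k a b) ⟶ v) (u : X × Unit → Wo k) (l : v.I) :
    act (E := cop X (O k a b)) x.1 u l = ∑ s, u (s, ()) * matO x s l := by
  refine (Fintype.sum_prod_type _).trans ?_
  exact Finset.sum_congr rfl fun s _ =>
    Fintype.sum_unique (fun i : Unit => u (s, i) * x.1 (s, i) l)

theorem matO_inj {x y : cop X (O k a b) ⟶ v} (h : matO x = matO y) : x = y := by
  apply hom_ext
  funext s
  exact congrFun h s.1

/-- a morphism with given matrix -/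
def mkO (M : X → v.I → Wo k) (hM : ∀ s, M s ∈ v.filt a b) : cop X (O k a b) ⟶ v :=
  ⟨fun s => M s.1, copO_homs_iff.2 hM⟩

theorem matO_mkO (M : X → v.I → Wo k) (hM : ∀ s, M s ∈ v.filt a b) :
    matO (mkO (a := a) (b := b) M hM) = M := rfl

/-- dual coordinates of a morphism `O(a,b)^X → v` -/
noncomputable def cO (e : X → ℕ × ℕ) (x : cop X (O k a b) ⟶ v) : Vy (v.I → Wo k) :=
  dco k e (matO x)

theorem cO_mem (h : IxOf X e m) (x : cop X (O k a b) ⟶ v) :
    cO e x ∈ VVf (v.filt a b) m :=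
  dco_mem h (matO_mem x)

theorem act_cO [CharZero k] (h : IxOf X e m) (x : cop X (O k a b) ⟶ v) (u : X × Unit → Wo k) :
    act (E := cop X (O k a b)) x.1 u = prI (emb k e (fun s => u (s, ()))) (cO e x) := by
  rw [cO, prI_dco h]
  funext l
  exact act_matO x u l

theorem cO_inj [CharZero k] (h : IxOf X e m) {x y : cop X (O k a b) ⟶ v}
    (hxy : cO e x = cO e y) : x = y := matO_inj (dco_inj h hxy)

theorem exists_cO [CharZero k] (h : IxOf X e m) {z : Vy (v.I → Wo k)}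
    (hz : z ∈ VVf (v.filt a b) m) : ∃ x : cop X (O k a b) ⟶ v, cO e x = z :=
  ⟨mkO (fun s => (pf (e s) : k) • z (e s))
    (fun s => Submodule.smul_mem _ _ ((mem_VVf_iff.1 hz) (e s).1 (e s).2).1), dco_of_mem h hz⟩

end O

/-! ### `P_1` -/

section FK
variable {X Y : Type} [Fintype X] [DecidableEq X] [Fintype Y] [DecidableEq Y]
  {e : X → ℕ × ℕ} {e' : Y → ℕ × ℕ} {m m' : ℤ} {v : FOb k}

/-- `F^X + K^Y` -/
noncomputable abbrev FKs (X Y : Type) [Fintype X] [DecidableEq X] [Fintype Y] [DecidableEq Y]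
    (k : Type) [Field k] : FOb k := bsum (cop X (FF k 0 0)) (cop Y (KK k 0 0))

/-- the matrix of a morphism out of `F^X + K^Y`, first part -/
def mat1 (x : FKs X Y k ⟶ v) (s : X) (a : Fin 2) : v.I → Wo k := x.1 (Sum.inl (s, a))

/-- the matrix of a morphism out of `F^X + K^Y`, second part -/
def mat2 (x : FKs X Y k ⟶ v) (s : Y) (a : Fin 2) : v.I → Wo k := x.1 (Sum.inr (s, a))

/-- the conditions on the matrix -/
theorem FK_iff {M : (X × Fin 2) ⊕ (Y × Fin 2) → v.I → Wo k} : M ∈ Homs (FKs X Y k) v ↔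
    (∀ s, M (Sum.inl (s, 0)) ∈ v.filt 0 1 ∧ M (Sum.inl (s, 1)) ∈ v.filt 0 1 ∧
      (fun l => xo k 0 * M (Sum.inl (s, 0)) l + xo k 1 * M (Sum.inl (s, 1)) l) ∈
        v.filt (-1) 2) ∧
    (∀ s, M (Sum.inr (s, 0)) ∈ v.filt 0 1 ∧ M (Sum.inr (s, 1)) ∈ v.filt 0 1 ∧
      (fun l => po k 0 * M (Sum.inr (s, 0)) l + po k 1 * M (Sum.inr (s, 1)) l) ∈
        v.filt 1 1) := by
  have h1 := bsum_homs_iff (E := cop X (FF k 0 0)) (F := cop Y (KK k 0 0)) (v := v) (M := M)
  have h2 := copFF_homs_iff (X := X) (a := 0) (b := 0) (v := v)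
    (M := fun p => M (Sum.inl p))
  have h3 := copKK_homs_iff (X := Y) (a := 0) (b := 0) (v := v)
    (M := fun p => M (Sum.inr p))
  exact h1.trans (and_congr h2 h3)

theorem mat1_mem (x : FKs X Y k ⟶ v) (s : X) (a : Fin 2) : mat1 x s a ∈ v.filt 0 1 := by
  have h1 := (FK_iff.1 x.2).1 s
  fin_cases a
  · exact h1.1
  · exact h1.2.1

theorem mat2_mem (x : FKs X Y k ⟶ v) (s : Y) (a : Fin 2) : mat2 x s a ∈ v.filt 0 1 := by
  have h1 := (FK_iff.1 x.2).2 s
  fin_cases a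
  · exact h1.1
  · exact h1.2.1

theorem mat1_mem' (x : FKs X Y k ⟶ v) (s : X) :
    (fun l => xo k 0 * mat1 x s 0 l + xo k 1 * mat1 x s 1 l) ∈ v.filt (-1) 2 :=
  ((FK_iff.1 x.2).1 s).2.2

theorem mat2_mem' (x : FKs X Y k ⟶ v) (s : Y) :
    (fun l => po k 0 * mat2 x s 0 l + po k 1 * mat2 x s 1 l) ∈ v.filt 1 1 :=
  ((FK_iff.1 x.2).2 s).2.2

theorem act_mat (x : FKs X Y k ⟶ v) (u : (X × Fin 2) ⊕ (Y × Fin 2) → Wo k) (l : v.I) :
    act (E := FKs X Y k) x.1 u l =
      (∑ s, u (Sum.inl (s, 0)) * mat1 x s 0 l + ∑ s, u (Sum.inl (s, 1)) * mat1 x s 1 l) +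
      (∑ s, u (Sum.inr (s, 0)) * mat2 x s 0 l + ∑ s, u (Sum.inr (s, 1)) * mat2 x s 1 l) := by
  refine (Fintype.sum_sum_type _).trans (congrArg₂ (· + ·) ?_ ?_)
  · refine (Fintype.sum_prod_type _).trans ?_
    rw [← Finset.sum_add_distrib]
    exact Finset.sum_congr rfl fun s _ =>
      Fin.sum_univ_two (fun i : Fin 2 => u (Sum.inl (s, i)) * mat1 x s i l)
  · refine (Fintype.sum_prod_type _).trans ?_
    rw [← Finset.sum_add_distrib]
    exact Finset.sum_congr rfl fun s _ =>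
      Fin.sum_univ_two (fun i : Fin 2 => u (Sum.inr (s, i)) * mat2 x s i l)

theorem mat_inj {x y : FKs X Y k ⟶ v} (h1 : mat1 x = mat1 y) (h2 : mat2 x = mat2 y) : x = y := by
  apply hom_ext
  funext s
  rcases s with ⟨s, a⟩ | ⟨s, a⟩
  · exact congrFun (congrFun h1 s) a
  · exact congrFun (congrFun h2 s) a

/-- a morphism with given matrix -/
theorem exists_mat (M : X → Fin 2 → v.I → Wo k) (N : Y → Fin 2 → v.I → Wo k)
    (hM : ∀ s a, M s a ∈ v.filt 0 1) (hN : ∀ s a, N s a ∈ v.filt 0 1)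
    (hM' : ∀ s, (fun l => xo k 0 * M s 0 l + xo k 1 * M s 1 l) ∈ v.filt (-1) 2)
    (hN' : ∀ s, (fun l => po k 0 * N s 0 l + po k 1 * N s 1 l) ∈ v.filt 1 1) :
    ∃ x : FKs X Y k ⟶ v, mat1 x = M ∧ mat2 x = N :=
  ⟨⟨Sum.elim (fun p => M p.1 p.2) (fun p => N p.1 p.2),
    FK_iff.2 ⟨fun s => ⟨hM s 0, hM s 1, hM' s⟩, fun s => ⟨hN s 0, hN s 1, hN' s⟩⟩⟩, rfl, rfl⟩

/-- first dual coordinates of a morphism out of `F^X + K^Y` -/
noncomputable def cG (e : X → ℕ × ℕ) (x : FKs X Y k ⟶ v) (a : Fin 2) : Vy (v.I → Wo k) :=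
  dco k e (fun s => mat1 x s a)

/-- second dual coordinates of a morphism out of `F^X + K^Y` -/
noncomputable def cH (e' : Y → ℕ × ℕ) (x : FKs X Y k ⟶ v) (a : Fin 2) : Vy (v.I → Wo k) :=
  -dco k e' (fun s => mat2 x s a)

variable [CharZero k]

theorem ka1_dco {I : Type} (M : X → Fin 2 → I → Wo k) :
    ((dual k).pi I).ka1 (fun a => dco k e (fun s => M s a)) =
      dco k e (fun s l => xo k 0 * M s 0 l + xo k 1 * M s 1 l) := by
  rw [RS.ka1, lf_dco, lf_dco, dco_add]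
  rfl

theorem ka2_dco {I : Type} (M : X → Fin 2 → I → Wo k) :
    ((dual k).pi I).ka2 (fun a => dco k e (fun s => M s a)) =
      dco k e (fun s l => po k 0 * M s 0 l + po k 1 * M s 1 l) := by
  rw [RS.ka2, lf_dco, lf_dco, dco_add]
  rfl

theorem ka2_neg {I : Type} (h : Fin 2 → Vy (I → Wo k)) :
    ((dual k).pi I).ka2 (fun a => -h a) = -((dual k).pi I).ka2 h := by
  rw [RS.ka2, RS.ka2, map_neg, map_neg, neg_add]

theorem cG_mem (h : IxOf X e m) (x : FKs X Y k ⟶ v) (a : Fin 2) :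
    cG e x a ∈ VVf (v.filt 0 1) m := dco_mem h fun s => mat1_mem x s a

theorem cH_mem (h : IxOf Y e' m') (x : FKs X Y k ⟶ v) (a : Fin 2) :
    cH e' x a ∈ VVf (v.filt 0 1) m' :=
  Submodule.neg_mem _ (dco_mem h fun s => mat2_mem x s a)

theorem ka1_mem (h : IxOf X e m) (x : FKs X Y k ⟶ v) :
    ((dual k).pi v.I).ka1 (cG e x) ∈ VVf (v.filt (-1) 2) m := by
  have h1 := ka1_dco (e := e) (mat1 x)
  show ((dual k).pi v.I).ka1 (fun a => dco k e (fun s => mat1 x s a)) ∈ _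
  rw [h1]
  exact dco_mem h fun s => mat1_mem' x s

theorem ka2_mem (h : IxOf Y e' m') (x : FKs X Y k ⟶ v) :
    ((dual k).pi v.I).ka2 (cH e' x) ∈ VVf (v.filt 1 1) m' := by
  have h1 := ka2_dco (e := e') (mat2 x)
  show ((dual k).pi v.I).ka2 (fun a => -dco k e' (fun s => mat2 x s a)) ∈ _
  rw [ka2_neg, h1]
  exact Submodule.neg_mem _ (dco_mem h fun s => mat2_mem' x s)

theorem act_cGH (h : IxOf X e m) (h' : IxOf Y e' m') (x : FKs X Y k ⟶ v)
    (u : (X × Fin 2) ⊕ (Y × Fin 2) → Wo k) :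
    act (E := FKs X Y k) x.1 u = prS (fun a => emb k e (fun s => u (Sum.inl (s, a))))
      (fun a => emb k e' (fun s => u (Sum.inr (s, a)))) (cG e x) (cH e' x) := by
  rw [prS, cG, cG, cH, cH, map_neg, map_neg, prI_dco h, prI_dco h, prI_dco h', prI_dco h']
  funext l
  refine (act_mat x u l).trans ?_
  simp only [Pi.add_apply, Pi.sub_apply, Pi.neg_apply]
  abel

theorem cGH_inj (h : IxOf X e m) (h' : IxOf Y e' m') {x y : FKs X Y k ⟶ v}
    (h1 : cG e x = cG e y) (h2 : cH e' x = cH e' y) : x = y := by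
  refine mat_inj ?_ ?_
  · funext s a
    exact congrFun (dco_inj h (congrFun h1 a)) s
  · funext s a
    exact congrFun (dco_inj h' (neg_injective (congrFun h2 a))) s

theorem exists_cGH (h : IxOf X e m) (h' : IxOf Y e' m') {G H : Fin 2 → Vy (v.I → Wo k)}
    (hG : ∀ a, G a ∈ VVf (v.filt 0 1) m) (hH : ∀ a, H a ∈ VVf (v.filt 0 1) m')
    (hG' : ((dual k).pi v.I).ka1 G ∈ VVf (v.filt (-1) 2) m)
    (hH' : ((dual k).pi v.I).ka2 H ∈ VVf (v.filt 1 1) m') :
    ∃ x : FKs X Y k ⟶ v, cG e x = G ∧ cH e' x = H := by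
  let M : X → Fin 2 → v.I → Wo k := fun s a => (pf (e s) : k) • G a (e s)
  let N : Y → Fin 2 → v.I → Wo k := fun s a => -((pf (e' s) : k) • H a (e' s))
  have e1 : (fun a => dco k e (fun s => M s a)) = G := funext fun a => dco_of_mem h (hG a)
  have e2 : (fun a => dco k e' (fun s => N s a)) = fun a => -H a := funext fun a => by
    have := dco_neg (e := e') (fun s => (pf (e' s) : k) • H a (e' s))
    rw [dco_of_mem h' (hH a)] at this
    exact this
  have h1 := ka1_dco (e := e) M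
  have h2 := ka2_dco (e := e') N
  rw [e1] at h1
  rw [e2, ka2_neg] at h2
  obtain ⟨x, hx, hy⟩ := exists_mat M N
    (fun s a => Submodule.smul_mem _ _ ((mem_VVf_iff.1 (hG a)) (e s).1 (e s).2).1)
    (fun s a => Submodule.neg_mem _
        (Submodule.smul_mem _ _ ((mem_VVf_iff.1 (hH a)) (e' s).1 (e' s).2).1))
    (fun s => by
      rw [h1] at hG'
      exact (dco_mem_iff h).1 hG' s)
    (fun s => by
      have h5 := Submodule.neg_mem _ hH'
      rw [h2] at h5
      exact (dco_mem_iff h').1 h5 s)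
  refine ⟨x, ?_, ?_⟩
  · show (fun a => dco k e (fun s => mat1 x s a)) = G
    rw [hx, e1]
  · have h6 : (fun a => dco k e' (fun s => mat2 x s a)) = fun a => -H a := by rw [hy, e2]
    funext a
    show -dco k e' (fun s => mat2 x s a) = H a
    rw [congrFun h6 a, neg_neg]

end FK

end FOb

end P195E
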