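import Vale.Agent.P195E.DualHomC

/-!
# P195: dual coordinates of morphisms out of `P_2`; the nondegeneracy of the pairings
-/

namespace P195E

open CategoryTheory P195A

variable {k : Type} [Field k]

namespace FOb

section P2
variable {X Y : Type} [Fintype X] [DecidableEq X] [Fintype Y] [DecidableEq Y]
  {e : X → ℕ × ℕ} {e' : Y → ℕ × ℕ} {m m' : ℤ} {v : FOb k}

/-- `(O_1^2)^X + (O_1^2)^Y` -/
noncomputable abbrev OOs (X Y : Type) [Fintype X] [DecidableEq X] [Fintype Y] [DecidableEq Y]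
    (k : Type) [Field k] : FOb k := bsum (cop (X × Fin 2) (O k 0 1)) (cop (Y × Fin 2) (O k 0 1))

/-- the matrix of a morphism out of `P_2`, first part -/
def mbt1 (x : OOs X Y k ⟶ v) (s : X) (a : Fin 2) : v.I → Wo k := x.1 (Sum.inl ((s, a), ()))

/-- the matrix of a morphism out of `P_2`, second part -/
def mbt2 (x : OOs X Y k ⟶ v) (s : Y) (a : Fin 2) : v.I → Wo k := x.1 (Sum.inr ((s, a), ()))

/-- the conditions on the matrix -/
theorem OO_iff {M : ((X × Fin 2) × Unit) ⊕ ((Y × Fin 2) × Unit) → v.I → Wo k} :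
    M ∈ Homs (OOs X Y k) v ↔
    (∀ s, M (Sum.inl (s, ())) ∈ v.filt 0 1) ∧ (∀ s, M (Sum.inr (s, ())) ∈ v.filt 0 1) := by
  have h1 := bsum_homs_iff (E := cop (X × Fin 2) (O k 0 1)) (F := cop (Y × Fin 2) (O k 0 1))
    (v := v) (M := M)
  have h2 := copO_homs_iff (X := X × Fin 2) (a := 0) (b := 1) (v := v)
    (M := fun p => M (Sum.inl p))
  have h3 := copO_homs_iff (X := Y × Fin 2) (a := 0) (b := 1) (v := v)
    (M := fun p => M (Sum.inr p))
  exact h1.trans (and_congr h2 h3)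

theorem mbt1_mem (x : OOs X Y k ⟶ v) (s : X) (a : Fin 2) : mbt1 x s a ∈ v.filt 0 1 :=
  (OO_iff.1 x.2).1 (s, a)

theorem mbt2_mem (x : OOs X Y k ⟶ v) (s : Y) (a : Fin 2) : mbt2 x s a ∈ v.filt 0 1 :=
  (OO_iff.1 x.2).2 (s, a)

theorem act_mbt (x : OOs X Y k ⟶ v)
    (u : ((X × Fin 2) × Unit) ⊕ ((Y × Fin 2) × Unit) → Wo k) (l : v.I) :
    act (E := OOs X Y k) x.1 u l =
      (∑ s, u (Sum.inl ((s, 0), ())) * mbt1 x s 0 l +
        ∑ s, u (Sum.inl ((s, 1), ())) * mbt1 x s 1 l) +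
      (∑ s, u (Sum.inr ((s, 0), ())) * mbt2 x s 0 l +
        ∑ s, u (Sum.inr ((s, 1), ())) * mbt2 x s 1 l) := by
  refine (Fintype.sum_sum_type _).trans (congrArg₂ (· + ·) ?_ ?_)
  · refine (Fintype.sum_prod_type _).trans ?_
    refine (Fintype.sum_prod_type _).trans ?_
    rw [← Finset.sum_add_distrib]
    refine Finset.sum_congr rfl fun s _ => ?_
    refine (Fin.sum_univ_two _).trans ?_
    exact congrArg₂ (· + ·)
      (Fintype.sum_unique (fun i : Unit => u (Sum.inl ((s, 0), i)) * mbt1 x s 0 l))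
      (Fintype.sum_unique (fun i : Unit => u (Sum.inl ((s, 1), i)) * mbt1 x s 1 l))
  · refine (Fintype.sum_prod_type _).trans ?_
    refine (Fintype.sum_prod_type _).trans ?_
    rw [← Finset.sum_add_distrib]
    refine Finset.sum_congr rfl fun s _ => ?_
    refine (Fin.sum_univ_two _).trans ?_
    exact congrArg₂ (· + ·)
      (Fintype.sum_unique (fun i : Unit => u (Sum.inr ((s, 0), i)) * mbt2 x s 0 l))
      (Fintype.sum_unique (fun i : Unit => u (Sum.inr ((s, 1), i)) * mbt2 x s 1 l))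

theorem mbt_inj {x y : OOs X Y k ⟶ v} (h1 : mbt1 x = mbt1 y) (h2 : mbt2 x = mbt2 y) : x = y := by
  apply hom_ext
  funext s
  rcases s with ⟨⟨s, a⟩, u⟩ | ⟨⟨s, a⟩, u⟩
  · exact congrFun (congrFun h1 s) a
  · exact congrFun (congrFun h2 s) a

/-- a morphism with given matrix -/
theorem exists_mbt (M : X → Fin 2 → v.I → Wo k) (N : Y → Fin 2 → v.I → Wo k)
    (hM : ∀ s a, M s a ∈ v.filt 0 1) (hN : ∀ s a, N s a ∈ v.filt 0 1) :
    ∃ x : OOs X Y k ⟶ v, mbt1 x = M ∧ mbt2 x = N :=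
  ⟨⟨Sum.elim (fun p => M p.1.1 p.1.2) (fun p => N p.1.1 p.1.2),
    OO_iff.2 ⟨fun s => hM s.1 s.2, fun s => hN s.1 s.2⟩⟩, rfl, rfl⟩

/-- first dual coordinates of a morphism out of `P_2` -/
noncomputable def cG2 (e : X → ℕ × ℕ) (x : OOs X Y k ⟶ v) (a : Fin 2) : Vy (v.I → Wo k) :=
  dco k e (fun s => mbt1 x s a)

/-- second dual coordinates of a morphism out of `P_2` -/
noncomputable def cH2 (e' : Y → ℕ × ℕ) (x : OOs X Y k ⟶ v) (a : Fin 2) : Vy (v.I → Wo k) :=
  -dco k e' (fun s => mbt2 x s a)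

theorem cG2_mem (h : IxOf X e m) (x : OOs X Y k ⟶ v) (a : Fin 2) :
    cG2 e x a ∈ VVf (v.filt 0 1) m := dco_mem h fun s => mbt1_mem x s a

theorem cH2_mem (h : IxOf Y e' m') (x : OOs X Y k ⟶ v) (a : Fin 2) :
    cH2 e' x a ∈ VVf (v.filt 0 1) m' :=
  Submodule.neg_mem _ (dco_mem h fun s => mbt2_mem x s a)

variable [CharZero k]

theorem act_cGH2 (h : IxOf X e m) (h' : IxOf Y e' m') (x : OOs X Y k ⟶ v)
    (u : ((X × Fin 2) × Unit) ⊕ ((Y × Fin 2) × Unit) → Wo k) :
    act (E := OOs X Y k) x.1 u =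
      prS (fun a => emb k e (fun s => u (Sum.inl ((s, a), ()))))
        (fun a => emb k e' (fun s => u (Sum.inr ((s, a), ())))) (cG2 e x) (cH2 e' x) := by
  rw [prS, cG2, cG2, cH2, cH2, map_neg, map_neg, prI_dco h, prI_dco h, prI_dco h', prI_dco h']
  funext l
  refine (act_mbt x u l).trans ?_
  simp only [Pi.add_apply, Pi.sub_apply, Pi.neg_apply]
  abel

theorem cGH2_inj (h : IxOf X e m) (h' : IxOf Y e' m') {x y : OOs X Y k ⟶ v}
    (h1 : cG2 e x = cG2 e y) (h2 : cH2 e' x = cH2 e' y) : x = y := by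
  refine mbt_inj ?_ ?_
  · funext s a
    exact congrFun (dco_inj h (congrFun h1 a)) s
  · funext s a
    exact congrFun (dco_inj h' (neg_injective (congrFun h2 a))) s

theorem exists_cGH2 (h : IxOf X e m) (h' : IxOf Y e' m') {G H : Fin 2 → Vy (v.I → Wo k)}
    (hG : ∀ a, G a ∈ VVf (v.filt 0 1) m) (hH : ∀ a, H a ∈ VVf (v.filt 0 1) m') :
    ∃ x : OOs X Y k ⟶ v, cG2 e x = G ∧ cH2 e' x = H := by
  let M : X → Fin 2 → v.I → Wo k := fun s a => (pf (e s) : k) • G a (e s)
  let N : Y → Fin 2 → v.I → Wo k := fun s a => -((pf (e' s) : k) • H a (e' s))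
  have e1 : (fun a => dco k e (fun s => M s a)) = G := funext fun a => dco_of_mem h (hG a)
  have e2 : (fun a => dco k e' (fun s => N s a)) = fun a => -H a := funext fun a => by
    have := dco_neg (e := e') (fun s => (pf (e' s) : k) • H a (e' s))
    rw [dco_of_mem h' (hH a)] at this
    exact this
  obtain ⟨x, hx, hy⟩ := exists_mbt M N
    (fun s a => Submodule.smul_mem _ _ ((mem_VVf_iff.1 (hG a)) (e s).1 (e s).2).1)
    (fun s a => Submodule.neg_mem _
        (Submodule.smul_mem _ _ ((mem_VVf_iff.1 (hH a)) (e' s).1 (e' s).2).1))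
  refine ⟨x, ?_, ?_⟩
  · show (fun a => dco k e (fun s => mbt1 x s a)) = G
    rw [hx, e1]
  · have h6 : (fun a => dco k e' (fun s => mbt2 x s a)) = fun a => -H a := by rw [hy, e2]
    funext a
    show -dco k e' (fun s => mbt2 x s a) = H a
    rw [congrFun h6 a, neg_neg]

/-- nondegeneracy of the signed pairing -/
theorem prS_nondeg {I : Type} (h : IxOf X e m) (h' : IxOf Y e' m')
    {G H G' H' : Fin 2 → Vy (I → Wo k)}
    (hG : ∀ a, G a ∈ VVf (⊤ : Submodule k (I → Wo k)) m)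
    (hH : ∀ a, H a ∈ VVf (⊤ : Submodule k (I → Wo k)) m')
    (hG' : ∀ a, G' a ∈ VVf (⊤ : Submodule k (I → Wo k)) m)
    (hH' : ∀ a, H' a ∈ VVf (⊤ : Submodule k (I → Wo k)) m')
    (hu : ∀ (q : Fin 2 → X → Wo k) (t : Fin 2 → Y → Wo k),
      prS (fun a => emb k e (q a)) (fun a => emb k e' (t a)) G H =
        prS (fun a => emb k e (q a)) (fun a => emb k e' (t a)) G' H') : G = G' ∧ H = H' := by
  constructor
  · funext a
    refine eq_of_prI h (hG a) (hG' a) fun u => ?_
    have h1 := hu (Pi.single a u) 0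
    fin_cases a
    · simpa [prS] using h1
    · simpa [prS] using h1
  · funext a
    refine eq_of_prI h' (hH a) (hH' a) fun u => ?_
    have h1 := hu 0 (Pi.single a u)
    fin_cases a
    · simpa [prS] using h1
    · simpa [prS] using h1

end P2

/-- the filtration of any object is a family closed under the dual operators -/
theorem fam_filt [CharZero k] (v : FOb k) : RS.Fam ((dual k).pi v.I) v.filt where
  hX w d a u hu := by
    have h := v.closed (-1) 1 w d (po k a) u (po_mem_Dg a) hu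
    rw [show w - -1 = w + 1 by ring] at h
    exact h
  hD w d a u hu := by
    have h := v.closed 1 0 w d (xo k a) u (xo_mem_Dg a) hu
    rw [sub_zero] at h
    exact h
  hm w d := fun u hu => by
    have h := v.closed 0 1 w (d + 1) 1 u (Dg_mono (by norm_num) one_mem_Dg) hu
    rw [sub_zero, show d + 1 - 1 = d by ring] at h
    simpa using h

end FOb

end P195E
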