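import Vale.Agent.P195E.Tools
import Vale.Agent.P195A.PPx
import Vale.Agent.P195A.Inst

/-!
# P195: the filtrations of `F`, `K` on polynomials in `y_0, y_1`, and the augmentation
-/

namespace P195E

open CategoryTheory P195A

variable {k : Type} [Field k]

/-- the exponents of degree `m` -/
def ind (m : ℤ) : Finset (ℕ × ℕ) :=
  (Finset.HasAntidiagonal.antidiagonal m.toNat).filter fun p => (p.1 : ℤ) + p.2 = m

theorem mem_ind {m : ℤ} {p : ℕ × ℕ} : p ∈ ind m ↔ (p.1 : ℤ) + p.2 = m := by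
  unfold ind
  rw [Finset.mem_filter, Finset.HasAntidiagonal.mem_antidiagonal]
  constructor
  · exact fun h => h.2
  · intro h
    exact ⟨by omega, h⟩

theorem sum_form {U : Type} [AddCommGroup U] {m : ℤ} {v : Vy U}
    (h : ∀ i j : ℕ, (i : ℤ) + j ≠ m → v (i, j) = 0) :
    v = ∑ p ∈ ind m, Finsupp.single p (v p) := by
  ext q
  rw [Finsupp.finsetSum_apply]
  by_cases hq : q ∈ ind m
  · rw [Finset.sum_eq_single q]
    · rw [Finsupp.single_eq_same]
    · intro p _ hp
      exact Finsupp.single_eq_of_ne (Ne.symm hp)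
    · intro h'
      exact absurd hq h'
  · have h1 : v q = 0 := by
      obtain ⟨i, j⟩ := q
      exact h i j fun h' => hq (mem_ind.2 h')
    rw [h1]
    refine (Finset.sum_eq_zero fun p hp => ?_).symm
    exact Finsupp.single_eq_of_ne fun h' => hq (h' ▸ hp)

variable [CharZero k]

omit [CharZero k] in
theorem sum_single_mem {U T : Type} [AddCommGroup U] [Module k U] [AddCommGroup T] [Module k T]
    {S : RS k U T} {m w d : ℤ} {C : ℕ × ℕ → U} (h : ∀ p ∈ ind m, C p ∈ S.W w d) :
    (∑ p ∈ ind m, Finsupp.single p (C p) : Vy U) ∈ S.VV m w d :=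
  Submodule.sum_mem _ fun p hp => RS.single_mem (h p hp) (mem_ind.1 hp)

omit [CharZero k] in
theorem VV_cast {U T : Type} [AddCommGroup U] [Module k U] [AddCommGroup T] [Module k T]
    {S : RS k U T} {m w w' d d' : ℤ} {v : Vy U} (h : v ∈ S.VV m w d) (hw : w = w')
    (hd : d = d') : v ∈ S.VV m w' d' := by
  subst hw
  subst hd
  exact h

/-- splitting of polynomials with coefficients in `F(a,b)` -/
theorem F_split {m a b : ℤ} {g : Fin 2 → Vy (Wo k)}
    (hg : ∀ i j : ℕ, (fun c : Fin 2 => g c (i, j)) ∈ (FOb.FF k 0 0).filt a b)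
    (h0 : ∀ c (i j : ℕ), (i : ℤ) + j ≠ m → g c (i, j) = 0) :
    ∃ g' : Fin 2 → Vy (Wo k), ∃ u ∈ (primal k).VV m (-a - 1) (2 - b),
      (∀ c, g' c ∈ (primal k).VV m (-a) (1 - b)) ∧
      ∀ c, g c = g' c + lf ((primal k).X c) u := by
  have h1 := fun p : ℕ × ℕ => FOb.FF_mem_iff.1 (hg p.1 p.2)
  choose A B C hA hB hC h2 h3 using h1
  refine ⟨fun c => ∑ p ∈ ind m, Finsupp.single p (![A p, B p] c),
    ∑ p ∈ ind m, Finsupp.single p (C p), ?_, ?_, ?_⟩
  · refine sum_single_mem fun p _ => ?_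
    have := hC p
    rwa [show (0 : ℤ) - 1 - a = -a - 1 by ring, show (0 : ℤ) + 2 - b = 2 - b by ring] at this
  · intro c
    refine sum_single_mem fun p _ => ?_
    have hA' := hA p
    have hB' := hB p
    rw [show (0 : ℤ) - a = -a by ring, show (0 : ℤ) + 1 - b = 1 - b by ring] at hA' hB'
    fin_cases c
    · exact hA'
    · exact hB'
  · intro c
    rw [map_sum, ← Finset.sum_add_distrib]
    conv_lhs => rw [sum_form (h0 c)]
    refine Finset.sum_congr rfl fun p _ => ?_
    obtain ⟨i, j⟩ := p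
    rw [lf_single, ← Finsupp.single_add]
    congr 1
    fin_cases c
    · exact h2 (i, j)
    · exact h3 (i, j)

/-- splitting of polynomials with coefficients in `K(a,b)` -/
theorem K_split {m a b : ℤ} {g : Fin 2 → Vy (Wo k)}
    (hg : ∀ i j : ℕ, (fun c : Fin 2 => g c (i, j)) ∈ (FOb.KK k 0 0).filt a b)
    (h0 : ∀ c (i j : ℕ), (i : ℤ) + j ≠ m → g c (i, j) = 0) :
    ∃ g' : Fin 2 → Vy (Wo k), ∃ u ∈ (primal k).VV m (-a + 1) (1 - b),
      (∀ c, g' c ∈ (primal k).VV m (-a) (1 - b)) ∧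
      ∀ c, g c = g' c + lf ((primal k).D c) u := by
  have h1 := fun p : ℕ × ℕ => FOb.KK_mem_iff.1 (hg p.1 p.2)
  choose A B C hA hB hC h2 h3 using h1
  refine ⟨fun c => ∑ p ∈ ind m, Finsupp.single p (![A p, B p] c),
    ∑ p ∈ ind m, Finsupp.single p (C p), ?_, ?_, ?_⟩
  · refine sum_single_mem fun p _ => ?_
    have := hC p
    rwa [show (0 : ℤ) + 1 - a = -a + 1 by ring, show (0 : ℤ) + 1 - b = 1 - b by ring] at this
  · intro c
    refine sum_single_mem fun p _ => ?_
    have hA' := hA p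
    have hB' := hB p
    rw [show (0 : ℤ) - a = -a by ring, show (0 : ℤ) + 1 - b = 1 - b by ring] at hA' hB'
    fin_cases c
    · exact hA'
    · exact hB'
  · intro c
    rw [map_sum, ← Finset.sum_add_distrib]
    conv_lhs => rw [sum_form (h0 c)]
    refine Finset.sum_congr rfl fun p _ => ?_
    obtain ⟨i, j⟩ := p
    rw [lf_single, ← Finsupp.single_add]
    congr 1
    fin_cases c
    · exact h2 (i, j)
    · exact h3 (i, j)

/-- polynomials with coefficients in `F(a,b)` -/
theorem F_join {m a b : ℤ} {g : Fin 2 → Vy (Wo k)} {u : Vy (Wo k)}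
    (hu : u ∈ (primal k).VV m (-a - 1) (2 - b))
    (hg : ∀ c, g c ∈ (primal k).VV m (-a) (1 - b)) (i j : ℕ) :
    (fun c : Fin 2 => (g c + lf ((primal k).X c) u) (i, j)) ∈ (FOb.FF k 0 0).filt a b := by
  have hu' := ((RS.mem_VV_iff.1 hu) i j).1
  have hg' := fun c => ((RS.mem_VV_iff.1 (hg c)) i j).1
  refine FOb.FF_mem_iff.2 ⟨g 0 (i, j), g 1 (i, j), u (i, j), ?_, ?_, ?_, ?_, ?_⟩
  · have := hg' 0
    rwa [primal_W, show -a = 0 - a by ring, show 1 - b = 0 + 1 - b by ring] at this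
  · have := hg' 1
    rwa [primal_W, show -a = 0 - a by ring, show 1 - b = 0 + 1 - b by ring] at this
  · rwa [primal_W, show -a - 1 = 0 - 1 - a by ring, show 2 - b = 0 + 2 - b by ring] at hu'
  · show (g 0 + lf ((primal k).X 0) u) (i, j) = _
    rw [Finsupp.add_apply, RS.lf_apply, primal_X]
  · show (g 1 + lf ((primal k).X 1) u) (i, j) = _
    rw [Finsupp.add_apply, RS.lf_apply, primal_X]

/-- polynomials with coefficients in `K(a,b)` -/
theorem K_join {m a b : ℤ} {g : Fin 2 → Vy (Wo k)} {u : Vy (Wo k)}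
    (hu : u ∈ (primal k).VV m (-a + 1) (1 - b))
    (hg : ∀ c, g c ∈ (primal k).VV m (-a) (1 - b)) (i j : ℕ) :
    (fun c : Fin 2 => (g c + lf ((primal k).D c) u) (i, j)) ∈ (FOb.KK k 0 0).filt a b := by
  have hu' := ((RS.mem_VV_iff.1 hu) i j).1
  have hg' := fun c => ((RS.mem_VV_iff.1 (hg c)) i j).1
  refine FOb.KK_mem_iff.2 ⟨g 0 (i, j), g 1 (i, j), u (i, j), ?_, ?_, ?_, ?_, ?_⟩
  · have := hg' 0
    rwa [primal_W, show -a = 0 - a by ring, show 1 - b = 0 + 1 - b by ring] at this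
  · have := hg' 1
    rwa [primal_W, show -a = 0 - a by ring, show 1 - b = 0 + 1 - b by ring] at this
  · rwa [primal_W, show -a + 1 = 0 + 1 - a by ring, show 1 - b = 0 + 1 - b by ring] at hu'
  · show (g 0 + lf ((primal k).D 0) u) (i, j) = _
    rw [Finsupp.add_apply, RS.lf_apply, primal_D]
  · show (g 1 + lf ((primal k).D 1) u) (i, j) = _
    rw [Finsupp.add_apply, RS.lf_apply, primal_D]

/-- the augmentation `A ∘ ev` -/
noncomputable def aev (k : Type) [Field k] [CharZero k] : Vy (Wo k) →ₗ[k] Rx k :=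
  (primal k).A ∘ₗ (primal k).ev

theorem aev_apply (v : Vy (Wo k)) : aev k v = (primal k).A ((primal k).ev v) := rfl

theorem ev_mulLeft (S : Wo k) (v : Vy (Wo k)) :
    (primal k).ev (lf (LinearMap.mulLeft k S) v) = S * (primal k).ev v := by
  have h : (primal k).ev ∘ₗ lf (LinearMap.mulLeft k S) =
      LinearMap.mulLeft k S ∘ₗ (primal k).ev := by
    refine Finsupp.lhom_ext fun p u => ?_
    obtain ⟨i, j⟩ := p
    rw [LinearMap.comp_apply, LinearMap.comp_apply, lf_single, RS.ev_single, RS.ev_single,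
      LinearMap.mulLeft_apply, LinearMap.mulLeft_apply]
    have h1 : ∀ (a : Fin 2) (n : ℕ) (w : Wo k),
        (((primal k).X a) ^ n) (S * w) = S * (((primal k).X a) ^ n) w := by
      intro a n w
      induction n with
      | zero => rfl
      | succ n ih =>
        rw [pow_succ', Module.End.mul_apply, Module.End.mul_apply, ih, primal_X, primal_X,
          mul_assoc]
    rw [h1, h1]
  exact LinearMap.congr_fun h v

theorem aev_mulLeft (S : Wo k) (v : Vy (Wo k)) :
    aev k (lf (LinearMap.mulLeft k S) v) = S (aev k v) := by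
  rw [aev_apply, aev_apply, ev_mulLeft, primal_A, primal_A]
  rfl

end P195E
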