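import Mathlib
import Vale.Agent.P195D.ExtTools
import Vale.Agent.P195D.Chain

/-!
# P195: vanishing along two alternating families of short exact sequences
-/

namespace P195E

open CategoryTheory Abelian P195D

universe u

variable {A : Type u} [Ring A]

/-- Short exact sequences `0 → Q n → MP n → P n → 0` and `0 → P (n+1) → MQ n → Q n → 0`; if the
composites `MQ n → Q n → MP n` induce bijections on all `Ext^i(-, W)`, then
`Ext^i(P n, W) = 0` for all `i` and `n`. -/
theorem alt_vanish (W : Type u) [AddCommGroup W] [Module A W]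
    (P Q MP MQ : ℕ → Type u) [∀ n, AddCommGroup (P n)] [∀ n, Module A (P n)]
    [∀ n, AddCommGroup (Q n)] [∀ n, Module A (Q n)]
    [∀ n, AddCommGroup (MP n)] [∀ n, Module A (MP n)]
    [∀ n, AddCommGroup (MQ n)] [∀ n, Module A (MQ n)]
    (ι : ∀ n, Q n →ₗ[A] MP n) (π : ∀ n, MP n →ₗ[A] P n)
    (hι : ∀ n, Function.Injective (ι n)) (hπ : ∀ n, Function.Surjective (π n))
    (hex : ∀ n, Function.Exact (ι n) (π n))
    (ι' : ∀ n, P (n + 1) →ₗ[A] MQ n) (π' : ∀ n, MQ n →ₗ[A] Q n)
    (hι' : ∀ n, Function.Injective (ι' n)) (hπ' : ∀ n, Function.Surjective (π' n))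
    (hex' : ∀ n, Function.Exact (ι' n) (π' n))
    (hinj : ∀ n i, ∀ x : Ext (ModuleCat.of A (MP n)) (ModuleCat.of A W) i,
      pc W (ι n ∘ₗ π' n) i x = 0 → x = 0)
    (hsurj : ∀ n i, ∀ y : Ext (ModuleCat.of A (MQ n)) (ModuleCat.of A W) i,
      ∃ x, pc W (ι n ∘ₗ π' n) i x = y) (i : ℕ) :
    (∀ n, EV A (P n) W i) ∧
      ∀ n, ∀ y : Ext (ModuleCat.of A (Q n)) (ModuleCat.of A W) i, ∃ x, pc W (ι n) i x = y := by
  -- the main step: injectivity of `π'^*` in degree `i`
  have main : ∀ i, (∀ n, ∀ z : Ext (ModuleCat.of A (Q n)) (ModuleCat.of A W) i,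
      pc W (π' n) i z = 0 → z = 0) →
      (∀ n, ∀ y : Ext (ModuleCat.of A (Q n)) (ModuleCat.of A W) i, ∃ x, pc W (ι n) i x = y) ∧
      (∀ n, ∀ z : Ext (ModuleCat.of A (P n)) (ModuleCat.of A W) i, pc W (π n) i z = 0) := by
    intro i h
    constructor
    · intro n y
      obtain ⟨x, hx⟩ := hsurj n i (pc W (π' n) i y)
      refine ⟨x, ?_⟩
      rw [pc_comp] at hx
      have := h n (pc W (ι n) i x - y) (by rw [pc_sub, hx, sub_self])
      exact sub_eq_zero.1 this
    · intro n z
      apply hinj n i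
      rw [pc_comp, pc_comp_zero (hι n) (hπ n) (hex n), pc_zero]
  induction i with
  | zero =>
    have h := main 0 (fun n z hz => pc_inj_zero (hι' n) (hπ' n) (hex' n) z hz)
    refine ⟨fun n => ?_, h.1⟩
    rw [ev_iff]
    intro z
    exact pc_inj_zero (hι n) (hπ n) (hex n) z (h.2 n z)
  | succ i ih =>
    have h := main (i + 1) (fun n z hz => by
      refine pc_inj_of_surj (hι' n) (hπ' n) (hex' n) (fun x => ⟨0, ?_⟩) z hz
      rw [pc_zero]
      exact (ev_iff.1 (ih.1 (n + 1)) x).symm)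
    refine ⟨fun n => ?_, h.1⟩
    rw [ev_iff]
    intro z
    exact pc_inj_of_surj (hι n) (hπ n) (hex n) (ih.2 n) z (h.2 n z)

/-- start of the chain: `0 → V → M → S → 0` with `Ext(M, W) = 0` and `Ext(V, W) = 0` -/
theorem start_vanish (W : Type u) [AddCommGroup W] [Module A W]
    {V M S : Type u} [AddCommGroup V] [Module A V] [AddCommGroup M] [Module A M]
    [AddCommGroup S] [Module A S] (ι : V →ₗ[A] M) (π : M →ₗ[A] S)
    (hι : Function.Injective ι) (hπ : Function.Surjective π) (hex : Function.Exact ι π)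
    (hM : ∀ i, EV A M W i) (hV : ∀ i, EV A V W i) (i : ℕ) : EV A S W i := by
  cases i with
  | zero =>
    rw [ev_iff]
    intro z
    exact pc_inj_zero hι hπ hex z (ev_iff.1 (hM 0) _)
  | succ i => exact EV.right hι hπ hex (hV i) (hM (i + 1))

/-- vanishing against all `A e_j` gives vanishing against `A` -/
theorem ev_of_idem {S : Type u} [AddCommGroup S] [Module A S] {J : Type*} [Fintype J]
    (e : J → A) (hsum : ∑ j, e j = 1) (i : ℕ)
    (h : ∀ j, EV A S (LinearMap.range (LinearMap.toSpanSingleton A A (e j))) i) :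
    EV A S A i := by
  rw [ev_iff]
  intro x
  have key : ∀ j, x.comp (Ext.mk₀ (ModuleCat.ofHom (LinearMap.toSpanSingleton A A (e j))))
      (add_zero i) = 0 := by
    intro j
    have h1 : ModuleCat.ofHom (LinearMap.toSpanSingleton A A (e j))
        = ModuleCat.ofHom (LinearMap.toSpanSingleton A A (e j)).rangeRestrict
          ≫ ModuleCat.ofHom (LinearMap.range (LinearMap.toSpanSingleton A A (e j))).subtype := by
      apply ModuleCat.hom_ext
      ext
      simp
    rw [h1, ← Ext.mk₀_comp_mk₀, ← Ext.comp_assoc_of_second_deg_zero]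
    rw [ev_iff.1 (h j) (x.comp (Ext.mk₀ (ModuleCat.ofHom
      (LinearMap.toSpanSingleton A A (e j)).rangeRestrict)) (add_zero i)), Ext.zero_comp]
  have hs : ∑ j, ModuleCat.ofHom (LinearMap.toSpanSingleton A A (e j))
      = 𝟙 (ModuleCat.of A A) := by
    apply ModuleCat.hom_ext
    ext
    rw [ModuleCat.hom_sum]
    simp [LinearMap.sum_apply, hsum]
  have h2 : x.comp (Ext.mk₀ (𝟙 (ModuleCat.of A A))) (add_zero i) = x := Ext.comp_mk₀_id _
  rw [← h2, ← hs, Ext.mk₀_sum, Ext.comp_sum]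
  exact Finset.sum_eq_zero fun j _ => key j

end P195E
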