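import Vale.Agent.P195E.AugCat
import Vale.Agent.P195E.Tools

/-!
# P195: from exactness at line bundles to exactness for all sources `O(a,b)`, `F(a,b)`, `K(a,b)`
-/

namespace P195E

open CategoryTheory P195A

variable {k : Type} [Field k]

namespace FOb

/-- the twisted augmentation -/
def Aug.tph {F : FOb k} (h : Aug F) : Aug (Phi.obj F) where
  h := h.h
  lin := h.lin

theorem Aug.tph_h {F : FOb k} (h : Aug F) (u : F.I → Wo k) : h.tph.h u = h.h u := rfl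

/-- a complex `0 → P 3 → P 2 → P 1 → P 0` with augmentation, exact in all degrees `(a, b)` with
`a ≤ N` -/
structure LB (P : ℕ → FOb k) (d : ∀ i, P (i + 1) ⟶ P i) (h : Aug (P 0)) (N : ℤ) : Prop where
  dd : ∀ i, d (i + 1) ≫ d i = 0
  z : ∀ i, Limits.IsZero (P (i + 4))
  hd : ∀ u, h.h (act (F := P 0) (d 0).1 u) = 0
  e3 : ∀ a b, a ≤ N → InjAt (d 2) a b
  e2 : ∀ a b, a ≤ N → ExAt (d 2) (d 1) a b
  e1 : ∀ a b, a ≤ N → ExAt (d 1) (d 0) a b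
  e0 : ∀ a b, a ≤ N → ExAug (d 0) h a b

variable {P : ℕ → FOb k} {d : ∀ i, P (i + 1) ⟶ P i} {h : Aug (P 0)} {N : ℤ}

theorem isZero_Phi {E : FOb k} (hE : Limits.IsZero E) : Limits.IsZero (Phi.obj E) :=
  Phi.map_isZero hE

/-- the twisted complex -/
theorem LB.tw (H : LB P d h N) :
    LB (fun i => Phi.obj (P i)) (fun i => Phi.map (d i)) h.tph (N + 1) where
  dd i := by
    show Phi.map (d (i + 1)) ≫ Phi.map (d i) = 0
    rw [← Functor.map_comp, H.dd, Functor.map_zero]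
  z i := isZero_Phi (H.z i)
  hd u := H.hd u
  e3 a b ha := H.e3 (a - 1) (b - 1) (by omega)
  e2 a b ha := H.e2 (a - 1) (b - 1) (by omega)
  e1 a b ha := H.e1 (a - 1) (b - 1) (by omega)
  e0 a b ha := H.e0 (a - 1) (b - 1) (by omega)

theorem LB.mono (H : LB P d h N) {N' : ℤ} (hN : N' ≤ N) : LB P d h N' where
  dd := H.dd
  z := H.z
  hd := H.hd
  e3 a b ha := H.e3 a b (ha.trans hN)
  e2 a b ha := H.e2 a b (ha.trans hN)
  e1 a b ha := H.e1 a b (ha.trans hN)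
  e0 a b ha := H.e0 a b (ha.trans hN)

/-- sources `O(a,b)` -/
theorem LB.ex_O (H : LB P d h N) {a b : ℤ} (ha : a ≤ N) (i : ℕ) (x : O k a b ⟶ P (i + 1))
    (hx : x ≫ d i = 0) : ∃ y, y ≫ d (i + 1) = x := by
  match i, x, hx with
  | 0, x, hx => exact FOb.ex_O (H.e1 a b ha) x hx
  | 1, x, hx => exact FOb.ex_O (H.e2 a b ha) x hx
  | 2, x, hx =>
    refine ⟨0, ?_⟩
    rw [Limits.zero_comp]
    exact (inj_O (H.e3 a b ha) x hx).symm
  | i + 3, x, hx =>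
    refine ⟨0, ?_⟩
    rw [Limits.zero_comp]
    exact (H.z i).eq_of_tgt _ _

/-- sources `F(a,b)` -/
theorem LB.ex_FF (H : LB P d h N) {a b : ℤ} (ha : a ≤ N) (hs : SurjX (P 3) a b) (i : ℕ)
    (x : FF k a b ⟶ P (i + 1)) (hx : x ≫ d i = 0) : ∃ y, y ≫ d (i + 1) = x := by
  match i, x, hx with
  | 0, x, hx =>
    exact FOb.ex_FF (H.dd 1) (H.e1 a (b + 1) ha) (H.e1 (a - 1) (b + 2) (by omega))
      (H.e2 (a - 1) (b + 1) (by omega)) hs x hx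
  | 1, x, hx =>
    exact ex_FF_left (H.e2 a (b + 1) ha) (H.e2 (a - 1) (b + 2) (by omega))
      (H.e3 (a - 1) (b + 1) (by omega)) x hx
  | 2, x, hx =>
    refine ⟨0, ?_⟩
    rw [Limits.zero_comp]
    exact (inj_FF (H.e3 a (b + 1) ha) x hx).symm
  | i + 3, x, hx =>
    refine ⟨0, ?_⟩
    rw [Limits.zero_comp]
    exact (H.z i).eq_of_tgt _ _

/-- sources `K(a,b)` -/
theorem LB.ex_KK (H : LB P d h N) {a b : ℤ} (ha : a + 1 ≤ N) (hs : SurjP (P 3) a b) (i : ℕ)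
    (x : KK k a b ⟶ P (i + 1)) (hx : x ≫ d i = 0) : ∃ y, y ≫ d (i + 1) = x := by
  match i, x, hx with
  | 0, x, hx =>
    exact FOb.ex_KK (H.dd 1) (H.e1 a (b + 1) (by omega)) (H.e1 (a + 1) (b + 1) ha)
      (H.e2 (a + 1) b ha) hs x hx
  | 1, x, hx =>
    exact ex_KK_left (H.e2 a (b + 1) (by omega)) (H.e2 (a + 1) (b + 1) ha)
      (H.e3 (a + 1) b ha) x hx
  | 2, x, hx =>
    refine ⟨0, ?_⟩
    rw [Limits.zero_comp]
    exact (inj_KK (H.e3 a (b + 1) (by omega)) x hx).symm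
  | i + 3, x, hx =>
    refine ⟨0, ?_⟩
    rw [Limits.zero_comp]
    exact (H.z i).eq_of_tgt _ _

section cmp

variable {P' : ℕ → FOb k} {d' : ∀ i, P' (i + 1) ⟶ P' i} {h' : Aug (P' 0)} {N' : ℤ}
  {c : P 0 ⟶ P' 0} {lam : k}

/-- `H_0` injectivity, source `O(a,b)` -/
theorem LB.inj_O (H : LB P d h N) (H' : LB P' d' h' N') (hlam : lam ≠ 0)
    (hc : ∀ u, h'.h (act (F := P' 0) c.1 u) = lam • h.h u) {a b : ℤ} (ha : a ≤ N)
    (x : O k a b ⟶ P 0) (z : O k a b ⟶ P' 1) (hxz : x ≫ c = z ≫ d' 0) :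
    ∃ t, x = t ≫ d 0 := by
  obtain ⟨y, hy⟩ := inj0_O hlam hc H'.hd (H.e0 a b ha) x z hxz
  exact ⟨y, hy.symm⟩

/-- `H_0` injectivity, source `F(a,b)` -/
theorem LB.inj_FF (H : LB P d h N) (H' : LB P' d' h' N') (hlam : lam ≠ 0)
    (hc : ∀ u, h'.h (act (F := P' 0) c.1 u) = lam • h.h u) {a b : ℤ} (ha : a ≤ N)
    (hs : SurjX (P 2) a b)
    (x : FF k a b ⟶ P 0) (z : FF k a b ⟶ P' 1) (hxz : x ≫ c = z ≫ d' 0) :
    ∃ t, x = t ≫ d 0 := by
  obtain ⟨y, hy⟩ := inj0_FF hlam hc H'.hd (H.dd 0) (H.e0 a (b + 1) ha)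
    (H.e0 (a - 1) (b + 2) (by omega)) (H.e1 (a - 1) (b + 1) (by omega)) hs x z hxz
  exact ⟨y, hy.symm⟩

/-- `H_0` injectivity, source `K(a,b)` -/
theorem LB.inj_KK (H : LB P d h N) (H' : LB P' d' h' N') (hlam : lam ≠ 0)
    (hc : ∀ u, h'.h (act (F := P' 0) c.1 u) = lam • h.h u) {a b : ℤ} (ha : a + 1 ≤ N)
    (hs : SurjP (P 2) a b)
    (x : KK k a b ⟶ P 0) (z : KK k a b ⟶ P' 1) (hxz : x ≫ c = z ≫ d' 0) :
    ∃ t, x = t ≫ d 0 := by
  obtain ⟨y, hy⟩ := inj0_KK hlam hc H'.hd (H.dd 0) (H.e0 a (b + 1) (by omega))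
    (H.e0 (a + 1) (b + 1) ha) (H.e1 (a + 1) b ha) hs x z hxz
  exact ⟨y, hy.symm⟩

/-- `H_0` surjectivity, source `O(a,b)` -/
theorem LB.surj_O (H' : LB P' d' h' N') (hlam : lam ≠ 0)
    (hc : ∀ u, h'.h (act (F := P' 0) c.1 u) = lam • h.h u) {a b : ℤ} (ha' : a ≤ N')
    (him : ImLe h h' a b) (x : O k a b ⟶ P' 0) :
    ∃ (y : O k a b ⟶ P 0) (t : O k a b ⟶ P' 1), x = y ≫ c + t ≫ d' 0 :=
  surj0_O hlam hc him (H'.e0 a b ha') x

/-- `H_0` surjectivity, source `F(a,b)` -/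
theorem LB.surj_FF (H : LB P d h N) (H' : LB P' d' h' N') (hlam : lam ≠ 0)
    (hc : ∀ u, h'.h (act (F := P' 0) c.1 u) = lam • h.h u) {a b : ℤ} (ha : a ≤ N)
    (ha' : a ≤ N') (hA : ImLe h h' a (b + 1)) (hB : ImLe h h' (a - 1) (b + 2))
    (hs : SurjX (P 1) a b) (hs' : SurjX (P' 2) a b) (x : FF k a b ⟶ P' 0) :
    ∃ (y : FF k a b ⟶ P 0) (t : FF k a b ⟶ P' 1), x = y ≫ c + t ≫ d' 0 :=
  surj0_FF hlam hc H.hd hA hB (H.e0 (a - 1) (b + 1) (by omega)) hs (H'.dd 0)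
    (H'.e0 a (b + 1) ha') (H'.e0 (a - 1) (b + 2) (by omega)) (H'.e1 (a - 1) (b + 1) (by omega))
    hs' x

/-- `H_0` surjectivity, source `K(a,b)` -/
theorem LB.surj_KK (H : LB P d h N) (H' : LB P' d' h' N') (hlam : lam ≠ 0)
    (hc : ∀ u, h'.h (act (F := P' 0) c.1 u) = lam • h.h u) {a b : ℤ} (ha : a + 1 ≤ N)
    (ha' : a + 1 ≤ N') (hA : ImLe h h' a (b + 1)) (hB : ImLe h h' (a + 1) (b + 1))
    (hs : SurjP (P 1) a b) (hs' : SurjP (P' 2) a b) (x : KK k a b ⟶ P' 0) :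
    ∃ (y : KK k a b ⟶ P 0) (t : KK k a b ⟶ P' 1), x = y ≫ c + t ≫ d' 0 :=
  surj0_KK hlam hc H.hd hA hB (H.e0 (a + 1) b ha) hs (H'.dd 0)
    (H'.e0 a (b + 1) (by omega)) (H'.e0 (a + 1) (b + 1) ha') (H'.e1 (a + 1) b ha') hs' x

end cmp

/-! ### the generation facts for sums and copies -/

theorem surjX_bsum {E F : FOb k} {a b : ℤ} (hE : SurjX E a b) (hF : SurjX F a b) :
    SurjX (bsum E F) a b := by
  intro u hu
  obtain ⟨v, w, hw, hv, h1⟩ := hE _ hu.1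
  obtain ⟨v', w', hw', hv', h1'⟩ := hF _ hu.2
  refine ⟨fun i => Sum.elim (v i) (v' i), Sum.elim w w', ⟨hw, hw'⟩,
    fun i => ⟨hv i, hv' i⟩, ?_⟩
  funext l
  cases l with
  | inl l => exact congrFun h1 l
  | inr l => exact congrFun h1' l

theorem surjP_bsum {E F : FOb k} {a b : ℤ} (hE : SurjP E a b) (hF : SurjP F a b) :
    SurjP (bsum E F) a b := by
  intro u hu
  obtain ⟨v, w, hw, hv, h1⟩ := hE _ hu.1
  obtain ⟨v', w', hw', hv', h1'⟩ := hF _ hu.2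
  refine ⟨fun i => Sum.elim (v i) (v' i), Sum.elim w w', ⟨hw, hw'⟩,
    fun i => ⟨hv i, hv' i⟩, ?_⟩
  funext l
  cases l with
  | inl l => exact congrFun h1 l
  | inr l => exact congrFun h1' l

theorem surjX_cop {m : Type} [Fintype m] [DecidableEq m] {E : FOb k} {a b : ℤ}
    (hE : SurjX E a b) : SurjX (cop m E) a b := by
  intro u hu
  choose v w hw hv h1 using fun s => hE _ (hu s)
  refine ⟨fun i p => v p.1 i p.2, fun p => w p.1 p.2, fun s => hw s, fun i s => hv s i, ?_⟩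
  funext p
  exact congrFun (h1 p.1) p.2

theorem surjP_cop {m : Type} [Fintype m] [DecidableEq m] {E : FOb k} {a b : ℤ}
    (hE : SurjP E a b) : SurjP (cop m E) a b := by
  intro u hu
  choose v w hw hv h1 using fun s => hE _ (hu s)
  refine ⟨fun i p => v p.1 i p.2, fun p => w p.1 p.2, fun s => hw s, fun i s => hv s i, ?_⟩
  funext p
  exact congrFun (h1 p.1) p.2

end FOb

end P195E
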