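import Vale.Agent.P195E.QQHom

/-!
# P195: the complex `QQ` and its exactness properties (fields `q1`-`q4`, `q7`, `q7'`, `q8`)
-/

namespace P195E

open CategoryTheory P195A

variable {k : Type} [Field k]

namespace FOb

/-- the objects `O_0, O_1, O_2, F, K` -/
inductive IsX : FOb k → Prop
  | o (j : ℤ) (h0 : 0 ≤ j) (h2 : j ≤ 2) : IsX (O k 0 j)
  | f : IsX (FF k 0 0)
  | q : IsX (KK k 0 0)

/-- the objects `O_0, O_1, O_2, F, K, L` -/
inductive IsY : FOb k → Prop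
  | x (E : FOb k) (h : IsX E) : IsY E
  | l : IsY (LL k)

/-- the objects of `QQ` (homological degree) -/
noncomputable def QO (k : Type) [Field k] : ℕ → FOb k
  | 0 => LL k
  | 1 => KK k 0 0
  | 2 => FF k 0 0
  | 3 => LL k
  | _ + 4 => zer k

/-- the differentials of `QQ` -/
noncomputable def dQ (k : Type) [Field k] : ∀ i : ℕ, QO k (i + 1) ⟶ QO k i
  | 0 => qC k
  | 1 => qB k
  | 2 => qA k
  | _ + 3 => 0

theorem dQ_dQ : ∀ i : ℕ, dQ k (i + 1) ≫ dQ k i = 0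
  | 0 => qB_qC
  | 1 => qA_qB
  | 2 => Limits.zero_comp
  | _ + 3 => Limits.zero_comp

theorem QO_zero (i : ℕ) : Limits.IsZero (QO k (i + 4)) := zer_isZero

/-- operators of negative weight kill constants -/
theorem neg_one_zero {w d : ℤ} (hw : w < 0) {T : Wo k} (hT : T ∈ Dg k w d) :
    T (1 : Rx k) = 0 := by
  obtain ⟨S, _, S', _, rfl⟩ := Dg_neg hw hT
  show S ((po k 0) 1) + S' ((po k 1) 1) = 0
  rw [po_app, po_app]
  simp

variable [CharZero k]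

theorem QQ_inj {E : FOb k} (h : IsY E) (x : E ⟶ LL k) (hx : x ≫ qA k = 0) : x = 0 := by
  cases h with
  | x E h =>
    cases h with
    | o j h0 h2 => exact inj_O (QQ_inj3 _ _) x hx
    | f => exact inj_FF (QQ_inj3 _ _) x hx
    | q => exact inj_KK (QQ_inj3 _ _) x hx
  | l => exact inj_O (QQ_inj3 _ _) x hx

theorem QQ_exF {E : FOb k} (h : IsY E) (x : E ⟶ FF k 0 0) (hx : x ≫ qB k = 0) :
    ∃ y : E ⟶ LL k, y ≫ qA k = x := by
  cases h with
  | x E h =>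
    cases h with
    | o j h0 h2 => exact ex_O (QQ_ex2 _ _) x hx
    | f => exact ex_FF_left (QQ_ex2 _ _) (QQ_ex2 _ _) (QQ_inj3 _ _) x hx
    | q => exact ex_KK_left (QQ_ex2 _ _) (QQ_ex2 _ _) (QQ_inj3 _ _) x hx
  | l => exact ex_O (QQ_ex2 _ _) x hx

theorem QQ_exK {E : FOb k} (h : IsY E) (x : E ⟶ KK k 0 0) (hx : x ≫ qC k = 0) :
    ∃ y : E ⟶ FF k 0 0, y ≫ qB k = x := by
  cases h with
  | x E h =>
    cases h with
    | o j h0 h2 => exact ex_O (QQ_ex1 le_rfl _) x hx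
    | f =>
      exact ex_FF qA_qB (QQ_ex1 le_rfl _) (QQ_ex1 (by norm_num) _) (QQ_ex2 _ _)
        (LL_SurjX (by norm_num)) x hx
    | q => exact ⟨0, by rw [K_inj x hx, Limits.zero_comp]⟩
  | l => exact ex_O (QQ_ex1 (by norm_num) _) x hx

/-- field `q1` -/
theorem QQ_q1 {E : FOb k} (h : IsY E) : ∀ (i : ℕ) (x : E ⟶ QO k (i + 1)), x ≫ dQ k i = 0 →
    ∃ y : E ⟶ QO k (i + 2), y ≫ dQ k (i + 1) = x
  | 0, x, hx => QQ_exK h x hx
  | 1, x, hx => QQ_exF h x hx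
  | 2, x, hx => ⟨0, by
      rw [QQ_inj h x hx]
      exact Limits.zero_comp⟩
  | _ + 3, _, _ => ⟨0, zer_isZero.eq_of_tgt _ _⟩

/-- field `q2` -/
theorem QQ_q2 {E : FOb k} (h : IsX E) (x : E ⟶ QO k 0) : ∃ y : E ⟶ QO k 1, x = y ≫ dQ k 0 := by
  change E ⟶ LL k at x
  cases h with
  | o j h0 h2 =>
    obtain ⟨y, hy⟩ := ex_O_aug (QQ_ex0 _ _) x (neg_one_zero (w := -1 - 0) (by norm_num)
      (O_mem_iff.1 (O_hom_mem x)))
    exact ⟨y, hy.symm⟩
  | f =>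
    obtain ⟨y, hy⟩ := ex_FF_aug qB_qC (QQ_ex0 _ _) (QQ_ex0 _ _) (QQ_ex1 (by norm_num) _)
      (FF_SurjX (by norm_num)) x (by
        intro i
        obtain ⟨r0, r1⟩ := F_rows x
        fin_cases i
        · exact neg_one_zero (by norm_num) (row_L_mem r0)
        · exact neg_one_zero (by norm_num) (row_L_mem r1))
    exact ⟨y, hy.symm⟩
  | q =>
    obtain ⟨c, rfl⟩ := K_L x
    refine ⟨c • 𝟙 (KK k 0 0), ?_⟩
    show c • qC k = (c • 𝟙 (KK k 0 0)) ≫ qC k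
    rw [Linear.smul_comp, Category.id_comp]

omit [CharZero k] in
/-- field `q3` -/
theorem QQ_q3 (y : LL k ⟶ QO k 1) : y ≫ dQ k 0 = 0 := by
  rw [L_K y]
  exact Limits.zero_comp

/-- field `q7` -/
theorem QQ_q7 {E : FOb k} (h : IsY E) (x : QO k 0 ⟶ E) (hx : dQ k 0 ≫ x = 0) : x = 0 := by
  refine QQt0 ?_ x hx
  intro a b u l hu
  cases h with
  | x E h =>
    cases h with
    | o j h0 h2 => exact ⟨_, _, O_mem_iff.1 hu⟩
    | f => exact ⟨_, _, InF.mem (FF_mem.1 hu) l⟩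
    | q => exact ⟨_, _, InK.mem (KK_mem.1 hu) l⟩
  | l => exact ⟨_, _, O_mem_iff.1 hu⟩

theorem QQt1 {E : FOb k} (h : IsY E) (x : KK k 0 0 ⟶ E) (hx : qB k ≫ x = 0) :
    ∃ y : LL k ⟶ E, qC k ≫ y = x := by
  cases h with
  | x E h =>
    cases h with
    | o j h0 h2 =>
      obtain ⟨r0, r1⟩ := K_rows x
      obtain ⟨C, hC, e0, e1⟩ := K_div hx () (O_mem_iff.1 r0) (O_mem_iff.1 r1)
      refine ⟨ofO (E := O k 0 j) (fun _ => -C) ?_, ?_⟩
      · apply O_mem_iff.2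
        exact Submodule.neg_mem _ (Dg_cast hC (by norm_num) (by ring))
      · apply hom_ext
        refine mat_ext ?_ ?_
        · intro l
          rw [qC_comp0]
          refine Eq.trans ?_ e0.symm
          show -(po k 1 * -C) = po k 1 * C
          rw [wo_mul_neg, neg_neg]
        · intro l
          rw [qC_comp1]
          refine Eq.trans ?_ e1.symm
          show po k 0 * -C = -(po k 0 * C)
          rw [wo_mul_neg]
    | f => exact K_F x hx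
    | q => exact ⟨0, by rw [K_K x hx, Limits.comp_zero]⟩
  | l =>
    obtain ⟨c, rfl⟩ := K_L x
    exact ⟨c • 𝟙 (LL k), by rw [Linear.comp_smul, Category.comp_id]⟩

theorem QQt2 {E : FOb k} (h : IsY E) (x : FF k 0 0 ⟶ E) (hx : qA k ≫ x = 0) :
    ∃ y : KK k 0 0 ⟶ E, qB k ≫ y = x := by
  cases h with
  | x E h =>
    cases h with
    | o j h0 h2 =>
      obtain ⟨r0, r1⟩ := F_rows x
      obtain ⟨C, hC, e0, e1⟩ := F_div hx () (O_mem_iff.1 r0) (O_mem_iff.1 r1)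
      obtain ⟨S, hS, S', hS', hC'⟩ := Dg_negL (by norm_num) hC
      refine ⟨ofK (E := O k 0 j) (fun _ => S) (fun _ => S') ?_ ?_ ?_, ?_⟩
      · apply O_mem_iff.2
        exact Dg_mono (by norm_num) (Dg_cast hS (by norm_num) rfl)
      · apply O_mem_iff.2
        exact Dg_mono (by norm_num) (Dg_cast hS' (by norm_num) rfl)
      · apply O_mem_iff.2
        show po k 0 * S + po k 1 * S' ∈ _
        rw [← hC']
        exact Dg_cast hC (by norm_num) (by norm_num)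
      · apply hom_ext
        refine mat_ext ?_ ?_
        · intro l
          rw [qB_comp0]
          refine Eq.trans ?_ e0.symm
          show xo k 1 * (po k 0 * S + po k 1 * S') = xo k 1 * C
          rw [hC']
        · intro l
          rw [qB_comp1]
          refine Eq.trans ?_ e1.symm
          show -(xo k 0 * (po k 0 * S + po k 1 * S')) = -(xo k 0 * C)
          rw [hC']
    | f => exact ⟨0, by rw [F_F x hx, Limits.comp_zero]⟩
    | q => exact F_K x hx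
  | l => exact ⟨0, by rw [F_L x hx, Limits.comp_zero]⟩

/-- field `q7'` -/
theorem QQ_q7' {E : FOb k} (h : IsY E) : ∀ (i : ℕ) (x : QO k (i + 1) ⟶ E), i + 1 < 3 →
    dQ k (i + 1) ≫ x = 0 → ∃ y : QO k i ⟶ E, dQ k i ≫ y = x
  | 0, x, _, hx => QQt1 h x hx
  | 1, x, _, hx => QQt2 h x hx
  | _ + 2, _, hi, _ => absurd hi (by omega)

/-- field `q8` -/
theorem QQ_q8 {E : FOb k} (h : IsX E) (x : QO k 3 ⟶ E) : ∃ t : QO k 2 ⟶ E, x = dQ k 2 ≫ t := by
  change LL k ⟶ E at x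
  cases h with
  | o j h0 h2 =>
    have h1 := O_mem_iff.1 (O_hom_mem x)
    obtain ⟨S, hS, S', hS', hx⟩ := Dg_posL (by norm_num) h1
    refine ⟨ofF (E := O k 0 j) (fun _ => S) (fun _ => S') ?_ ?_ ?_, ?_⟩
    · apply O_mem_iff.2
      exact Dg_mono (by norm_num) (Dg_cast hS (by norm_num) rfl)
    · apply O_mem_iff.2
      exact Dg_mono (by norm_num) (Dg_cast hS' (by norm_num) rfl)
    · apply O_mem_iff.2
      show xo k 0 * S + xo k 1 * S' ∈ _
      rw [← hx]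
      exact Dg_cast h1 (by norm_num) (by norm_num)
    · apply O_hom_ext
      funext l
      refine Eq.trans ?_ (qA_comp _ l).symm
      exact hx
  | f =>
    obtain ⟨c, rfl⟩ := L_F x
    refine ⟨c • 𝟙 (FF k 0 0), ?_⟩
    show c • qA k = qA k ≫ (c • 𝟙 (FF k 0 0))
    rw [Linear.comp_smul, Category.comp_id]
  | q =>
    refine ⟨0, ?_⟩
    rw [L_K x]
    exact Limits.comp_zero.symm

/-! ### the twist -/

theorem ExAt_Phi {E F G : FOb k} {f : E ⟶ F} {g : F ⟶ G} {a b : ℤ} (h : ExAt f g (a - 1) (b - 1)) :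
    ExAt (Phi.map f) (Phi.map g) a b := h

theorem InjAt_Phi {E F : FOb k} {f : E ⟶ F} {a b : ℤ} (h : InjAt f (a - 1) (b - 1)) :
    InjAt (Phi.map f) a b := h

theorem SurjX_Phi {E : FOb k} {a b : ℤ} (h : SurjX E (a - 1) (b - 1)) :
    SurjX (Phi.obj E) a b := by
  intro u hu
  change u ∈ E.filt (a - 1 - 1) (b + 1 - 1) at hu
  rw [show b + 1 - 1 = b - 1 + 1 by ring] at hu
  obtain ⟨v, w, hw, hv, h1⟩ := h u hu
  refine ⟨v, w, ?_, fun i => ?_, h1⟩
  · show w ∈ E.filt (a - 1 - 1) (b + 2 - 1)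
    rw [show b + 2 - 1 = b - 1 + 2 by ring]
    exact hw
  · show v i ∈ E.filt (a - 1) (b + 1 - 1)
    rw [show b + 1 - 1 = b - 1 + 1 by ring]
    exact hv i

theorem SurjP_Phi {E : FOb k} {a b : ℤ} (h : SurjP E (a - 1) (b - 1)) :
    SurjP (Phi.obj E) a b := by
  intro u hu
  change u ∈ E.filt (a + 1 - 1) (b - 1) at hu
  rw [show a + 1 - 1 = a - 1 + 1 by ring] at hu
  obtain ⟨v, w, hw, hv, h1⟩ := h u hu
  refine ⟨v, w, ?_, fun i => ?_, h1⟩
  · show w ∈ E.filt (a + 1 - 1) (b + 1 - 1)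
    rw [show a + 1 - 1 = a - 1 + 1 by ring, show b + 1 - 1 = b - 1 + 1 by ring]
    exact hw
  · show v i ∈ E.filt (a - 1) (b + 1 - 1)
    rw [show b + 1 - 1 = b - 1 + 1 by ring]
    exact hv i

/-- an augmentation of a twist -/
noncomputable def Aug.twQ {E : FOb k} (h : Aug E) : Aug (Phi.obj E) where
  h := h.h
  lin := h.lin

theorem ExAug_Phi {E F : FOb k} {f : E ⟶ F} {h : Aug F} {a b : ℤ}
    (hh : ExAug f h (a - 1) (b - 1)) : ExAug (Phi.map f) h.twQ a b := hh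

theorem Phi_comp_zero {E F G : FOb k} {f : E ⟶ F} {g : F ⟶ G} (h : f ≫ g = 0) :
    Phi.map f ≫ Phi.map g = 0 := by
  rw [← Functor.map_comp, h, Functor.map_zero]

theorem QQ_injT {E : FOb k} (h : IsX E) (x : E ⟶ Phi.obj (LL k)) (hx : x ≫ Phi.map (qA k) = 0) :
    x = 0 := by
  cases h with
  | o j h0 h2 => exact inj_O (InjAt_Phi (QQ_inj3 _ _)) x hx
  | f => exact inj_FF (InjAt_Phi (QQ_inj3 _ _)) x hx
  | q => exact inj_KK (InjAt_Phi (QQ_inj3 _ _)) x hx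

theorem QQ_exFT {E : FOb k} (h : IsX E) (x : E ⟶ Phi.obj (FF k 0 0))
    (hx : x ≫ Phi.map (qB k) = 0) : ∃ y : E ⟶ Phi.obj (LL k), y ≫ Phi.map (qA k) = x := by
  cases h with
  | o j h0 h2 => exact ex_O (ExAt_Phi (QQ_ex2 _ _)) x hx
  | f =>
    exact ex_FF_left (ExAt_Phi (QQ_ex2 _ _)) (ExAt_Phi (QQ_ex2 _ _))
      (InjAt_Phi (QQ_inj3 _ _)) x hx
  | q =>
    exact ex_KK_left (ExAt_Phi (QQ_ex2 _ _)) (ExAt_Phi (QQ_ex2 _ _))
      (InjAt_Phi (QQ_inj3 _ _)) x hx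

theorem QQ_exKT {E : FOb k} (h : IsX E) (x : E ⟶ Phi.obj (KK k 0 0))
    (hx : x ≫ Phi.map (qC k) = 0) : ∃ y : E ⟶ Phi.obj (FF k 0 0), y ≫ Phi.map (qB k) = x := by
  cases h with
  | o j h0 h2 => exact ex_O (ExAt_Phi (QQ_ex1 (by norm_num) _)) x hx
  | f =>
    exact ex_FF (Phi_comp_zero qA_qB) (ExAt_Phi (QQ_ex1 (by norm_num) _))
      (ExAt_Phi (QQ_ex1 (by norm_num) _)) (ExAt_Phi (QQ_ex2 _ _))
      (SurjX_Phi (LL_SurjX (by norm_num))) x hx
  | q =>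
    exact ex_KK (Phi_comp_zero qA_qB) (ExAt_Phi (QQ_ex1 (by norm_num) _))
      (ExAt_Phi (QQ_ex1 (by norm_num) _)) (ExAt_Phi (QQ_ex2 _ _))
      (SurjP_Phi (LL_SurjP (by norm_num))) x hx

/-- field `q4` -/
theorem QQ_q4 {E : FOb k} (h : IsX E) : ∀ (i : ℕ) (x : E ⟶ Phi.obj (QO k (i + 1))),
    x ≫ Phi.map (dQ k i) = 0 →
    ∃ y : E ⟶ Phi.obj (QO k (i + 2)), y ≫ Phi.map (dQ k (i + 1)) = x
  | 0, x, hx => QQ_exKT h x hx
  | 1, x, hx => QQ_exFT h x hx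
  | 2, x, hx => ⟨0, by
      rw [QQ_injT h x hx]
      exact Limits.zero_comp⟩
  | _ + 3, x, _ => ⟨0, by
      apply hom_ext
      funext i l
      exact l.elim⟩

end FOb

end P195E
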