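import Vale.Agent.P195E.QQMor

/-!
# P195: identities between first order operators
-/

namespace P195E

open CategoryTheory P195A MvPolynomial


variable {k : Type} [Field k]

namespace FOb

theorem po_app (a : Fin 2) (f : Rx k) : po k a f = pderiv a f := rfl

theorem xo_app (a : Fin 2) (f : Rx k) : xo k a f = X a * f := rfl

theorem ev2 {P Q : Wo k} (H : P = Q) (f : Rx k) (s t : k) :
    eval ![s, t] (P f) = eval ![s, t] (Q f) := by rw [H]

theorem pd01 : pderiv (R := k) 0 (X 1 : Rx k) = 0 := pderiv_X_of_ne (by decide)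
theorem pd10 : pderiv (R := k) 1 (X 0 : Rx k) = 0 := pderiv_X_of_ne (by decide)

/-- `a_0 x_0 + a_1 x_1` -/
noncomputable def lix (g : Fin 2 → k) : Wo k := g 0 • xo k 0 + g 1 • xo k 1

/-- `a_0 ∂_0 + a_1 ∂_1` -/
noncomputable def lip (g : Fin 2 → k) : Wo k := g 0 • po k 0 + g 1 • po k 1

theorem lix_mem (g : Fin 2 → k) : lix g ∈ Dg k 1 0 :=
  Submodule.add_mem _ (Submodule.smul_mem _ _ (xo_mem_Dg 0)) (Submodule.smul_mem _ _ (xo_mem_Dg 1))

theorem lip_mem (g : Fin 2 → k) : lip g ∈ Dg k (-1) 1 :=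
  Submodule.add_mem _ (Submodule.smul_mem _ _ (po_mem_Dg 0)) (Submodule.smul_mem _ _ (po_mem_Dg 1))

theorem mem_lix [CharZero k] {T : Wo k} (h : T ∈ Dg k 1 0) : ∃ g : Fin 2 → k, T = lix g := by
  obtain ⟨S, hS, S', hS', rfl⟩ := Dg_x_gen (w := 0) (d := 0) le_rfl (T := T) h
  obtain ⟨c, rfl⟩ := mem_Dg_zero hS
  obtain ⟨c', rfl⟩ := mem_Dg_zero hS'
  refine ⟨![c, c'], ?_⟩
  show (c • (1 : Wo k)) * xo k 0 + (c' • (1 : Wo k)) * xo k 1 = c • xo k 0 + c' • xo k 1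
  rw [smul_mul_assoc, smul_mul_assoc, one_mul, one_mul]

theorem mem_lip {T : Wo k} (h : T ∈ Dg k (-1) 1) : ∃ g : Fin 2 → k, T = lip g := by
  obtain ⟨S, hS, S', hS', rfl⟩ := Dg_neg (w := -1) (d := 1) (by norm_num) (T := T) h
  obtain ⟨c, rfl⟩ := mem_Dg_zero (T := S) (Dg_cast hS (by norm_num) (by norm_num))
  obtain ⟨c', rfl⟩ := mem_Dg_zero (T := S') (Dg_cast hS' (by norm_num) (by norm_num))
  refine ⟨![c, c'], ?_⟩
  show (c • (1 : Wo k)) * po k 0 + (c' • (1 : Wo k)) * po k 1 = c • po k 0 + c' • po k 1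
  rw [smul_mul_assoc, smul_mul_assoc, one_mul, one_mul]

/-- `Hom(K, F)`: `∂_1 C_0 = a_0 + c x_0`, `C_0 = g_0 x_0 + g_1 x_1` -/
theorem first_KF0 {g a c : Fin 2 → k}
    (h0 : po k 1 * lix g = a 0 • 1 + lip c * xo k 0) : g 0 = c 1 ∧ g 1 = 0 := by
  unfold lix lip at h0
  have e1 := ev2 h0 1 0 0
  have e2 := ev2 h0 (X 0) 1 0
  have e3 := ev2 h0 (X 1) 1 0
  have e4 := ev2 h0 (X 1) 0 1
  simp [po_app, xo_app, pd01] at e1 e2 e3 e4
  exact ⟨e3, by linear_combination e4 - e1⟩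

theorem first_KF1 {g a c : Fin 2 → k}
    (h0 : po k 1 * lix g = a 1 • 1 + lip c * xo k 1) : g 0 = 0 ∧ g 1 = c 1 := by
  unfold lix lip at h0
  have e1 := ev2 h0 1 0 0
  have e3 := ev2 h0 (X 1) 1 0
  have e4 := ev2 h0 (X 1) 0 1
  simp [po_app, xo_app] at e1 e3 e4
  exact ⟨e3, by linear_combination e4 - e1⟩

/-- `Hom(F, F)` -/
theorem first_FF0 {g a c : Fin 2 → k}
    (h0 : xo k 1 * lip g = a 0 • 1 + lip c * xo k 0) : lip g = 0 := by
  have h1 := h0
  unfold lip at h1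
  have e1 := ev2 h1 1 0 0
  have e2 := ev2 h1 (X 0) 1 0
  have e3 := ev2 h1 (X 0) 0 1
  have e4 := ev2 h1 (X 1) 0 1
  simp [po_app, xo_app, pd01, pd10] at e1 e2 e3 e4
  have g0 : g 0 = 0 := by simpa using e3
  have g1 : g 1 = 0 := by linear_combination e4 - e1
  unfold lip
  rw [g0, g1]
  simp

theorem first_FF1 {g a c : Fin 2 → k}
    (h0 : xo k 0 * lip g = a 1 • 1 + lip c * xo k 1) : lip g = 0 := by
  have h1 := h0
  unfold lip at h1
  have e1 := ev2 h1 1 0 0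
  have e2 := ev2 h1 (X 1) 1 0
  have e3 := ev2 h1 (X 0) 1 0
  have e4 := ev2 h1 (X 1) 0 1
  simp [po_app, xo_app, pd01, pd10] at e1 e2 e3 e4
  have g0 : g 0 = 0 := by linear_combination e3 - e1
  have g1 : g 1 = 0 := by simpa using e2
  unfold lip
  rw [g0, g1]
  simp

/-- `Hom(F, K)` -/
theorem first_FK0 {g a c : Fin 2 → k}
    (h0 : xo k 1 * lip g = a 0 • 1 + lix c * po k 0) : lip g = c 1 • po k 0 := by
  have h1 := h0
  unfold lip lix at h1
  have e1 := ev2 h1 1 0 0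
  have e2 := ev2 h1 (X 0) 0 1
  have e3 := ev2 h1 (X 1) 0 1
  simp [po_app, xo_app, pd01, pd10] at e1 e2 e3
  have a0 : a 0 = 0 := by simpa using e1.symm
  have g0 : g 0 = c 1 := by simpa [a0] using e2
  have g1 : g 1 = 0 := by simpa [a0] using e3
  unfold lip
  rw [g0, g1]
  simp

theorem first_FK1 {g a c : Fin 2 → k}
    (h0 : xo k 1 * lip g = a 1 • 1 + lix c * po k 1) : lip g = c 1 • po k 1 := by
  have h1 := h0
  unfold lip lix at h1
  have e1 := ev2 h1 1 0 0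
  have e2 := ev2 h1 (X 0) 0 1
  have e3 := ev2 h1 (X 1) 0 1
  simp [po_app, xo_app, pd01, pd10] at e1 e2 e3
  have a0 : a 1 = 0 := by simpa using e1.symm
  have g0 : g 0 = 0 := by simpa [a0] using e2
  have g1 : g 1 = c 1 := by simpa [a0] using e3
  unfold lip
  rw [g0, g1]
  simp

/-- `Hom(K, K)` -/
theorem first_KK0 {g a c : Fin 2 → k}
    (h0 : po k 1 * lix g = a 0 • 1 + lix c * po k 0) : lix g = 0 := by
  have h1 := h0
  unfold lix at h1
  have e1 := ev2 h1 1 0 0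
  have e2 := ev2 h1 (X 1) 1 0
  have e3 := ev2 h1 (X 1) 0 1
  simp [po_app, xo_app, pd01, pd10] at e1 e2 e3
  have g0 : g 0 = 0 := by simpa using e2
  have g1 : g 1 = 0 := by linear_combination e3 - e1
  unfold lix
  rw [g0, g1]
  simp

theorem first_KK1 {g a c : Fin 2 → k}
    (h0 : po k 0 * lix g = a 1 • 1 + lix c * po k 1) : lix g = 0 := by
  have h1 := h0
  unfold lix at h1
  have e1 := ev2 h1 1 0 0
  have e2 := ev2 h1 (X 0) 0 1
  have e3 := ev2 h1 (X 0) 1 0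
  simp [po_app, xo_app, pd01, pd10] at e1 e2 e3
  have g1 : g 1 = 0 := by simpa using e2
  have g0 : g 0 = 0 := by linear_combination e3 - e1
  unfold lix
  rw [g0, g1]
  simp

/-- `Hom(K, K)`, kernel of the map to `Hom(K, L)` -/
theorem first_K {g h : Fin 2 → k} {e : k}
    (h0 : po k 0 * lix g + po k 1 * lix h = e • 1) : lix g = 0 ∧ lix h = 0 := by
  have h1 := h0
  unfold lix at h1
  have e1 := ev2 h1 1 0 0
  have e2 := ev2 h1 (X 0) 1 0
  have e3 := ev2 h1 (X 0) 0 1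
  have e4 := ev2 h1 (X 1) 1 0
  have e5 := ev2 h1 (X 1) 0 1
  simp [po_app, xo_app, pd01, pd10] at e1 e2 e3 e4 e5
  have g0 : g 0 = 0 := by linear_combination e2 - e1
  have g1 : g 1 = 0 := by simpa using e3
  have k0 : h 0 = 0 := by simpa using e4
  have k1 : h 1 = 0 := by linear_combination e5 - e1
  unfold lix
  rw [g0, g1, k0, k1]
  simp

end FOb

end P195E
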