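import Vale.Agent.P195E.QQFirst
import Vale.Agent.P195A.FactL

/-!
# P195: `Hom(QQ, -)` and the morphisms between `L`, `F`, `K`
-/

namespace P195E

open CategoryTheory P195A

variable {k : Type} [Field k]

namespace FOb

theorem wo_neg_smul (c : k) (T : Wo k) : (-c) • T = -(c • T) := neg_smul c T

theorem wo_smul_neg (c : k) (T : Wo k) : c • -T = -(c • T) := smul_neg c T

theorem neg_lix (g : Fin 2 → k) : -lix g = lix (-g) := by
  unfold lix
  rw [neg_add, ← wo_neg_smul, ← wo_neg_smul]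
  rfl

theorem neg_lip (g : Fin 2 → k) : -lip g = lip (-g) := by
  unfold lip
  rw [neg_add, ← wo_neg_smul, ← wo_neg_smul]
  rfl

/-! ### rows of composites -/

theorem qA_comp {E : FOb k} (x : FF k 0 0 ⟶ E) (l : E.I) :
    (qA k ≫ x).1 () l = xo k 0 * x.1 (0 : Fin 2) l + xo k 1 * x.1 (1 : Fin 2) l := by
  show ∑ i : Fin 2, xo k i * x.1 i l = _
  rw [Fin.sum_univ_two]

theorem qB_comp0 {E : FOb k} (x : KK k 0 0 ⟶ E) (l : E.I) :
    (qB k ≫ x).1 (0 : Fin 2) l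
      = xo k 1 * (po k 0 * x.1 (0 : Fin 2) l + po k 1 * x.1 (1 : Fin 2) l) := by
  show ∑ i : Fin 2, (xo k 1 * po k i) * x.1 i l = _
  rw [Fin.sum_univ_two, mul_add, mul_assoc, mul_assoc]

theorem qB_comp1 {E : FOb k} (x : KK k 0 0 ⟶ E) (l : E.I) :
    (qB k ≫ x).1 (1 : Fin 2) l
      = -(xo k 0 * (po k 0 * x.1 (0 : Fin 2) l + po k 1 * x.1 (1 : Fin 2) l)) := by
  show ∑ i : Fin 2, -(xo k 0 * po k i) * x.1 i l = _
  rw [Fin.sum_univ_two, wo_neg_mul, wo_neg_mul, mul_add, mul_assoc, mul_assoc, neg_add]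

theorem qC_comp0 {E : FOb k} (x : LL k ⟶ E) (l : E.I) :
    (qC k ≫ x).1 (0 : Fin 2) l = -(po k 1 * x.1 () l) := by
  show ∑ i : Unit, (-po k 1) * x.1 i l = _
  rw [Fintype.sum_unique, wo_neg_mul]

theorem qC_comp1 {E : FOb k} (x : LL k ⟶ E) (l : E.I) :
    (qC k ≫ x).1 (1 : Fin 2) l = po k 0 * x.1 () l := by
  show ∑ i : Unit, po k 0 * x.1 i l = _
  rw [Fintype.sum_unique]

/-! ### rows in `F` and `K` -/

theorem row_F {u : Fin 2 → Wo k} (h : u ∈ (FF k 0 0).filt 0 (0 + 1)) :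
    ∃ a c : Fin 2 → k, ∀ l : Fin 2, u l = a l • (1 : Wo k) + lip c * xo k l := by
  obtain ⟨A, B, C, hA, hB, hC, h0, h1⟩ := FF_mem_iff.1 h
  obtain ⟨a, rfl⟩ := mem_Dg_zero (T := A) (Dg_cast hA (by norm_num) (by norm_num))
  obtain ⟨b, rfl⟩ := mem_Dg_zero (T := B) (Dg_cast hB (by norm_num) (by norm_num))
  obtain ⟨c, rfl⟩ := mem_lip (T := C) (Dg_cast hC (by norm_num) (by norm_num))
  refine ⟨![a, b], c, fun l => ?_⟩
  fin_cases l
  · exact h0
  · exact h1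

theorem row_K [CharZero k] {u : Fin 2 → Wo k} (h : u ∈ (KK k 0 0).filt 0 (0 + 1)) :
    ∃ a c : Fin 2 → k, ∀ l : Fin 2, u l = a l • (1 : Wo k) + lix c * po k l := by
  obtain ⟨A, B, C, hA, hB, hC, h0, h1⟩ := KK_mem_iff.1 h
  obtain ⟨a, rfl⟩ := mem_Dg_zero (T := A) (Dg_cast hA (by norm_num) (by norm_num))
  obtain ⟨b, rfl⟩ := mem_Dg_zero (T := B) (Dg_cast hB (by norm_num) (by norm_num))
  obtain ⟨c, rfl⟩ := mem_lix (T := C) (Dg_cast hC (by norm_num) (by norm_num))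
  refine ⟨![a, b], c, fun l => ?_⟩
  fin_cases l
  · exact h0
  · exact h1

theorem row_F_mem {u : Fin 2 → Wo k} (h : u ∈ (FF k 0 0).filt 0 (0 + 1)) (l : Fin 2) :
    u l ∈ Dg k 0 1 :=
  Dg_cast (InF.mem (FF_mem.1 h) l) (by norm_num) (by norm_num)

theorem row_K_mem {u : Fin 2 → Wo k} (h : u ∈ (KK k 0 0).filt 0 (0 + 1)) (l : Fin 2) :
    u l ∈ Dg k 0 1 :=
  Dg_cast (InK.mem (KK_mem.1 h) l) (by norm_num) (by norm_num)

theorem row_L_mem {u : Unit → Wo k} (h : u ∈ (LL k).filt 0 (0 + 1)) :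
    u () ∈ Dg k (-1) 1 :=
  Dg_cast (O_mem_iff.1 h) (by norm_num) (by norm_num)

/-! ### morphisms between `L`, `F`, `K` -/

/-- `Hom(L, K) = 0` -/
theorem L_K (x : LL k ⟶ KK k 0 0) : x = 0 := by
  apply O_hom_ext
  obtain ⟨A, B, C, hA, hB, hC, h0, h1⟩ := KK_mem_iff.1 (O_hom_mem x)
  rw [Dg_eq_bot (Or.inl (by norm_num))] at hA hB hC
  have hA := (Submodule.mem_bot k).1 hA
  have hB := (Submodule.mem_bot k).1 hB
  have hC := (Submodule.mem_bot k).1 hC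
  subst hA
  subst hB
  subst hC
  funext l
  show (x.1 ()) l = 0
  change Fin 2 at l
  fin_cases l
  · refine h0.trans ?_
    rw [zero_mul, add_zero]
  · refine h1.trans ?_
    rw [zero_mul, add_zero]

/-- `Hom(L, F) = k · qA` -/
theorem L_F (x : LL k ⟶ FF k 0 0) : ∃ c : k, x = c • qA k := by
  obtain ⟨A, B, C, hA, hB, hC, h0, h1⟩ := FF_mem_iff.1 (O_hom_mem x)
  rw [Dg_eq_bot (Or.inl (by norm_num))] at hA hB
  have hA := (Submodule.mem_bot k).1 hA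
  have hB := (Submodule.mem_bot k).1 hB
  subst hA
  subst hB
  obtain ⟨c, rfl⟩ := mem_Dg_zero (T := C) (Dg_cast hC (by norm_num) (by norm_num))
  refine ⟨c, ?_⟩
  apply O_hom_ext
  funext l
  show (x.1 ()) l = c • xo k l
  change Fin 2 at l
  fin_cases l
  · refine h0.trans ?_
    rw [zero_add, smul_mul_assoc, one_mul]
    rfl
  · refine h1.trans ?_
    rw [zero_add, smul_mul_assoc, one_mul]
    rfl

variable [CharZero k]

theorem K_div {E : FOb k} {x : KK k 0 0 ⟶ E} (hx : qB k ≫ x = 0) (l : E.I) {w d : ℤ}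
    (h0 : x.1 (0 : Fin 2) l ∈ Dg k w d) (h1 : x.1 (1 : Fin 2) l ∈ Dg k w d) :
    ∃ C ∈ Dg k (w + 1) (d - 1), x.1 (0 : Fin 2) l = po k 1 * C ∧
      x.1 (1 : Fin 2) l = -(po k 0 * C) := by
  refine koszul_poL h0 h1 ?_
  refine xo_mul_eq_zero 1 (w := w - 1) (d := d + 1)
    (Submodule.add_mem _ (po_mul_mem 0 h0) (po_mul_mem 1 h1)) ?_
  rw [← qB_comp0, hx]
  rfl

theorem F_div {E : FOb k} {x : FF k 0 0 ⟶ E} (hx : qA k ≫ x = 0) (l : E.I) {w d : ℤ}
    (h0 : x.1 (0 : Fin 2) l ∈ Dg k w d) (h1 : x.1 (1 : Fin 2) l ∈ Dg k w d) :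
    ∃ C ∈ Dg k (w - 1) d, x.1 (0 : Fin 2) l = xo k 1 * C ∧
      x.1 (1 : Fin 2) l = -(xo k 0 * C) := by
  have h2 : xo k 0 * x.1 (0 : Fin 2) l + xo k 1 * x.1 (1 : Fin 2) l = 0 := by
    rw [← qA_comp, hx]
    rfl
  obtain ⟨C, hC, e0, e1⟩ := koszul_xoL h0 (Submodule.neg_mem _ h1) (by
    rw [wo_mul_neg]
    exact eq_neg_of_add_eq_zero_left h2)
  refine ⟨C, hC, e0, ?_⟩
  rw [← e1, neg_neg]

/-- spot 0 of `Hom(QQ, E)` -/
theorem QQt0 {E : FOb k} (hE : ∀ (a b : ℤ) (u : E.I → Wo k) (l : E.I), u ∈ E.filt a b →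
    ∃ w d, u l ∈ Dg k w d) (x : LL k ⟶ E) (hx : qC k ≫ x = 0) : x = 0 := by
  apply O_hom_ext
  funext l
  obtain ⟨w, d, h⟩ := hE _ _ _ l (O_hom_mem x)
  refine po_mul_eq_zero 0 h ?_
  rw [← qC_comp1, hx]
  rfl

/-! #### sources `K` -/

theorem K_rows {E : FOb k} (x : KK k 0 0 ⟶ E) :
    x.1 (0 : Fin 2) ∈ E.filt 0 (0 + 1) ∧ x.1 (1 : Fin 2) ∈ E.filt 0 (0 + 1) :=
  ⟨(KK_homs_iff.1 x.2).1, (KK_homs_iff.1 x.2).2.1⟩

theorem F_rows {E : FOb k} (x : FF k 0 0 ⟶ E) :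
    x.1 (0 : Fin 2) ∈ E.filt 0 (0 + 1) ∧ x.1 (1 : Fin 2) ∈ E.filt 0 (0 + 1) :=
  ⟨(FF_homs_iff.1 x.2).1, (FF_homs_iff.1 x.2).2.1⟩

theorem mat_ext {E : FOb k} {x y : (Fin 2 → E.I → Wo k)} (h0 : ∀ l, x 0 l = y 0 l)
    (h1 : ∀ l, x 1 l = y 1 l) : x = y := by
  funext i l
  fin_cases i
  · exact h0 l
  · exact h1 l

/-- `Hom(K, K)`, spot 1 -/
theorem K_K (x : KK k 0 0 ⟶ KK k 0 0) (hx : qB k ≫ x = 0) : x = 0 := by
  obtain ⟨r0, r1⟩ := K_rows x
  obtain ⟨a, c, h0⟩ := row_K r0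
  obtain ⟨a', c', h1⟩ := row_K r1
  obtain ⟨C, hC, e0, e0'⟩ := K_div hx (0 : Fin 2) (row_K_mem r0 0) (row_K_mem r1 0)
  obtain ⟨D, hD, e1, e1'⟩ := K_div hx (1 : Fin 2) (row_K_mem r0 1) (row_K_mem r1 1)
  obtain ⟨g, rfl⟩ := mem_lix (T := C) (Dg_cast hC (by norm_num) (by norm_num))
  obtain ⟨g', rfl⟩ := mem_lix (T := D) (Dg_cast hD (by norm_num) (by norm_num))
  have z0 : lix g = 0 := first_KK0 (e0.symm.trans (h0 0))
  have z1 : lix g' = 0 := by
    have h2 := e1'.symm.trans (h1 1)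
    refine first_KK1 (a := -a') (c := -c') ?_
    have h3 : (po k 0 * lix g' : Wo k) = -(a' 1 • 1 + lix c' * po k 1) := by
      rw [← h2, neg_neg]
    rw [h3, neg_add, ← wo_neg_mul, neg_lix, ← wo_neg_smul]
    rfl
  apply hom_ext
  refine mat_ext ?_ ?_
  · intro l
    change Fin 2 at l
    fin_cases l
    · refine e0.trans ?_
      rw [z0, mul_zero]
      rfl
    · refine e1.trans ?_
      rw [z1, mul_zero]
      rfl
  · intro l
    change Fin 2 at l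
    fin_cases l
    · refine e0'.trans ?_
      rw [z0, mul_zero, neg_zero]
      rfl
    · refine e1'.trans ?_
      rw [z1, mul_zero, neg_zero]
      rfl

/-- `Hom(K, F)`, spot 1 -/
theorem K_F (x : KK k 0 0 ⟶ FF k 0 0) (hx : qB k ≫ x = 0) :
    ∃ y : LL k ⟶ FF k 0 0, qC k ≫ y = x := by
  obtain ⟨r0, r1⟩ := K_rows x
  obtain ⟨a, c, h0⟩ := row_F r0
  obtain ⟨C, hC, e0, e0'⟩ := K_div hx (0 : Fin 2) (row_F_mem r0 0) (row_F_mem r1 0)
  obtain ⟨D, hD, e1, e1'⟩ := K_div hx (1 : Fin 2) (row_F_mem r0 1) (row_F_mem r1 1)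
  obtain ⟨g, rfl⟩ := mem_lix (T := C) (Dg_cast hC (by norm_num) (by norm_num))
  obtain ⟨g', rfl⟩ := mem_lix (T := D) (Dg_cast hD (by norm_num) (by norm_num))
  obtain ⟨z0, z0'⟩ := first_KF0 (e0.symm.trans (h0 0))
  obtain ⟨z1, z1'⟩ := first_KF1 (e1.symm.trans (h0 1))
  have hg : lix g = c 1 • xo k 0 := by
    unfold lix
    rw [z0, z0', zero_smul, add_zero]
  have hg' : lix g' = c 1 • xo k 1 := by
    unfold lix
    rw [z1, z1', zero_smul, zero_add]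
  refine ⟨(-c 1) • qA k, ?_⟩
  have hy : ∀ l : Fin 2, ((-c 1) • qA k).1 () l = -(c 1 • xo k l) := fun l => by
    show (-c 1) • xo k l = _
    rw [wo_neg_smul]
  apply hom_ext
  refine mat_ext ?_ ?_
  · intro l
    rw [qC_comp0]
    change Fin 2 at l
    fin_cases l
    · refine Eq.trans ?_ e0.symm
      rw [hg, hy, wo_mul_neg, neg_neg]
      rfl
    · refine Eq.trans ?_ e1.symm
      rw [hg', hy, wo_mul_neg, neg_neg]
      rfl
  · intro l
    rw [qC_comp1]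
    change Fin 2 at l
    fin_cases l
    · refine Eq.trans ?_ e0'.symm
      rw [hg, hy, wo_mul_neg]
      rfl
    · refine Eq.trans ?_ e1'.symm
      rw [hg', hy, wo_mul_neg]
      rfl

/-- `Hom(K, L) = k · qC` -/
theorem K_L (x : KK k 0 0 ⟶ LL k) : ∃ c : k, x = c • qC k := by
  obtain ⟨r0, r1⟩ := K_rows x
  have h2 : po k 0 * x.1 (0 : Fin 2) () + po k 1 * x.1 (1 : Fin 2) () = 0 := by
    have h3 := O_mem_iff.1 (KK_homs_iff.1 x.2).2.2
    rw [Dg_eq_bot (Or.inr (by norm_num))] at h3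
    exact (Submodule.mem_bot k).1 h3
  obtain ⟨C, hC, e0, e1⟩ := koszul_poL (row_L_mem r0) (row_L_mem r1) h2
  obtain ⟨c, rfl⟩ := mem_Dg_zero (T := C) (Dg_cast hC (by norm_num) (by norm_num))
  refine ⟨-c, ?_⟩
  apply hom_ext
  refine mat_ext ?_ ?_
  · intro l
    refine e0.trans ?_
    show po k 1 * (c • (1 : Wo k)) = (-c) • (-po k 1)
    rw [mul_smul_comm, mul_one, wo_neg_smul, smul_neg, neg_neg]
  · intro l
    refine e1.trans ?_
    show -(po k 0 * (c • (1 : Wo k))) = (-c) • (po k 0)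
    rw [mul_smul_comm, mul_one, wo_neg_smul]

/-- `Hom(K, K) → Hom(K, L)` is injective -/
theorem K_inj (x : KK k 0 0 ⟶ KK k 0 0) (hx : x ≫ qC k = 0) : x = 0 := by
  obtain ⟨r0, r1⟩ := K_rows x
  obtain ⟨a, c, h0⟩ := row_K r0
  obtain ⟨a', c', h1⟩ := row_K r1
  -- the constant parts vanish
  have hz : ∀ (j : Fin 2) (a c : Fin 2 → k), (∀ l : Fin 2, x.1 j l = a l • (1 : Wo k) + lix c * po k l) →
      a = 0 := by
    intro j a c h
    have h2 : x.1 j (0 : Fin 2) * -po k 1 + x.1 j (1 : Fin 2) * po k 0 = 0 := by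
      have h3 : (x ≫ qC k).1 j () = 0 := by
        rw [hx]
        rfl
      rw [← h3]
      show _ = ∑ i : Fin 2, x.1 j i * (![fun _ : Unit => -po k 1,
        fun _ : Unit => po k 0] : Fin 2 → Unit → Wo k) i ()
      rw [Fin.sum_univ_two]
      rfl
    rw [h 0, h 1] at h2
    have h4 : a 0 • po k 1 = a 1 • po k 0 := by
      have h5 : (a 0 • (1 : Wo k) + lix c * po k 0) * -po k 1
          + (a 1 • (1 : Wo k) + lix c * po k 1) * po k 0 = -(a 0 • po k 1) + a 1 • po k 0 := by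
        rw [wo_mul_neg, add_mul, add_mul, smul_mul_assoc, smul_mul_assoc, one_mul, one_mul,
          mul_assoc, mul_assoc, po_comm 0 1]
        abel
      rw [h5] at h2
      exact (neg_add_eq_zero.1 h2)
    have e0 := ev2 h4 (MvPolynomial.X 1) 0 0
    have e1 := ev2 h4 (MvPolynomial.X 0) 0 0
    simp [po_app, pd01, pd10] at e0 e1
    funext l
    fin_cases l
    · exact e0
    · exact e1.symm
  have ha := hz 0 a c h0
  have ha' := hz 1 a' c' h1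
  subst ha
  subst ha'
  obtain ⟨A, B, E, hA, hB, hE, g0, g1⟩ := KK_mem_iff.1 (KK_homs_iff.1 x.2).2.2
  rw [Dg_eq_bot (Or.inr (by norm_num))] at hA hB
  have hA := (Submodule.mem_bot k).1 hA
  have hB := (Submodule.mem_bot k).1 hB
  subst hA
  subst hB
  obtain ⟨e, rfl⟩ := mem_Dg_zero (T := E) (Dg_cast hE (by norm_num) (by norm_num))
  have g2 : (po k 0 * lix c + po k 1 * lix c') * po k 0 = (e • (1 : Wo k)) * po k 0 := by
    have g3 : po k 0 * x.1 (0 : Fin 2) (0 : Fin 2) + po k 1 * x.1 (1 : Fin 2) (0 : Fin 2)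
      = 0 + (e • (1 : Wo k)) * po k 0 := g0
    rw [h0 0, h1 0, zero_add] at g3
    rw [← g3, add_mul]
    show _ = po k 0 * ((0 : k) • (1 : Wo k) + lix c * po k 0)
      + po k 1 * ((0 : k) • (1 : Wo k) + lix c' * po k 0)
    rw [zero_smul, zero_add, zero_add, mul_assoc, mul_assoc]
  have g4 := mul_po_cancel 0 (w := 0) (d := 1) (w' := 0) (d' := 0)
    (Submodule.add_mem _ (Dg_cast (po_mul_mem 0 (lix_mem c)) (by norm_num) (by norm_num))
      (Dg_cast (po_mul_mem 1 (lix_mem c')) (by norm_num) (by norm_num)))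
    (Submodule.smul_mem _ _ one_mem_Dg) g2
  obtain ⟨z0, z1⟩ := first_K g4
  apply hom_ext
  refine mat_ext ?_ ?_
  · intro l
    refine (h0 l).trans ?_
    rw [z0, zero_mul, add_zero]
    exact zero_smul _ _
  · intro l
    refine (h1 l).trans ?_
    rw [z1, zero_mul, add_zero]
    exact zero_smul _ _

/-! #### sources `F` -/

/-- `Hom(F, L)`, spot 2 -/
theorem F_L (x : FF k 0 0 ⟶ LL k) (hx : qA k ≫ x = 0) : x = 0 := by
  obtain ⟨r0, r1⟩ := F_rows x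
  obtain ⟨C, hC, e0, e1⟩ := F_div hx () (row_L_mem r0) (row_L_mem r1)
  rw [Dg_eq_bot (Or.inr (by norm_num))] at hC
  have hC := (Submodule.mem_bot k).1 hC
  subst hC
  apply hom_ext
  refine mat_ext ?_ ?_
  · intro l
    refine e0.trans ?_
    rw [mul_zero]
    rfl
  · intro l
    refine e1.trans ?_
    rw [mul_zero, neg_zero]
    rfl

/-- `Hom(F, F)`, spot 2 -/
theorem F_F (x : FF k 0 0 ⟶ FF k 0 0) (hx : qA k ≫ x = 0) : x = 0 := by
  obtain ⟨r0, r1⟩ := F_rows x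
  obtain ⟨a, c, h0⟩ := row_F r0
  obtain ⟨a', c', h1⟩ := row_F r1
  obtain ⟨C, hC, e0, e0'⟩ := F_div hx (0 : Fin 2) (row_F_mem r0 0) (row_F_mem r1 0)
  obtain ⟨D, hD, e1, e1'⟩ := F_div hx (1 : Fin 2) (row_F_mem r0 1) (row_F_mem r1 1)
  obtain ⟨g, rfl⟩ := mem_lip (T := C) (Dg_cast hC (by norm_num) (by norm_num))
  obtain ⟨g', rfl⟩ := mem_lip (T := D) (Dg_cast hD (by norm_num) (by norm_num))
  have z0 : lip g = 0 := first_FF0 (e0.symm.trans (h0 0))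
  have z1 : lip g' = 0 := by
    have h2 := e1'.symm.trans (h1 1)
    refine first_FF1 (a := -a') (c := -c') ?_
    have h3 : (xo k 0 * lip g' : Wo k) = -(a' 1 • 1 + lip c' * xo k 1) := by
      rw [← h2, neg_neg]
    rw [h3, neg_add, ← wo_neg_mul, neg_lip, ← wo_neg_smul]
    rfl
  apply hom_ext
  refine mat_ext ?_ ?_
  · intro l
    change Fin 2 at l
    fin_cases l
    · refine e0.trans ?_
      rw [z0, mul_zero]
      rfl
    · refine e1.trans ?_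
      rw [z1, mul_zero]
      rfl
  · intro l
    change Fin 2 at l
    fin_cases l
    · refine e0'.trans ?_
      rw [z0, mul_zero, neg_zero]
      rfl
    · refine e1'.trans ?_
      rw [z1, mul_zero, neg_zero]
      rfl

/-- `Hom(F, K)`, spot 2 -/
theorem F_K (x : FF k 0 0 ⟶ KK k 0 0) (hx : qA k ≫ x = 0) :
    ∃ y : KK k 0 0 ⟶ KK k 0 0, qB k ≫ y = x := by
  obtain ⟨r0, r1⟩ := F_rows x
  obtain ⟨a, c, h0⟩ := row_K r0
  obtain ⟨C, hC, e0, e0'⟩ := F_div hx (0 : Fin 2) (row_K_mem r0 0) (row_K_mem r1 0)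
  obtain ⟨D, hD, e1, e1'⟩ := F_div hx (1 : Fin 2) (row_K_mem r0 1) (row_K_mem r1 1)
  obtain ⟨g, rfl⟩ := mem_lip (T := C) (Dg_cast hC (by norm_num) (by norm_num))
  obtain ⟨g', rfl⟩ := mem_lip (T := D) (Dg_cast hD (by norm_num) (by norm_num))
  have z0 := first_FK0 (e0.symm.trans (h0 0))
  have z1 := first_FK1 (e1.symm.trans (h0 1))
  refine ⟨(c 1) • 𝟙 (KK k 0 0), ?_⟩
  rw [Linear.comp_smul, Category.comp_id]
  apply hom_ext
  refine mat_ext ?_ ?_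
  · intro l
    change Fin 2 at l
    fin_cases l
    · refine Eq.trans ?_ e0.symm
      rw [z0, mul_smul_comm]
      rfl
    · refine Eq.trans ?_ e1.symm
      rw [z1, mul_smul_comm]
      rfl
  · intro l
    change Fin 2 at l
    fin_cases l
    · refine Eq.trans ?_ e0'.symm
      rw [z0, mul_smul_comm]
      exact wo_smul_neg _ _
    · refine Eq.trans ?_ e1'.symm
      rw [z1, mul_smul_comm]
      exact wo_smul_neg _ _

end FOb

end P195E
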