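import Vale.Agent.P195E.RedCat
import Vale.Agent.P195E.Tools
import Vale.Agent.P195A.QQH

/-!
# P195: the complex `QQ : L → F → K → L` in the category of filtered modules
-/

namespace P195E

open CategoryTheory P195A

variable {k : Type} [Field k]

namespace FOb

/-- `L = O(-1,2)` -/
noncomputable abbrev LL (k : Type) [Field k] : FOb k := O k (-1) 2

theorem wo_mul_neg (a b : Wo k) : a * -b = -(a * b) := mul_neg a b

theorem wo_neg_mul (a b : Wo k) : -a * b = -(a * b) := neg_mul a b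

/-! ### filtrations -/

theorem LL_mem {a b : ℤ} {u : Unit → Wo k} :
    u ∈ (LL k).filt a b ↔ u () ∈ LF k (-a) (-b) := by
  rw [O_mem_iff]
  show u () ∈ Dg k (-1 - a) (2 - b) ↔ u () ∈ Dg k (-a - 1) (-b + 2)
  rw [show (-1 : ℤ) - a = -a - 1 by ring, show (2 : ℤ) - b = -b + 2 by ring]

theorem FF_mem {a b : ℤ} {u : Fin 2 → Wo k} :
    u ∈ (FF k 0 0).filt a b ↔ u ∈ P195A.FW k (-a) (-b) := by
  rw [FF_mem_iff, mem_FF]
  constructor
  · rintro ⟨A, B, C, hA, hB, hC, h0, h1⟩
    refine ⟨![A, B], C, ?_, Dg_cast hC (by ring) (by ring), ?_⟩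
    · intro i
      fin_cases i
      · exact Dg_cast hA (by ring) (by ring)
      · exact Dg_cast hB (by ring) (by ring)
    · intro i
      fin_cases i
      · exact h0
      · exact h1
  · rintro ⟨A, C, hA, hC, h⟩
    exact ⟨A 0, A 1, C, Dg_cast (hA 0) (by ring) (by ring), Dg_cast (hA 1) (by ring) (by ring),
      Dg_cast hC (by ring) (by ring), h 0, h 1⟩

theorem KK_mem {a b : ℤ} {u : Fin 2 → Wo k} :
    u ∈ (KK k 0 0).filt a b ↔ u ∈ P195A.KF k (-a) (-b) := by
  rw [KK_mem_iff, mem_KF]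
  constructor
  · rintro ⟨A, B, C, hA, hB, hC, h0, h1⟩
    refine ⟨![A, B], C, ?_, Dg_cast hC (by ring) (by ring), ?_⟩
    · intro i
      fin_cases i
      · exact Dg_cast hA (by ring) (by ring)
      · exact Dg_cast hB (by ring) (by ring)
    · intro i
      fin_cases i
      · exact h0
      · exact h1
  · rintro ⟨A, C, hA, hC, h⟩
    exact ⟨A 0, A 1, C, Dg_cast (hA 0) (by ring) (by ring), Dg_cast (hA 1) (by ring) (by ring),
      Dg_cast hC (by ring) (by ring), h 0, h 1⟩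

/-! ### morphisms -/

/-- `L → F` -/
noncomputable def qA (k : Type) [Field k] : LL k ⟶ FF k 0 0 :=
  ofO (E := FF k 0 0) (fun j : Fin 2 => xo k j) (by
    apply FF_mem.2
    exact ⟨0, 1, fun _ => Submodule.zero_mem _, by simpa using one_mem_Dg, fun i => by simp⟩)

/-- `F → K` -/
noncomputable def qB (k : Type) [Field k] : FF k 0 0 ⟶ KK k 0 0 :=
  ofF (E := KK k 0 0) (fun j : Fin 2 => xo k 1 * po k j) (fun j : Fin 2 => -(xo k 0 * po k j))
    (by
      apply KK_mem.2
      exact ⟨0, xo k 1, fun _ => Submodule.zero_mem _, by simpa using xo_mem_Dg 1,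
        fun i => by simp⟩)
    (by
      apply KK_mem.2
      exact ⟨0, -xo k 0, fun _ => Submodule.zero_mem _,
        Submodule.neg_mem _ (by simpa using xo_mem_Dg 0), fun i => by
          show -(xo k 0 * po k i) = 0 + -xo k 0 * po k i
          rw [wo_neg_mul, zero_add]⟩)
    (by
      have : (fun l : Fin 2 => xo k 0 * (xo k 1 * po k l) + xo k 1 * -(xo k 0 * po k l)) = 0 := by
        funext l
        rw [wo_mul_neg, ← mul_assoc, ← mul_assoc, xo_comm 0 1]
        exact add_neg_cancel _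
      show (fun l : Fin 2 => xo k 0 * (xo k 1 * po k l) + xo k 1 * -(xo k 0 * po k l)) ∈ _
      rw [this]
      exact Submodule.zero_mem _)

/-- `K → L` -/
noncomputable def qC (k : Type) [Field k] : KK k 0 0 ⟶ LL k :=
  ofK (E := LL k) (fun _ => -po k 1) (fun _ => po k 0)
    (by
      apply LL_mem.2
      exact Submodule.neg_mem _ (Dg_cast (po_mem_Dg 1) (by ring) (by ring)))
    (by
      apply LL_mem.2
      exact Dg_cast (po_mem_Dg 0) (by ring) (by ring))
    (by
      have : (fun _ : Unit => po k 0 * -po k 1 + po k 1 * po k 0) = 0 := by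
        funext l
        rw [wo_mul_neg, po_comm 0 1]
        exact neg_add_cancel _
      show (fun _ : Unit => po k 0 * -po k 1 + po k 1 * po k 0) ∈ _
      rw [this]
      exact Submodule.zero_mem _)

theorem qA_act (u : Unit → Wo k) : act (E := LL k) (F := FF k 0 0) (qA k).1 u = qa k (u ()) := by
  funext j
  show ∑ i : Unit, u i * xo k j = u () * xo k j
  simp

theorem qB_act (u : Fin 2 → Wo k) :
    act (E := FF k 0 0) (F := KK k 0 0) (qB k).1 u = qb k u := by
  funext j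
  show ∑ i : Fin 2, u i * (![fun j : Fin 2 => xo k 1 * po k j,
    fun j : Fin 2 => -(xo k 0 * po k j)] : Fin 2 → Fin 2 → Wo k) i j = qb k u j
  rw [Fin.sum_univ_two]
  show u 0 * (xo k 1 * po k j) + u 1 * -(xo k 0 * po k j)
    = (u 0 * xo k 1 - u 1 * xo k 0) * po k j
  rw [sub_mul, wo_mul_neg, mul_assoc, mul_assoc, sub_eq_add_neg]

theorem qC_act (u : Fin 2 → Wo k) :
    act (E := KK k 0 0) (F := LL k) (qC k).1 u = fun _ => -qc k u := by
  funext j
  show ∑ i : Fin 2, u i * (![fun _ : Unit => -po k 1,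
    fun _ : Unit => po k 0] : Fin 2 → Unit → Wo k) i j = -qc k u
  rw [Fin.sum_univ_two]
  show u 0 * -po k 1 + u 1 * po k 0 = -(u 0 * po k 1 - u 1 * po k 0)
  rw [wo_mul_neg, neg_sub, sub_eq_add_neg, add_comm]

theorem qA_qB : qA k ≫ qB k = 0 := by
  apply hom_ext_act
  intro u
  rw [act_comp]
  have h1 := qA_act (k := k) u
  have h2 := qB_act (k := k) (qa k (u ()))
  rw [h1, h2, act_zero_hom]
  exact qb_qa _

theorem qB_qC : qB k ≫ qC k = 0 := by
  apply hom_ext_act
  intro u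
  rw [act_comp]
  have h1 := qB_act (k := k) u
  have h2 := qC_act (k := k) (qb k u)
  have h3 := qc_qb (k := k) u
  rw [h1, h2, act_zero_hom]
  funext i
  show -qc k (qb k u) = 0
  rw [h3]
  exact neg_zero

/-- the augmentation `L → k[x]` (and of any twist of `L`) -/
noncomputable def augL (k : Type) [Field k] : Aug (LL k) where
  h := augW k ∘ₗ LinearMap.proj ()
  lin _ _ := rfl

theorem augL_apply (u : Unit → Wo k) : (augL k).h u = (u ()) 1 := rfl

/-! ### surjectivity -/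

theorem LL_SurjX {a b : ℤ} (h : 1 - a - b ≠ 0) : SurjX (LL k) a b := by
  intro u hu
  have hu := LL_mem.1 hu
  obtain ⟨v, w, hw, hv, h1⟩ := LF_surj_x (k := k) (w := -a) (d := -(b + 1)) (by omega)
    (T := u ()) (Dg_cast hu (by ring) (by ring))
  refine ⟨fun i _ => v i, fun _ => w, ?_, fun i => ?_, ?_⟩
  · apply LL_mem.2
    exact Dg_cast hw (by ring) (by ring)
  · apply LL_mem.2
    exact hv i
  · funext l
    exact h1

theorem LL_SurjP {a b : ℤ} (h : 2 - b ≠ 0) : SurjP (LL k) a b := by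
  intro u hu
  have hu := LL_mem.1 hu
  obtain ⟨v, w, hw, hv, h1⟩ := LF_surj_p (k := k) (w := -a) (d := -(b + 1)) (by omega)
    (T := u ()) (Dg_cast hu (by ring) (by ring))
  refine ⟨fun i _ => v i, fun _ => w, ?_, fun i => ?_, ?_⟩
  · apply LL_mem.2
    exact Dg_cast hw (by ring) (by ring)
  · apply LL_mem.2
    exact hv i
  · funext l
    exact h1

theorem FF_cast {w w' d d' : ℤ} {P : Fin 2 → Wo k} (h : P ∈ P195A.FW k w d) (hw : w = w')
    (hd : d = d') : P ∈ P195A.FW k w' d' := by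
  subst hw
  subst hd
  exact h

theorem KF_cast {w w' d d' : ℤ} {P : Fin 2 → Wo k} (h : P ∈ P195A.KF k w d) (hw : w = w')
    (hd : d = d') : P ∈ P195A.KF k w' d' := by
  subst hw
  subst hd
  exact h

theorem FF_SurjX {a b : ℤ} (h : 1 - a - b ≠ 0) : SurjX (FF k 0 0) a b := by
  intro u hu
  obtain ⟨v, w, hw, hv, h1⟩ := FF_surj_x (k := k) (w := -a) (d := -(b + 1)) (by omega)
    (P := u) (FF_cast (FF_mem.1 hu) (by ring) (by ring))
  refine ⟨v, w, FF_mem.2 (FF_cast hw (by ring) (by ring)), fun i => FF_mem.2 (hv i), ?_⟩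
  funext l
  exact congrFun h1 l

theorem FF_SurjP {a b : ℤ} (h : 1 - b ≠ 0) (h' : 2 - b ≠ 0) : SurjP (FF k 0 0) a b := by
  intro u hu
  obtain ⟨v, w, hw, hv, h1⟩ := FF_surj_p (k := k) (w := -a) (d := -(b + 1)) (by omega) (by omega)
    (P := u) (FF_cast (FF_mem.1 hu) (by ring) (by ring))
  refine ⟨v, w, FF_mem.2 (FF_cast hw (by ring) (by ring)), fun i => FF_mem.2 (hv i), ?_⟩
  funext l
  exact congrFun h1 l

theorem KK_SurjX {a b : ℤ} (h : 1 - a - b ≠ 0) (h' : 2 - a - b ≠ 0) : SurjX (KK k 0 0) a b := by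
  intro u hu
  obtain ⟨v, w, hw, hv, h1⟩ := KF_surj_x (k := k) (w := -a) (d := -(b + 1)) (by omega) (by omega)
    (P := u) (KF_cast (KK_mem.1 hu) (by ring) (by ring))
  refine ⟨v, w, KK_mem.2 (KF_cast hw (by ring) (by ring)), fun i => KK_mem.2 (hv i), ?_⟩
  funext l
  exact congrFun h1 l

theorem KK_SurjP {a b : ℤ} (h : 1 - b ≠ 0) : SurjP (KK k 0 0) a b := by
  intro u hu
  obtain ⟨v, w, hw, hv, h1⟩ := KF_surj_p (k := k) (w := -a) (d := -(b + 1)) (by omega)
    (P := u) (KF_cast (KK_mem.1 hu) (by ring) (by ring))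
  refine ⟨v, w, KK_mem.2 (KF_cast hw (by ring) (by ring)), fun i => KK_mem.2 (hv i), ?_⟩
  funext l
  exact congrFun h1 l

variable [CharZero k]

/-! ### exactness in degree `(a,b)` -/

theorem QQ_inj3 (a b : ℤ) : InjAt (qA k) a b := by
  intro u hu h
  have h' : qa k (u ()) = 0 := (qA_act u).symm.trans h
  funext i
  exact QQ_ex_three (LL_mem.1 hu) h'

theorem QQ_ex2 (a b : ℤ) : ExAt (qA k) (qB k) a b := by
  intro u hu h
  have h' : qb k u = 0 := (qB_act u).symm.trans h
  obtain ⟨r, hr, h1⟩ := QQ_ex_F (FF_mem.1 hu) h'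
  exact ⟨fun _ => r, LL_mem.2 hr, (qA_act _).trans h1⟩

theorem QQ_ex1 {a : ℤ} (ha : a ≤ 0) (b : ℤ) : ExAt (qB k) (qC k) a b := by
  intro u hu h
  have h' : qc k u = 0 := by
    have := congrFun ((qC_act u).symm.trans h) ()
    exact neg_eq_zero.1 this
  obtain ⟨r, hr, h1⟩ := QQ_ex_K (by omega) (KK_mem.1 hu) h'
  exact ⟨r, FF_mem.2 hr, (qB_act _).trans h1⟩

theorem QQ_ex0 (a b : ℤ) : ExAug (qC k) (augL k) a b := by
  intro u hu h
  have h' : (u ()) 1 = 0 := h
  obtain ⟨r, hr, h1⟩ := QQ_ex_L (Submodule.neg_mem _ (LL_mem.1 hu)) (by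
    show (-u ()) 1 = 0
    rw [LinearMap.neg_apply, h', neg_zero])
  refine ⟨r, KK_mem.2 hr, (qC_act _).trans ?_⟩
  funext i
  show -qc k r = u ()
  rw [h1, neg_neg]

end FOb

end P195E
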