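import Vale.Agent.P195E.Objs
import Vale.Agent.P195A.Red

/-!
# P195: reductions (R1) in the category of filtered modules

`ExAt f g a b`: exactness of `E → F → G` at `F` in degree `(a,b)`, i.e. for `Hom(O(a,b), -)`.
The lemmas `ex_O`, `ex_FF`, `ex_KK` give exactness of `Hom(O(a,b), -)`, `Hom(F(a,b), -)`,
`Hom(K(a,b), -)`; the variants `_left` have the zero object on the left, the variants `_aug` have
an augmentation (a map to `k[x_0,x_1]` commuting with the action of operators) on the right.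
-/

namespace P195E

open CategoryTheory P195A

variable {k : Type} [Field k]

namespace FOb

/-- exactness in degree `(a,b)` -/
def ExAt {E F G : FOb k} (f : E ⟶ F) (g : F ⟶ G) (a b : ℤ) : Prop :=
  ∀ u ∈ F.filt a b, act (F := G) g.1 u = 0 → ∃ v ∈ E.filt a b, act (F := F) f.1 v = u

/-- injectivity in degree `(a,b)` -/
def InjAt {E F : FOb k} (f : E ⟶ F) (a b : ℤ) : Prop :=
  ∀ u ∈ E.filt a b, act (F := F) f.1 u = 0 → u = 0

/-- surjectivity in degree `(a,b)` -/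
def SurjAt {E F : FOb k} (f : E ⟶ F) (a b : ℤ) : Prop :=
  ∀ u ∈ F.filt a b, ∃ v ∈ E.filt a b, act (F := F) f.1 v = u

/-- an augmentation: a linear map to polynomials commuting with operators -/
structure Aug (F : FOb k) where
  h : (F.I → Wo k) →ₗ[k] Rx k
  lin : ∀ (S : Wo k) (u : F.I → Wo k), h (fun i => S * u i) = S (h u)

/-- exactness with an augmentation on the right in degree `(a,b)` -/
def ExAug {E F : FOb k} (f : E ⟶ F) (h : Aug F) (a b : ℤ) : Prop :=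
  ∀ u ∈ F.filt a b, h.h u = 0 → ∃ v ∈ E.filt a b, act (F := F) f.1 v = u

/-- `E(a-1,b+1) = x E(a,b+1) + E(a-1,b+2)` (source `F(a,b)`) -/
def SurjX (E : FOb k) (a b : ℤ) : Prop :=
  ∀ u ∈ E.filt (a - 1) (b + 1), ∃ v : Fin 2 → E.I → Wo k, ∃ w ∈ E.filt (a - 1) (b + 2),
    (∀ i, v i ∈ E.filt a (b + 1)) ∧ u = fun l => xo k 0 * v 0 l + xo k 1 * v 1 l + w l

/-- `E(a+1,b) = ∂ E(a,b+1) + E(a+1,b+1)` (source `K(a,b)`) -/
def SurjP (E : FOb k) (a b : ℤ) : Prop :=
  ∀ u ∈ E.filt (a + 1) b, ∃ v : Fin 2 → E.I → Wo k, ∃ w ∈ E.filt (a + 1) (b + 1),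
    (∀ i, v i ∈ E.filt a (b + 1)) ∧ u = fun l => po k 0 * v 0 l + po k 1 * v 1 l + w l

/-- left multiplication by an operator -/
noncomputable def lml (I : Type) (S : Wo k) : (I → Wo k) →ₗ[k] (I → Wo k) :=
  (LinearMap.mulLeft k S).compLeft I

theorem lml_apply (I : Type) (S : Wo k) (u : I → Wo k) (i : I) : lml I S u i = S * u i := rfl

/-- the action of a matrix as a linear map -/
noncomputable def actl {E F : FOb k} (f : E ⟶ F) : (E.I → Wo k) →ₗ[k] (F.I → Wo k) where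
  toFun := act (F := F) f.1
  map_add' := act_add f.1
  map_smul' := act_smul f.1

theorem actl_apply {E F : FOb k} (f : E ⟶ F) (u : E.I → Wo k) :
    actl f u = act (F := F) f.1 u := rfl

theorem actl_lml {E F : FOb k} (f : E ⟶ F) (S : Wo k) (u : E.I → Wo k) :
    actl f (lml E.I S u) = lml F.I S (actl f u) := act_mul f.1 S u

theorem actl_mem {E F : FOb k} (f : E ⟶ F) {a b : ℤ} {u : E.I → Wo k} (h : u ∈ E.filt a b) :
    actl f u ∈ F.filt a b := f.2 a b u h

theorem filt_mono (E : FOb k) {a b b' : ℤ} (h : b' ≤ b) : E.filt a b ≤ E.filt a b' := by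
  intro u hu
  have h1 := E.closed 0 (b - b') a b 1 u (Dg_mono (by omega) one_mem_Dg) hu
  have e1 : a - 0 = a := by ring
  have e2 : b - (b - b') = b' := by ring
  rw [e1, e2] at h1
  have e3 : (fun i => (1 : Wo k) * u i) = u := by
    funext i
    rw [one_mul]
  rwa [e3] at h1

theorem xo_filt (E : FOb k) {a b : ℤ} (i : Fin 2) {u : E.I → Wo k} (hu : u ∈ E.filt a b) :
    lml E.I (xo k i) u ∈ E.filt (a - 1) b := by
  have h1 := E.closed 1 0 a b (xo k i) u (xo_mem_Dg i) hu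
  rwa [sub_zero] at h1

theorem po_filt (E : FOb k) {a b : ℤ} (i : Fin 2) {u : E.I → Wo k} (hu : u ∈ E.filt a b) :
    lml E.I (po k i) u ∈ E.filt (a + 1) (b - 1) := by
  have h1 := E.closed (-1) 1 a b (po k i) u (po_mem_Dg i) hu
  rwa [sub_neg_eq_add] at h1

theorem comp_row {S E F : FOb k} (x : S ⟶ E) (f : E ⟶ F) (i : S.I) :
    (x ≫ f).1 i = actl f (x.1 i) := rfl

theorem comp_zero_iff {S E F : FOb k} {x : S ⟶ E} {f : E ⟶ F} :
    x ≫ f = 0 ↔ ∀ i, actl f (x.1 i) = 0 := by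
  constructor
  · intro h i
    rw [← comp_row, h]
    rfl
  · intro h
    apply hom_ext
    funext i
    rw [comp_row, h]
    rfl

theorem comp_eq_iff {S E F : FOb k} {x : S ⟶ E} {f : E ⟶ F} {y : S ⟶ F} :
    x ≫ f = y ↔ ∀ i, actl f (x.1 i) = y.1 i := by
  constructor
  · rintro rfl i
    rfl
  · intro h
    apply hom_ext
    funext i
    rw [comp_row, h]

theorem ex_O {E F G : FOb k} {f : E ⟶ F} {g : F ⟶ G} {a b : ℤ} (h : ExAt f g a b)
    (x : O k a b ⟶ F) (hx : x ≫ g = 0) : ∃ y : O k a b ⟶ E, y ≫ f = x := by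
  have h1 : x.1 () ∈ F.filt a b := O_homs_iff.1 x.2
  obtain ⟨v, hv, hv'⟩ := h (x.1 ()) h1 (comp_zero_iff.1 hx ())
  refine ⟨⟨fun _ => v, O_homs_iff.2 hv⟩, comp_eq_iff.2 fun i => hv'⟩

theorem ex_O_aug {E F : FOb k} {f : E ⟶ F} {h : Aug F} {a b : ℤ} (hh : ExAug f h a b)
    (x : O k a b ⟶ F) (hx : h.h (x.1 ()) = 0) : ∃ y : O k a b ⟶ E, y ≫ f = x := by
  have h1 : x.1 () ∈ F.filt a b := O_homs_iff.1 x.2
  obtain ⟨v, hv, hv'⟩ := hh (x.1 ()) h1 hx
  refine ⟨⟨fun _ => v, O_homs_iff.2 hv⟩, comp_eq_iff.2 fun i => hv'⟩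

theorem inj_O {E F : FOb k} {f : E ⟶ F} {a b : ℤ} (h : InjAt f a b)
    (x : O k a b ⟶ E) (hx : x ≫ f = 0) : x = 0 := by
  apply hom_ext
  funext i
  exact h (x.1 ()) (O_homs_iff.1 x.2) (comp_zero_iff.1 hx ())

/-- `Hom(F(a,b), E)` as `HG` -/
theorem FF_HG {a b : ℤ} {E : FOb k} {M : Fin 2 → E.I → Wo k} :
    M ∈ Homs (FF k a b) E ↔
      M ∈ HG (fun i => lml E.I (xo k i)) (E.filt a (b + 1)) (E.filt (a - 1) (b + 2)) := by
  rw [FF_homs_iff, mem_HG]
  constructor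
  · rintro ⟨h0, h1, h2⟩
    refine ⟨fun i => ?_, h2⟩
    fin_cases i
    · exact h0
    · exact h1
  · rintro ⟨h0, h2⟩
    exact ⟨h0 0, h0 1, h2⟩

/-- `Hom(K(a,b), E)` as `HG` -/
theorem KK_HG {a b : ℤ} {E : FOb k} {M : Fin 2 → E.I → Wo k} :
    M ∈ Homs (KK k a b) E ↔
      M ∈ HG (fun i => lml E.I (po k i)) (E.filt a (b + 1)) (E.filt (a + 1) (b + 1)) := by
  rw [KK_homs_iff, mem_HG]
  constructor
  · rintro ⟨h0, h1, h2⟩
    refine ⟨fun i => ?_, h2⟩
    fin_cases i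
    · exact h0
    · exact h1
  · rintro ⟨h0, h2⟩
    exact ⟨h0 0, h0 1, h2⟩

section FK

variable {D E F G : FOb k} {e : D ⟶ E} {f : E ⟶ F} {g : F ⟶ G}

/-- (R1) for the source `F(a,b)` -/
theorem ex_FF {a b : ℤ} (hef : e ≫ f = 0)
    (hA : ExAt f g a (b + 1)) (hB : ExAt f g (a - 1) (b + 2)) (hC : ExAt e f (a - 1) (b + 1))
    (hs : SurjX D a b) (x : FF k a b ⟶ F) (hx : x ≫ g = 0) :
    ∃ y : FF k a b ⟶ E, y ≫ f = x := by
  obtain ⟨y, hy, hy'⟩ := HG_exact (actl e) (actl f) (actl g) (fun i => lml D.I (xo k i))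
    (fun i => lml E.I (xo k i)) (fun i => lml F.I (xo k i)) (fun i => lml G.I (xo k i))
    (fun i x => actl_lml e _ x) (fun i x => actl_lml f _ x) (fun i x => actl_lml g _ x)
    (fun x => by
      have := congrArg (fun m => act (F := F) m x) (congrArg Subtype.val hef)
      rw [comp_val, act_cmp] at this
      refine this.trans ?_
      funext j
      simp [act, zero_val])
    (A₃ := D.filt a (b + 1)) (B₃ := D.filt (a - 1) (b + 2)) (C₃ := D.filt (a - 1) (b + 1))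
    (A₂ := E.filt a (b + 1)) (B₂ := E.filt (a - 1) (b + 2)) (C₂ := E.filt (a - 1) (b + 1))
    (A₁ := F.filt a (b + 1)) (B₁ := F.filt (a - 1) (b + 2))
    (fun x hx => actl_mem e hx) (fun x hx => actl_mem e hx)
    (filt_mono E (by omega)) (fun i x hx => xo_filt E i hx)
    (fun x hx h => hA x hx h) (fun x hx h => hB x hx h) (fun x hx h => hC x hx h)
    (fun x hx => by
      obtain ⟨v, w, hw, hv, h⟩ := hs x hx
      exact ⟨v, w, hw, hv, h⟩)
    (FF_HG.1 x.2) (comp_zero_iff.1 hx)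
  exact ⟨⟨y, FF_HG.2 hy⟩, comp_eq_iff.2 hy'⟩

/-- (R1) for the source `K(a,b)` -/
theorem ex_KK {a b : ℤ} (hef : e ≫ f = 0)
    (hA : ExAt f g a (b + 1)) (hB : ExAt f g (a + 1) (b + 1)) (hC : ExAt e f (a + 1) b)
    (hs : SurjP D a b) (x : KK k a b ⟶ F) (hx : x ≫ g = 0) :
    ∃ y : KK k a b ⟶ E, y ≫ f = x := by
  obtain ⟨y, hy, hy'⟩ := HG_exact (actl e) (actl f) (actl g) (fun i => lml D.I (po k i))
    (fun i => lml E.I (po k i)) (fun i => lml F.I (po k i)) (fun i => lml G.I (po k i))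
    (fun i x => actl_lml e _ x) (fun i x => actl_lml f _ x) (fun i x => actl_lml g _ x)
    (fun x => by
      have := congrArg (fun m => act (F := F) m x) (congrArg Subtype.val hef)
      rw [comp_val, act_cmp] at this
      refine this.trans ?_
      funext j
      simp [act, zero_val])
    (A₃ := D.filt a (b + 1)) (B₃ := D.filt (a + 1) (b + 1)) (C₃ := D.filt (a + 1) b)
    (A₂ := E.filt a (b + 1)) (B₂ := E.filt (a + 1) (b + 1)) (C₂ := E.filt (a + 1) b)
    (A₁ := F.filt a (b + 1)) (B₁ := F.filt (a + 1) (b + 1))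
    (fun x hx => actl_mem e hx) (fun x hx => actl_mem e hx)
    (filt_mono E (by omega)) (fun i x hx => by
      have := po_filt E i hx
      rwa [add_sub_cancel_right] at this)
    (fun x hx h => hA x hx h) (fun x hx h => hB x hx h) (fun x hx h => hC x hx h)
    (fun x hx => by
      obtain ⟨v, w, hw, hv, h⟩ := hs x hx
      exact ⟨v, w, hw, hv, h⟩)
    (KK_HG.1 x.2) (comp_zero_iff.1 hx)
  exact ⟨⟨y, KK_HG.2 hy⟩, comp_eq_iff.2 hy'⟩

/-- (R1) for the source `F(a,b)`, left end -/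
theorem ex_FF_left {a b : ℤ}
    (hA : ExAt f g a (b + 1)) (hB : ExAt f g (a - 1) (b + 2)) (hC : InjAt f (a - 1) (b + 1))
    (x : FF k a b ⟶ F) (hx : x ≫ g = 0) :
    ∃ y : FF k a b ⟶ E, y ≫ f = x := by
  obtain ⟨y, hy, hy'⟩ := HG_exact (0 : (E.I → Wo k) →ₗ[k] (E.I → Wo k)) (actl f) (actl g)
    (fun i => lml E.I (xo k i))
    (fun i => lml E.I (xo k i)) (fun i => lml F.I (xo k i)) (fun i => lml G.I (xo k i))
    (fun i x => by simp) (fun i x => actl_lml f _ x) (fun i x => actl_lml g _ x)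
    (fun x => by simp)
    (A₃ := ⊥) (B₃ := ⊥) (C₃ := ⊥)
    (A₂ := E.filt a (b + 1)) (B₂ := E.filt (a - 1) (b + 2)) (C₂ := E.filt (a - 1) (b + 1))
    (A₁ := F.filt a (b + 1)) (B₁ := F.filt (a - 1) (b + 2))
    (fun x _ => Submodule.zero_mem _) (fun x _ => Submodule.zero_mem _)
    (filt_mono E (by omega)) (fun i x hx => xo_filt E i hx)
    (fun x hx h => hA x hx h) (fun x hx h => hB x hx h)
    (fun x hx h => ⟨0, Submodule.zero_mem _, by rw [map_zero, hC x hx h]⟩)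
    (fun x hx => ⟨0, 0, Submodule.zero_mem _, fun i => Submodule.zero_mem _, by
      rw [(Submodule.mem_bot k).1 hx]; simp⟩)
    (FF_HG.1 x.2) (comp_zero_iff.1 hx)
  exact ⟨⟨y, FF_HG.2 hy⟩, comp_eq_iff.2 hy'⟩

/-- (R1) for the source `K(a,b)`, left end -/
theorem ex_KK_left {a b : ℤ}
    (hA : ExAt f g a (b + 1)) (hB : ExAt f g (a + 1) (b + 1)) (hC : InjAt f (a + 1) b)
    (x : KK k a b ⟶ F) (hx : x ≫ g = 0) :
    ∃ y : KK k a b ⟶ E, y ≫ f = x := by
  obtain ⟨y, hy, hy'⟩ := HG_exact (0 : (E.I → Wo k) →ₗ[k] (E.I → Wo k)) (actl f) (actl g)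
    (fun i => lml E.I (po k i))
    (fun i => lml E.I (po k i)) (fun i => lml F.I (po k i)) (fun i => lml G.I (po k i))
    (fun i x => by simp) (fun i x => actl_lml f _ x) (fun i x => actl_lml g _ x)
    (fun x => by simp)
    (A₃ := ⊥) (B₃ := ⊥) (C₃ := ⊥)
    (A₂ := E.filt a (b + 1)) (B₂ := E.filt (a + 1) (b + 1)) (C₂ := E.filt (a + 1) b)
    (A₁ := F.filt a (b + 1)) (B₁ := F.filt (a + 1) (b + 1))
    (fun x _ => Submodule.zero_mem _) (fun x _ => Submodule.zero_mem _)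
    (filt_mono E (by omega)) (fun i x hx => by
      have := po_filt E i hx
      rwa [add_sub_cancel_right] at this)
    (fun x hx h => hA x hx h) (fun x hx h => hB x hx h)
    (fun x hx h => ⟨0, Submodule.zero_mem _, by rw [map_zero, hC x hx h]⟩)
    (fun x hx => ⟨0, 0, Submodule.zero_mem _, fun i => Submodule.zero_mem _, by
      rw [(Submodule.mem_bot k).1 hx]; simp⟩)
    (KK_HG.1 x.2) (comp_zero_iff.1 hx)
  exact ⟨⟨y, KK_HG.2 hy⟩, comp_eq_iff.2 hy'⟩

theorem inj_FF {a b : ℤ} (h : InjAt f a (b + 1)) (x : FF k a b ⟶ E) (hx : x ≫ f = 0) : x = 0 := by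
  apply hom_ext
  funext i
  exact h (x.1 i) ((FF_HG.1 x.2).1 i) (comp_zero_iff.1 hx i)

theorem inj_KK {a b : ℤ} (h : InjAt f a (b + 1)) (x : KK k a b ⟶ E) (hx : x ≫ f = 0) : x = 0 := by
  apply hom_ext
  funext i
  exact h (x.1 i) ((KK_HG.1 x.2).1 i) (comp_zero_iff.1 hx i)

/-- (R1) for the source `F(a,b)`, right end with augmentation -/
theorem ex_FF_aug {a b : ℤ} (hef : e ≫ f = 0) {h : Aug F}
    (hA : ExAug f h a (b + 1)) (hB : ExAug f h (a - 1) (b + 2)) (hC : ExAt e f (a - 1) (b + 1))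
    (hs : SurjX D a b) (x : FF k a b ⟶ F) (hx : ∀ i : Fin 2, h.h (x.1 i) = 0) :
    ∃ y : FF k a b ⟶ E, y ≫ f = x := by
  obtain ⟨y, hy, hy'⟩ := HG_exact (actl e) (actl f) h.h (fun i => lml D.I (xo k i))
    (fun i => lml E.I (xo k i)) (fun i => lml F.I (xo k i)) (fun i => xo k i)
    (fun i x => actl_lml e _ x) (fun i x => actl_lml f _ x) (fun i x => h.lin _ x)
    (fun x => by
      have := congrArg (fun m => act (F := F) m x) (congrArg Subtype.val hef)
      rw [comp_val, act_cmp] at this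
      refine this.trans ?_
      funext j
      simp [act, zero_val])
    (A₃ := D.filt a (b + 1)) (B₃ := D.filt (a - 1) (b + 2)) (C₃ := D.filt (a - 1) (b + 1))
    (A₂ := E.filt a (b + 1)) (B₂ := E.filt (a - 1) (b + 2)) (C₂ := E.filt (a - 1) (b + 1))
    (A₁ := F.filt a (b + 1)) (B₁ := F.filt (a - 1) (b + 2))
    (fun x hx => actl_mem e hx) (fun x hx => actl_mem e hx)
    (filt_mono E (by omega)) (fun i x hx => xo_filt E i hx)
    (fun x hx h => hA x hx h) (fun x hx h => hB x hx h) (fun x hx h => hC x hx h)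
    (fun x hx => by
      obtain ⟨v, w, hw, hv, h⟩ := hs x hx
      exact ⟨v, w, hw, hv, h⟩)
    (FF_HG.1 x.2) hx
  exact ⟨⟨y, FF_HG.2 hy⟩, comp_eq_iff.2 hy'⟩

/-- (R1) for the source `K(a,b)`, right end with augmentation -/
theorem ex_KK_aug {a b : ℤ} (hef : e ≫ f = 0) {h : Aug F}
    (hA : ExAug f h a (b + 1)) (hB : ExAug f h (a + 1) (b + 1)) (hC : ExAt e f (a + 1) b)
    (hs : SurjP D a b) (x : KK k a b ⟶ F) (hx : ∀ i : Fin 2, h.h (x.1 i) = 0) :
    ∃ y : KK k a b ⟶ E, y ≫ f = x := by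
  obtain ⟨y, hy, hy'⟩ := HG_exact (actl e) (actl f) h.h (fun i => lml D.I (po k i))
    (fun i => lml E.I (po k i)) (fun i => lml F.I (po k i)) (fun i => po k i)
    (fun i x => actl_lml e _ x) (fun i x => actl_lml f _ x) (fun i x => h.lin _ x)
    (fun x => by
      have := congrArg (fun m => act (F := F) m x) (congrArg Subtype.val hef)
      rw [comp_val, act_cmp] at this
      refine this.trans ?_
      funext j
      simp [act, zero_val])
    (A₃ := D.filt a (b + 1)) (B₃ := D.filt (a + 1) (b + 1)) (C₃ := D.filt (a + 1) b)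
    (A₂ := E.filt a (b + 1)) (B₂ := E.filt (a + 1) (b + 1)) (C₂ := E.filt (a + 1) b)
    (A₁ := F.filt a (b + 1)) (B₁ := F.filt (a + 1) (b + 1))
    (fun x hx => actl_mem e hx) (fun x hx => actl_mem e hx)
    (filt_mono E (by omega)) (fun i x hx => by
      have := po_filt E i hx
      rwa [add_sub_cancel_right] at this)
    (fun x hx h => hA x hx h) (fun x hx h => hB x hx h) (fun x hx h => hC x hx h)
    (fun x hx => by
      obtain ⟨v, w, hw, hv, h⟩ := hs x hx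
      exact ⟨v, w, hw, hv, h⟩)
    (KK_HG.1 x.2) hx
  exact ⟨⟨y, KK_HG.2 hy⟩, comp_eq_iff.2 hy'⟩

end FK

end FOb

end P195E
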